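import Vale.Agent.P067.Gen

/-! Acyclicity of the coset complexes in characteristic two. -/

namespace Vale.Agent.P067

open Finset Module Matrix Pointwise

section
variable {F R : Type} [Field F] [Fintype F] [CommRing R] [Algebra F R] [Finite R]
  {ε : R →ₐ[F] F} {t : R} {m c n : ℕ} {ι : Type} [Fintype ι] [DecidableEq ι]

variable (ε t) in
def XW (col : ι → ℕ) (W : Submodule F (Fin n → R)) : Set (Finset (Vx ι (PG ε n))) :=
  {σ | σ ∈ CC (fun s => KK ε n t (col s)) Set.univ univ ∧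
    ∀ v ∈ σ, ∀ x ∈ v.cs, W ≤ actS x (Dst F R n (col v.col))}

omit [Fintype F] [DecidableEq ι] in
lemma face_mem_XW {col : ι → ℕ} {W : Submodule F (Fin n → R)} {x : PG ε n} {S : Finset ι} :
    face (fun s => KK ε n t (col s)) x S ∈ XW ε t col W ↔
      ∀ s ∈ S, W ≤ actS x (Dst F R n (col s)) := by
  constructor
  · intro h s hs
    exact h.2 _ ((vx_mem_face _).mpr hs) x (by simp [vx])
  · intro h
    refine ⟨⟨x, trivial, S, subset_univ _, rfl⟩, fun v hv y hy => ?_⟩
    obtain ⟨s, hs, rfl⟩ := (mem_face _).mp hv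
    have h1 : x⁻¹ * y ∈ KK ε n t (col s) := hy
    rw [← mul_inv_cancel_left x y, actS_mul]
    exact (actS_Dst h1).symm ▸ h s hs

omit [Fintype F] [DecidableEq ι] in
lemma smul_XW {col : ι → ℕ} {W W' : Submodule F (Fin n → R)} (g : PG ε n) (h : W' ≤ actS g W) :
    ∀ σ ∈ XW ε t col W, g • σ ∈ XW ε t col W' := by
  intro σ hσ
  obtain ⟨x, -, S, -, rfl⟩ := hσ.1
  rw [smul_face]
  rw [face_mem_XW] at hσ ⊢
  intro s hs
  rw [actS_mul]
  exact h.trans (actS_mono g (hσ s hs))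

omit [Fintype F] [DecidableEq ι] in
lemma XW_Dst {col : ι → ℕ} (hle : ∀ s, col s ≤ m) : XW ε t col (Dst F R (m + c) m) =
    CC (fun s => KK ε (m + c) t (col s)) {x | ∃ a g, x = nuR a * ext ε m c g} univ := by
  have hid : ∀ x : PG ε (m + c), ∀ s, Dst F R (m + c) m ≤ actS x (Dst F R (m + c) s) ↔
      ∀ j : Fin c, lin x⁻¹ (Pi.single (Fin.natAdd m j) 1) ∈ Dst F R (m + c) s := by
    intro x s
    have := map_Dst_le (LinearMap.id : (Fin (m + c) → R) →ₗ[F] _) m (actS x (Dst F R (m + c) s))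
    rw [Submodule.map_id] at this
    simp only [this, Fin.forall_fin_add, LinearMap.id_apply, mem_actS]
    exact ⟨fun h j => h.2 j (by simp), fun h => ⟨fun a ha => absurd ha (by simp), fun j _ => h j⟩⟩
  ext σ
  constructor
  · intro hσ
    obtain ⟨x, -, S, -, rfl⟩ := hσ.1
    rcases S.eq_empty_or_nonempty with rfl | ⟨s1, hs1⟩
    · exact ⟨_, ⟨0, 1, rfl⟩, ∅, subset_univ _, rfl⟩
    simp only [face_mem_XW, hid] at hσ
    obtain ⟨A, B, C, D, hx⟩ := exists_blk (mat x⁻¹)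
    have h1 := mat_uni x⁻¹
    rw [hx, uni_blk] at h1
    have hD : ∀ i j, ∃ y : F, D i j = y • 1 := by
      intro i j
      obtain ⟨y, hy, -⟩ := hσ s1 hs1 j (Fin.natAdd m i)
      exact ⟨y, by simpa [lin_apply, hx, Algebra.algebraMap_eq_smul_one] using hy⟩
    have hD1 : IsUni D := by
      constructor
      · intro a b h
        obtain ⟨y, hy⟩ := hD a b
        have := h1.2.2.1 a b h
        simp only [map_apply, hy, map_smul, map_one, smul_eq_mul, mul_one] at this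
        simp [hy, this]
      · intro a
        obtain ⟨y, hy⟩ := hD a a
        have := h1.2.2.2 a
        simp only [map_apply, hy, map_smul, map_one, smul_eq_mul, mul_one] at this
        simp [hy, this]
    let κ : PG ε (m + c) := mkP (blk 1 B 0 D) (by simp [det_blk_upper, hD1.det])
      ((uni_blk _ _ _ _ _).mpr ⟨uni_one, by simp, h1.2.2⟩)
    refine ⟨x * κ, exists_nuR _ (fun j => ?_), S, subset_univ _, (face_mul _ ?_).symm⟩
    · have h2 : lin κ (Pi.single (Fin.natAdd m j) 1) = lin x⁻¹ (Pi.single (Fin.natAdd m j) 1) := by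
        funext i
        refine Fin.addCases (fun a => ?_) (fun a => ?_) i <;> simp [lin_apply, hx, κ]
      rw [lin_mul, h2, ← lin_mul, mul_inv_cancel, lin_one]
    · intro s hs
      refine (KK_blk (hle s) rfl).mpr ⟨one_shape _, fun a j => ?_, fun _ _ => ⟨0, by simp⟩, hD⟩
      obtain ⟨y, hy, hy'⟩ := hσ s hs j (Fin.castAdd c a)
      simp only [lin_apply, hx, mulVec_single_one, col_apply, blk_cn] at hy
      refine ⟨y, ?_⟩
      split_ifs with h
      · simp [hy, hy' h]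
      · simp [hy, Algebra.algebraMap_eq_smul_one]
  · rintro ⟨_, ⟨a, g, rfl⟩, S, -, rfl⟩
    simp only [face_mem_XW, hid]
    intro s _ j
    have h2 : lin (nuR a * ext ε m c g) (Pi.single (Fin.natAdd m j) 1) =
        Pi.single (Fin.natAdd m j) 1 := by
      funext i
      refine Fin.addCases (fun a => ?_) (fun a => ?_) i
      · rw [Pi.single_eq_of_ne (i' := Fin.castAdd c a) (by simp [Fin.ext_iff]; omega)]
        simp [lin_apply, mat_mul, mat_nuR, mat_ext', blk_mul]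
      · simp [lin_apply, mat_mul, mat_nuR, mat_ext', blk_mul, Pi.single_apply, one_apply]
    rw [← h2, ← lin_mul, inv_mul_cancel, lin_one]
    exact single_mem_Dst (by have := hle s; simp; omega)

variable {k : Type} [Field k] [CharP k 2]

omit [Fintype F] [CharP k 2] in
lemma ex_ext [Nonempty ι] {col : ι → ℕ} (hle : ∀ s, col s ≤ m) {e : ℕ}
    (h : Ex k (CC (fun s => KK ε m t (col s)) Set.univ univ) e) :
    Ex k (CC (fun s => KK ε (m + c) t (col s)) (Set.range (ext ε m c)) univ) e := by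
  classical
  have key := Ex.transport_param (k := k) (e := e)
    (fun p : PG ε m × ι => vx (fun s => KK ε m t (col s)) p.1 p.2)
    (fun p => vx (fun s => KK ε (m + c) t (col s)) (ext ε m c p.1) p.2) Set.univ (by
      rintro ⟨x, s⟩ - ⟨x', s'⟩ -
      simp only [vx_eq, ← map_inv, ← map_mul, ext_mem (hle s)])
    {T | ∃ (x : PG ε m) (S : Finset ι), T = S.image (fun s => (x, s))} (by simp) (by
      convert h
      ext σ
      constructor
      · rintro ⟨_, ⟨x, S, rfl⟩, rfl⟩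
        exact ⟨x, trivial, S, subset_univ _, by simp only [image_image]; rfl⟩
      · rintro ⟨x, -, S, -, rfl⟩
        exact ⟨_, ⟨x, S, rfl⟩, by simp only [image_image]; rfl⟩)
  convert key
  ext σ
  constructor
  · rintro ⟨_, ⟨x, rfl⟩, S, -, rfl⟩
    exact ⟨_, ⟨x, S, rfl⟩, by simp only [image_image]; rfl⟩
  · rintro ⟨_, ⟨x, S, rfl⟩, rfl⟩
    exact ⟨_, ⟨x, rfl⟩, S, subset_univ _, by simp only [image_image]; rfl⟩

lemma ex_XW [Nonempty ι] {n0 k0 : ℕ} (hg : GoodF k F n0) (hm : m ≤ n0)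
    (hR : RD ε t k0) (col : ι → ℕ)
    (hcol : Function.Injective col) (hlt : ∀ s, col s < m) (ψ : AddChar F k) (hψ : ψ ≠ 1)
    (hF : (Fintype.card F : k) ≠ 0) (e : ℕ) (he : e < Fintype.card ι)
    (h : Ex k (CC (fun s => KK ε m t (col s)) Set.univ univ) e) (hn : n = m + c)
    (W : Submodule F (Fin n → R)) (h1 : finrank F W = c) (h2 : W ⊓ Fl ε n (finrank F W) = ⊥) :
    Ex k (XW ε t col W) e := by
  subst hn
  have hm0 := hlt (Classical.arbitrary ι)
  obtain ⟨γ, hγ⟩ := transitive (fun r hr => hR.unit r (by rw [hr]; exact one_ne_zero)) {W}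
    (by simpa using ⟨by omega, h2⟩) (by simp)
  have h3 := hγ W (mem_singleton_self _)
  rw [h1, Nat.add_sub_cancel] at h3
  refine Ex.smul (A := XW ε t col (Dst F R (m + c) m)) ?_ γ (smul_XW γ h3.le)
    (smul_XW _ (by rw [h3, ← actS_mul, inv_mul_cancel, actS_one]))
  rw [XW_Dst (fun s => (hlt s).le)]
  intro z hz hz0
  obtain ⟨-, z', h4, h5, y, h6, h7⟩ := semi_row hg hm hR col hcol hlt ψ hψ hF e he z hz hz0
  obtain ⟨y', h8, h9⟩ := ex_ext (fun s => (hlt s).le) h z' h4 h5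
  refine ⟨y + y', h6.add (h8.mono (CC_mono _ ?_ _)), ?_⟩
  · rintro _ ⟨g, rfl⟩
    refine ⟨0, g, ?_⟩
    have := nuR_add (ε := ε) (0 : NR ε m c) 0
    rw [add_zero] at this
    rw [left_eq_mul.mp this, one_mul]
  · rw [map_add, h7, h9, add_assoc, add_self2, add_zero]

lemma decomp [Nonempty ι] {n0 k0 T : ℕ} (hg : GoodF k F n0) (hn : n ≤ n0)
    (hR : RD ε t k0) (col : ι → ℕ)
    (hcol : Function.Injective col) (hT : ∀ s, col s < T) (ψ : AddChar F k) (hψ : ψ ≠ 1)
    (hF : (Fintype.card F : k) ≠ 0) (e : ℕ) (he : e < Fintype.card ι) (hT' : T + e + 2 ≤ n)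
    (ih : ∀ a < e, ∀ m, n ≤ m + (e + 1) → m ≤ n →
      Ex k (CC (fun s => KK ε m t (col s)) Set.univ univ) a)
    (z : Finset (Vx ι (PG ε n)) → k)
    (hz : Supp (CC (fun s => KK ε n t (col s)) Set.univ univ) e z) (hz0 : bd z = 0) :
    ∃ (A : Finset (Submodule F (Fin n → R))) (y : Submodule F (Fin n → R) →
      Finset (Vx ι (PG ε n)) → k), z = ∑ W ∈ A, y W ∧ ∀ W, bd (y W) = 0 ∧ ∃ γ : PG ε n, Supp (XW ε t col (actS γ (Dst F R n (n - 1)))) e (y W) := by
  classical
  let _ : Fintype R := Fintype.ofFinite _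
  have hD : ∀ x : PG ε n, actS x (Dst F R n T) ≠ ⊥ := by
    intro x h
    have := finrank_actS x (Dst F R n T)
    rw [h, finrank_Dst ε (by omega), finrank_bot] at this
    omega
  let D : ∀ top : Submodule F (Fin n → R), (∃ x : PG ε n, actS x (Dst F R n T) ≤ top) →
      GD F (Fin n → R) (e + 1) := fun top h =>
    { Fl := Fl ε n, top := top, H := ⊥, H' := ⊤, anti := Fl_anti
      rk := fun c hc => finrank_Fl c (by omega)
      htop := by
        obtain ⟨x, hx⟩ := h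
        exact top_le_iff.mp ((actS_sup_Fl x (Dst_sup_Fl (s := T) (by omega))).ge.trans
          (sup_le_sup_right hx _))
      hH := by
        obtain ⟨x, hx⟩ := h
        exact fun h' => hD x (le_bot_iff.mp (hx.trans h'))
      hH' := fun h' => hD 1 (le_bot_iff.mp (h' ▸ le_top)) }
  let D0 := D ⊤ ⟨1, le_top⟩
  obtain ⟨y, hy1, hy2⟩ := zigzag (k := k) (fun (σ : Finset (Vx ι (PG ε n)))
    (ω : Finset (Submodule F (Fin n → R))) =>
      σ ∈ CC (fun s => KK ε n t (col s)) Set.univ univ ∧ ω ∈ D0.Y ∅ (Icc 1 (e + 1)) ∧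
      ∀ W ∈ ω, σ ∈ XW ε t col W)
    (fun ω σ h ρ hρ => ⟨CC_down _ _ _ _ h.1 _ hρ, h.2.1, fun W hW =>
      ⟨CC_down _ _ _ _ h.1 _ hρ, fun v hv => (h.2.2 W hW).2 v (hρ hv)⟩⟩)
    (fun σ ω h ρ hρ => ⟨h.1, D0.down _ _ _ h.2.1 _ hρ, fun W hW => h.2.2 W (hρ hW)⟩) e
    (by
      rintro _ ⟨⟨x, -, S, -, rfl⟩, -⟩ b hb
      have h1 := hg (e + 1) (by omega) _ (D (⨅ s ∈ S, actS x (Dst F R n (col s)))
        ⟨x, le_iInf₂ (fun s _ => actS_mono x (Dst_anti (hT s).le))⟩) ∅ (Icc 1 (e + 1)) b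
        ⟨by simp, by simp⟩ (by simp [Free]) (by simp; omega)
      convert h1
      ext ω
      simp only [face_mem_XW, Set.mem_ofPred_eq]
      constructor
      · rintro ⟨-, ⟨h2, h3⟩, h4⟩
        exact ⟨fun W hW => ⟨⟨le_iInf₂ (h4 W hW), (h2 W hW).1.2⟩, (h2 W hW).2⟩, h3⟩
      · rintro ⟨h2, h3⟩
        exact ⟨⟨x, trivial, S, subset_univ _, rfl⟩,
          ⟨fun W hW => ⟨⟨le_top, (h2 W hW).1.2⟩, (h2 W hW).2⟩, h3⟩,
          fun W hW => le_iInf₂_iff.mp (h2 W hW).1.1⟩)
    (by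
      rintro ω hω ⟨-, h1, -⟩ a ha
      obtain ⟨W, hW, hmax⟩ := exists_max_image ω (fun W : Submodule F (Fin n → R) => finrank F W)
        (nonempty_iff_ne_empty.mpr hω)
      obtain ⟨-, h2, h3, h4, -⟩ := (h1.1 W hW).1
      have h5 := ex_XW (m := n - finrank F W) hg (by omega) hR col hcol
        (fun s => by have := hT s; omega) ψ hψ hF a (by omega)
        (ih a ha _ (by omega) (by omega)) (by omega) W rfl h4
      convert h5
      ext σ
      exact ⟨fun h => h.2.2 W hW, fun h => ⟨h.1, h1, fun W' hW' => ⟨h.1, fun v hv x hx =>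
        (le_of_comp (h1.2 W' hW' W hW) (hmax W' hW')).trans (h.2 v hv x hx)⟩⟩⟩)
    z (fun σ h => ⟨⟨(hz σ h).1, ⟨by simp, by simp⟩, by simp⟩, (hz σ h).2⟩) hz0
  refine ⟨univ, y, hy2, fun W => ⟨(hy1 W).2, ?_⟩⟩
  by_cases h : y W = 0
  · exact ⟨1, h ▸ Supp.zero _ _⟩
  obtain ⟨σ, hσ⟩ := Function.ne_iff.mp h
  obtain ⟨-, h2, h3, h4, -⟩ := (((hy1 W).1 σ hσ).1.2.1.1 W (mem_singleton_self _)).1
  obtain ⟨γ, hγ⟩ := transitive (fun r hr => hR.unit r (by rw [hr]; exact one_ne_zero)) {W}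
    (by simpa using ⟨by omega, h4⟩) (by simp)
  have h5 := hγ W (mem_singleton_self _)
  refine ⟨γ, (hy1 W).1.mono (fun ρ hρ => ⟨hρ.1, fun v hv x hx => le_trans ?_
    ((hρ.2.2 W (mem_singleton_self _)).2 v hv x hx)⟩)⟩
  rw [h5]
  exact actS_mono γ (Dst_anti (by omega))

theorem acyc {n0 k0 T : ℕ} (hg : GoodF k F n0) (hR : RD ε t k0) (h2 : (2 : F) ≠ 0) (col : ι → ℕ)
    (hcol : Function.Injective col) (hT : ∀ s, col s < T) (s0 : ι) (hs0 : col s0 = 0)
    (ψ : AddChar F k) (hψ : ψ ≠ 1) (hF : (Fintype.card F : k) ≠ 0) (e : ℕ) :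
    e < Fintype.card ι → ∀ n, T + 1 + (e + 1) * Fintype.card ι ≤ n → n ≤ n0 →
      Ex k (CC (fun s => KK ε n t (col s)) Set.univ univ) e := by
  have : Nonempty ι := ⟨s0⟩
  induction e using Nat.strong_induction_on with
  | _ e ih =>
  intro he n h1 hn
  have h3 := Nat.le_mul_of_pos_right (e + 1) (show 0 < Fintype.card ι by omega)
  obtain ⟨m, rfl⟩ : ∃ m, n = m + 1 := ⟨n - 1, by omega⟩
  have hlt : ∀ s, col s < m := fun s => by have := hT s; omega
  set K : ι → Subgroup (PG ε (m + 1)) := fun s => KK ε (m + 1) t (col s) with hK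
  have hinv : ∀ g : PG ε (m + 1), ∀ σ ∈ CC K Set.univ univ, g • σ ∈ CC K Set.univ univ :=
    fun g => smul_mem_CC K (fun _ _ => Set.mem_univ _) _
  have hsub : CC K (Set.range (ext ε m 1)) univ ⊆
      CC K {x | ∃ a g, x = nuR a * ext ε m 1 g} univ := by
    refine CC_mono _ ?_ _
    rintro _ ⟨g, rfl⟩
    refine ⟨0, g, ?_⟩
    have := nuR_add (ε := ε) (0 : NR ε m 1) 0
    rw [add_zero] at this
    rw [left_eq_mul.mp this, one_mul]
  let mkΛ : Set (Finset (Vx ι (PG ε (m + 1)))) → Subgroup (PG ε (m + 1)) := fun A => subOf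
    { carrier := {g | ∀ z : Finset (Vx ι (PG ε (m + 1))) → k, Supp A e z → bd z = 0 →
        Hom (CC K Set.univ univ) e z (act g z)}
      mul_mem' := by
        intro g h hg hh z h1 h2
        rw [act_mul]
        exact (hg z h1 h2).trans ((hh z h1 h2).act g (hinv g))
      one_mem' := by
        intro z _ _
        rw [act_one]; exact Hom.refl _ _ _ }
  have hC : ∀ κ, nuC ε m κ ∈ mkΛ (CC K (Set.range (ext ε m 1)) univ) := fun κ z hz hz0 =>
    semi_col hg (by omega) hR col hcol hlt ψ hψ hF e he z hz hz0 κ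
  have hRr : ∀ ρ, nuR ρ ∈ mkΛ (CC K (Set.range (ext ε m 1)) univ) := fun ρ z hz hz0 =>
    ((semi_row hg (by omega) hR col hcol hlt ψ hψ hF e he z (hz.mono hsub) hz0).1 ρ).mono
      (CC_mono _ (Set.subset_univ _) _)
  have hall : ∀ z : Finset (Vx ι (PG ε (m + 1))) → k, Supp (CC K Set.univ univ) e z → bd z = 0 →
      ∃ z', Supp (CC K (Set.range (ext ε m 1)) univ) e z' ∧ bd z' = 0 ∧
        Hom (CC K Set.univ univ) e z z' := by
    intro z hz hz0
    obtain ⟨A, y, rfl, hy⟩ := decomp hg hn hR col hcol hT ψ hψ hF e he (by omega)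
      (fun a ha m' h4 h5 => ih a ha (by omega) m' (by
        have := Nat.mul_le_mul_right (Fintype.card ι) (Nat.succ_le_of_lt ha)
        simp only [Nat.succ_mul] at *
        omega) (by omega)) z hz hz0
    have h4 : ∀ W, ∃ z', Supp (CC K (Set.range (ext ε m 1)) univ) e z' ∧ bd z' = 0 ∧
        Hom (CC K Set.univ univ) e (y W) z' := by
      intro W
      obtain ⟨h4, γ, h5⟩ := hy W
      have h6 := h5.act γ⁻¹ (smul_XW (W' := Dst F R (m + 1) m) γ⁻¹ (by
        rw [← actS_mul, inv_mul_cancel, actS_one]; rfl))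
      rw [XW_Dst (fun s => (hlt s).le)] at h6
      obtain ⟨-, z', h7, h8, h9⟩ := semi_row hg (by omega) hR col hcol hlt ψ hψ hF e he _ h6
        (by rw [bd_act, h4, map_zero])
      obtain ⟨l, hl, g, rfl⟩ := elim_col hR.unit (lt_of_le_of_lt (Nat.zero_le _) (hlt s0)) _ hC
        hRr γ
      have h10 := h7.act (ext ε m 1 g) (smul_mem_CC (Ω' := Set.range (ext ε m 1)) K (by
        rintro _ ⟨g', rfl⟩; exact ⟨g * g', map_mul _ _ _⟩) _)
      have h11 : bd (act (ext ε m 1 g) z') = 0 := by rw [bd_act, h8, map_zero]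
      refine ⟨_, h10, h11, Hom.trans ?_ (hl _ h10 h11).symm⟩
      have h12 := (h9.mono (CC_mono _ (Set.subset_univ _) _)).act _ (hinv (l * ext ε m 1 g))
      rwa [← act_mul, mul_inv_cancel, act_one, act_mul] at h12
    choose z' h4 using h4
    exact ⟨∑ W ∈ A, z' W, Supp.sum _ (fun W _ => (h4 W).1), by simp [map_sum, fun W => (h4 W).2.1],
      Hom.sum _ (fun W _ => (h4 W).2.2)⟩
  have hle : mkΛ (CC K (Set.range (ext ε m 1)) univ) ≤ mkΛ (CC K Set.univ univ) := by
    intro l hl z hz hz0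
    obtain ⟨z', h4, h5, h6⟩ := hall z hz hz0
    exact h6.trans ((hl z' h4 h5).trans (h6.act l (hinv l)).symm)
  have : (mkΛ (CC K Set.univ univ)).Normal := ⟨by
    intro l hl g z hz hz0
    have := (hl _ (hz.act g⁻¹ (hinv _)) (by rw [bd_act, hz0, map_zero])).act g (hinv g)
    rwa [← act_mul, mul_inv_cancel, act_one, ← act_mul, ← act_mul] at this⟩
  refine ex_of_normal K (mkΛ (CC K Set.univ univ)) (card_odd hR.unit h2 _) s0 (fun g => ?_) e
    (fun l hl => hl)
  obtain ⟨κ, h4, h5, h6⟩ := elim_gamma (t := t) hR.unit _ (fun κ => hle (hC κ))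
    (fun ρ => hle (hRr ρ)) g
  exact ⟨κ, by simpa only [hK, hs0] using h4, h5, fun s hs => h6 _ hs hR.hε⟩

end

end Vale.Agent.P067
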