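import Vale.Agent.P067.EK1

/-! The Evra-Kaufman local-to-global argument for coset complexes. -/

namespace Vale.Agent.P067

open Finset Pointwise

section
variable {ι G : Type} [DecidableEq ι]

inductive Lad (F : Finset ι → G → Prop) (x : G) (S' : Finset ι) : Finset ι → Prop
  | base : F S' x → Lad F x S' S'
  | step (S : Finset ι) (c : ι) : F S x → c ∉ S → Lad F x S' (insert c S) → Lad F x S' S

lemma Lad.subset {F : Finset ι → G → Prop} {x : G} {S' S : Finset ι} (h : Lad F x S' S) :
    S ⊆ S' := by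
  induction h with
  | base _ => exact Subset.rfl
  | step S c _ _ _ ih => exact (subset_insert _ _).trans ih

lemma Lad.fat {F : Finset ι → G → Prop} {x : G} {S' S : Finset ι} (h : Lad F x S' S) : F S x := by
  cases h with
  | base h => exact h
  | step S c h _ _ => exact h

lemma Lad.top {F : Finset ι → G → Prop} {x : G} {S' S : Finset ι} (h : Lad F x S' S) : F S' x := by
  induction h with
  | base h => exact h
  | step S c _ _ _ ih => exact ih

lemma Lad.congr {F : Finset ι → G → Prop} {x y : G} {S' S : Finset ι} (h : Lad F x S' S)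
    (hxy : ∀ T ⊆ S', F T x → F T y) : Lad F y S' S := by
  induction h with
  | base h => exact Lad.base (hxy _ Subset.rfl h)
  | step S c h1 h2 h3 ih =>
    exact Lad.step S c (hxy _ ((subset_insert _ _).trans h3.subset) h1) h2 ih

def Dead (F : Finset ι → G → Prop) (j : ℕ) (x : G) : Prop :=
  ∃ S c c', c ∉ S ∧ c' ∉ S ∧ c ≠ c' ∧ S.card < j ∧ F (insert c S) x ∧ F (insert c' S) x ∧ ¬ F S x

lemma Lad.move {F : Finset ι → G → Prop} {x : G} {S' S : Finset ι} {j : ℕ} {w u : ι}
    (h : Lad F x S' S) (hw : w ∉ S') (hj : S'.card = j) (hu : u ∈ S')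
    (hF : F ((insert w S').erase u) x) (hd : ¬ Dead F j x) :
    Lad F x ((insert w S').erase u) (S.erase u) := by
  have hwu : w ≠ u := by rintro rfl; exact hw hu
  have nd : ∀ S c c', c ∉ S → c' ∉ S → c ≠ c' → S.card < j → F (insert c S) x →
      F (insert c' S) x → F S x := by
    intro S c c' h1 h2 h3 h4 h5 h6
    by_contra h7
    exact hd ⟨S, c, c', h1, h2, h3, h4, h5, h6, h7⟩
  induction h with
  | base h =>
    have h1 : w ∉ S'.erase u := fun h => hw (mem_of_mem_erase h)
    rw [erase_insert_of_ne hwu] at hF ⊢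
    refine Lad.step _ w (nd _ w u h1 (notMem_erase _ _) hwu ?_ hF (by rwa [insert_erase hu])) h1
      (Lad.base hF)
    have := card_erase_add_one hu
    omega
  | step S c h1 h2 h3 ih =>
    by_cases hcu : c = u
    · subst hcu
      rwa [erase_insert h2, ← erase_eq_of_notMem h2] at ih
    rw [erase_insert_of_ne hcu] at ih
    have h4 : c ∉ S.erase u := fun h => h2 (mem_of_mem_erase h)
    refine Lad.step _ c ?_ h4 ih
    by_cases huS : u ∈ S
    · refine nd _ c u h4 (notMem_erase _ _) hcu ?_ ih.fat (by rwa [insert_erase huS])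
      have h5 := card_erase_add_one huS
      have h6 := card_le_card h3.subset
      rw [card_insert_of_notMem h2] at h6
      omega
    · rwa [erase_eq_of_notMem huS]

end

section
variable {ι G : Type} [Fintype ι] [DecidableEq ι] [Group G] [Fintype G] (K : ι → Subgroup G)
  {k : Type*} [Field k]

omit [Fintype ι] in
lemma exists_fat (j : ℕ) (g : Finset (Vx ι G) → k) (θ : ℕ → ℝ) :
    ∃ F : Finset ι → G → Prop, (∀ S x, S.card = j → (F S x ↔ g (face K x S) ≠ 0)) ∧
      (∀ S x, S.card < j → (F S x ↔ ∃ c ∉ S, θ S.card * Fintype.card (KS K S) ≤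
        nc (fun κ : KS K S => F (insert c S) (x * κ)))) ∧
      (∀ S x, ∀ κ ∈ KS K S, F S (x * κ) ↔ F S x) := by
  let Fat : ℕ → Finset ι → G → Prop := fun m => Nat.rec (fun S x => g (face K x S) ≠ 0)
    (fun _ F S x => ∃ c ∉ S, θ S.card * Fintype.card (KS K S) ≤
      nc (fun κ : KS K S => F (insert c S) (x * κ))) m
  refine ⟨fun S x => Fat (j - S.card) S x, ?_, ?_, ?_⟩
  · intro S x h
    simp [h, Fat]
  · intro S x h
    obtain ⟨m, hm⟩ : ∃ m, j - S.card = m + 1 := ⟨j - S.card - 1, by omega⟩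
    simp only [hm]
    refine exists_congr (fun c => and_congr_right (fun hc => ?_))
    have : j - (insert c S).card = m := by rw [card_insert_of_notMem hc]; omega
    simp only [this]
    rfl
  · intro S x κ hκ
    change Fat (j - S.card) S (x * κ) ↔ Fat (j - S.card) S x
    generalize j - S.card = m
    cases m with
    | zero => simp only [Fat, Nat.rec_zero, face_mul K ((mem_KS K).mp hκ)]
    | succ m =>
      refine exists_congr (fun c => and_congr_right (fun hc => ?_))
      rw [← nc_equiv (Equiv.mulLeft (⟨κ, hκ⟩ : KS K S))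
        (fun κ' : KS K S => Fat m (insert c S) (x * κ'))]
      simp only [Equiv.coe_mulLeft, Subgroup.coe_mul, mul_assoc]
      rfl

lemma ladder_step [CharP k 2] {j R : ℕ} (hj : j < Fintype.card ι)
    (hc : ∀ S : Finset ι, S.Nonempty → Cone k (CC K (KS K S) Sᶜ) (Fintype.card ι - S.card) R)
    (g : Finset (Vx ι G) → k) (hg : ∀ x S, S.card = j + 1 → cb g (face K x S) = 0)
    (hmin : ∀ x0 (S : Finset ι), S.Nonempty → ∀ h,
      cnt K j g ≤ cnt K j (g + cb (lift (face K x0 S) h)))
    (F : Finset ι → G → Prop) (hF0 : ∀ S x, S.card = j → (F S x ↔ g (face K x S) ≠ 0))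
    (hFi : ∀ S x, ∀ κ ∈ KS K S, F S (x * κ) ↔ F S x) (l : ℕ) (hl : l + 1 ≤ j) :
    nc (fun x => ∃ S S', S.card = l + 1 ∧ S'.card = j ∧ Lad F x S' S) ≤
      2 ^ Fintype.card ι * (2 ^ Fintype.card ι * R * 2 ^ Fintype.card ι) *
      (nc (Dead F j) + nc (fun x => ∃ S S', S.card = l ∧ S'.card = j ∧ Lad F x S' S)) := by
  classical
  set B := nc (fun x => Dead F j x ∨ ∃ S S', S.card = l ∧ S'.card = j ∧ Lad F x S' S) with hB
  have key : ∀ S ∈ powersetCard (l + 1) (univ : Finset ι),
      nc (fun x => ∃ S', S'.card = j ∧ Lad F x S' S) ≤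
        2 ^ Fintype.card ι * R * 2 ^ Fintype.card ι * B := by
    intro S hS
    rw [mem_powersetCard] at hS
    obtain ⟨e, he⟩ : ∃ e, e + S.card = j := ⟨j - S.card, by omega⟩
    have hne : S.Nonempty := card_pos.mp (by omega)
    have hpos : 0 < Fintype.card (KS K S) := Fintype.card_pos
    refine Nat.le_of_mul_le_mul_left ?_ hpos
    rw [← nc_double, mul_left_comm, hB, ← nc_double, Finset.mul_sum]
    refine Finset.sum_le_sum (fun x0 _ => ?_)
    let g' : Finset (Vx ι G) → k := fun ρ =>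
      if ∃ y S', ρ ∪ face K x0 S = face K y S' ∧ Lad F y S' S then g (ρ ∪ face K x0 S) else 0
    have hg' : ∀ (κ : KS K S) S1, g' (face K (x0 * κ) S1) =
        if Lad F (x0 * κ) (S1 ∪ S) S then g (face K (x0 * κ) (S1 ∪ S)) else 0 := by
      intro κ S1
      simp only [g', face_union_face]
      congr 1
      apply propext
      constructor
      · rintro ⟨y, S', h1, h2⟩
        obtain ⟨rfl, h3⟩ := (face_eq K).mp h1.symm
        refine h2.congr (fun T hT h => ?_)
        have := (hFi T y _ (KS_anti K hT ((mem_KS K).mpr h3))).mpr h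
        simpa using this
      · intro h; exact ⟨_, _, rfl, h⟩
    obtain ⟨h, hh⟩ := link_exp K S (hc S hne) (e := e) (by omega) x0 g'
    have h1 := loc_min K x0 S e g g' h (he ▸ hmin x0 S hne h) (by
      intro ρ hρ
      simp only [g'] at hρ ⊢
      split_ifs at hρ ⊢ with h
      · rfl
      · exact absurd rfl hρ)
    have h2 : nc (fun κ : KS K S => ∃ S', S'.card = j ∧ Lad F (x0 * κ) S' S) ≤
        cntL K x0 S e g' := by
      refine le_trans (nc_mono ?_) (nc_exists _ _)
      rintro κ ⟨S', h3, h4⟩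
      refine ⟨S' \ S, mem_powersetCard.mpr ⟨fun a ha => by simpa using (mem_sdiff.mp ha).2, ?_⟩, ?_⟩
      · rw [card_sdiff_of_subset h4.subset]; omega
      · rw [hg', sdiff_union_of_subset h4.subset, if_pos h4]
        exact (hF0 _ _ h3).mp h4.top
    have h3 : cntL K x0 S (e + 1) (cb g') ≤ 2 ^ Fintype.card ι * nc (fun κ : KS K S =>
        Dead F j (x0 * κ) ∨ ∃ S S', S.card = l ∧ S'.card = j ∧ Lad F (x0 * κ) S' S) := by
      refine (Finset.sum_le_card_nsmul _ _ _ ?_).trans (Nat.mul_le_mul_right _ (card_pc_le _ _))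
      intro S1 hS1
      rw [mem_powersetCard] at hS1
      refine nc_mono (fun κ hκ => ?_)
      have hdisj : Disjoint S1 S := disjoint_left.mpr (fun a ha hb => by simpa [hb] using hS1.1 ha)
      have hcard : (S1 ∪ S).card = j + 1 := by rw [card_union_of_disjoint hdisj]; omega
      have her : ∀ s ∈ S1, S1.erase s ∪ S = (S1 ∪ S).erase s := by
        intro s hs
        rw [erase_union_distrib, erase_eq_of_notMem (disjoint_left.mp hdisj hs)]
      rw [cb_face] at hκ
      simp only [hg'] at hκ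
      rw [Finset.sum_congr rfl (fun s hs => by rw [her s hs])] at hκ
      obtain ⟨w, hw, hw'⟩ := Finset.exists_ne_zero_of_sum_ne_zero hκ
      have hw2 : Lad F (x0 * κ) ((S1 ∪ S).erase w) S := by
        by_contra h; simp [h] at hw'
      obtain ⟨u, hu1, hu2, hu3⟩ : ∃ u ∈ S1 ∪ S, g (face K (x0 * κ) ((S1 ∪ S).erase u)) ≠ 0 ∧
          ¬ (u ∈ S1 ∧ Lad F (x0 * κ) ((S1 ∪ S).erase u) S) := by
        by_contra hcon
        push Not at hcon
        apply hκ
        refine Eq.trans ?_ (hg (x0 * κ) _ hcard)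
        rw [cb_face, ← Finset.sum_subset (subset_union_left (s₂ := S))]
        · refine Finset.sum_congr rfl (fun s hs => ?_)
          split_ifs with h
          · rfl
          · by_contra h'
            exact h (hcon s (mem_union_left _ hs) (Ne.symm h')).2
        · intro s hs hs'
          by_contra h'
          exact hs' (hcon s hs h').1
      by_cases hd : Dead F j (x0 * κ)
      · exact Or.inl hd
      right
      have huw : u ≠ w := by rintro rfl; exact hu3 ⟨hw, hw2⟩
      have hins : insert w ((S1 ∪ S).erase w) = S1 ∪ S := insert_erase (mem_union_left _ hw)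
      have hc1 : ((S1 ∪ S).erase u).card = j := by have := card_erase_add_one hu1; omega
      have h5 := hw2.move (j := j) (u := u) (notMem_erase w _)
        (by have := card_erase_add_one (mem_union_left S hw); omega)
        (mem_erase.mpr ⟨huw, hu1⟩) (by rw [hins]; exact (hF0 _ _ hc1).mpr hu2) hd
      rw [hins] at h5
      by_cases huS : u ∈ S
      · exact ⟨_, _, by have := card_erase_add_one huS; omega, hc1, h5⟩
      · rw [erase_eq_of_notMem huS] at h5
        exact absurd ⟨(mem_union.mp hu1).resolve_right huS, h5⟩ hu3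
    refine h2.trans (h1.trans (hh.trans ?_))
    rw [mul_assoc (2 ^ Fintype.card ι * R)]
    exact Nat.mul_le_mul_left _ h3
  calc _ ≤ nc (fun x => ∃ S ∈ powersetCard (l + 1) (univ : Finset ι),
        ∃ S', S'.card = j ∧ Lad F x S' S) := by
        refine nc_mono ?_
        rintro x ⟨S, S', h1, h2⟩
        exact ⟨S, mem_powersetCard.mpr ⟨subset_univ _, h1⟩, S', h2⟩
    _ ≤ _ := nc_exists _ _
    _ ≤ _ := Finset.sum_le_card_nsmul _ _ _ key
    _ ≤ 2 ^ Fintype.card ι * (2 ^ Fintype.card ι * R * 2 ^ Fintype.card ι * B) :=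
        Nat.mul_le_mul_right _ (card_pc_le _ _)
    _ ≤ _ := by
        rw [← mul_assoc]
        exact Nat.mul_le_mul_left _ (nc_or _ _)

end

universe v

theorem ek_key (t R : ℕ) : ∃ l0 : ℝ, 0 < l0 ∧ ∃ A0 : ℝ, 0 < A0 ∧
    ∀ (ι G : Type) [Fintype ι] [DecidableEq ι] [Group G] [Fintype G] (K : ι → Subgroup G)
    (k : Type v) [Field k] [CharP k 2], Fintype.card ι = t →
    (∀ S a b, a ∉ S → b ∉ S → a ≠ b →
      Ang (Inv (KS K (insert a S))) (Inv (KS K (insert b S))) (Inv (KS K S)) l0) →
    (∀ S : Finset ι, S.Nonempty → Cone k (CC K (KS K S) Sᶜ) (t - S.card) R) →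
    ∀ j < t, ∀ g : Finset (Vx ι G) → k, (∀ x S, S.card = j + 1 → cb g (face K x S) = 0) →
    (∀ x0 (S : Finset ι), S.Nonempty → ∀ h, cnt K j g ≤ cnt K j (g + cb (lift (face K x0 S) h))) →
    A0 * cnt K j g < Fintype.card G → ∀ x (S : Finset ι), S.card = j → g (face K x S) = 0 := by
  let Γ : ℝ := 2 ^ t * (2 ^ t * R * 2 ^ t) + 1
  have hΓ : 1 ≤ Γ := by simp only [Γ]; linarith [show (0 : ℝ) ≤ 2 ^ t * (2 ^ t * R * 2 ^ t) by positivity]
  let M : ℝ := 2 ^ t * (t + 1) ^ 2
  have hM : 0 < M := by positivity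
  let η : ℝ := 1 / (4 * (t + 1) * Γ ^ t * M)
  have hη : 0 < η := by positivity
  let Φ : ℕ → ℝ := fun m => Nat.rec 1 (fun _ x => M * x ^ 2 / η) m
  have hΦ : ∀ m, 0 < Φ m := by
    intro m
    induction m with
    | zero => exact one_pos
    | succ m ih => change 0 < M * Φ m ^ 2 / η; positivity
  have hA : ∀ m ≤ t, Φ m ≤ ∑ i ∈ range (t + 1), Φ i := fun m hm =>
    Finset.single_le_sum (fun i _ => (hΦ i).le) (mem_range.mpr (by omega))
  have hA0 : 0 < ∑ i ∈ range (t + 1), Φ i := lt_of_lt_of_le (hΦ 0) (hA 0 (Nat.zero_le _))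
  refine ⟨η / ∑ i ∈ range (t + 1), Φ i, by positivity, ∑ i ∈ range (t + 1), Φ i, hA0, ?_⟩
  intro ι G _ _ _ _ K k _ _ ht hang hc j hj g hg hmin hsmall
  set l0 := η / ∑ i ∈ range (t + 1), Φ i with hl0
  have hl0' : ∀ m ≤ t, l0 ≤ η / Φ m := fun m hm =>
    div_le_div_of_nonneg_left hη.le (hΦ m) (hA m hm)
  obtain ⟨F, hF0, hF1, hFi⟩ := exists_fat K j g (fun l => η / Φ (j - l - 1))
  let N : ℕ → ℝ := fun l => nc (fun x => ∃ S : Finset ι, S.card = l ∧ F S x)
  have hN0 : ∀ l, 0 ≤ N l := fun l => Nat.cast_nonneg _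
  have hN : ∀ S : Finset ι, (nc (F S) : ℝ) ≤ N S.card := fun S => by
    simp only [N]; exact Nat.cast_le.mpr (nc_mono (fun x h => ⟨S, rfl, h⟩))
  have hpc : ∀ l, ((powersetCard l (univ : Finset ι)).card : ℝ) ≤ 2 ^ t := fun l => by
    rw [← ht]; exact_mod_cast card_pc_le l univ
  have markov : ∀ l < j, η / Φ (j - l - 1) * N l ≤ M * N (l + 1) := by
    intro l hl
    have h1 : N l ≤ ∑ S ∈ powersetCard l (univ : Finset ι), ∑ c ∈ Sᶜ,
        (nc (fun x => η / Φ (j - l - 1) * Fintype.card (KS K S) ≤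
          nc (fun κ : KS K S => F (insert c S) (x * κ))) : ℝ) := by
      simp only [N]
      norm_cast
      refine le_trans (nc_mono ?_) ((nc_exists _ _).trans (Finset.sum_le_sum
        (fun S _ => nc_exists _ _)))
      rintro x ⟨S, rfl, h⟩
      obtain ⟨c, h1, h2⟩ := (hF1 S x hl).mp h
      exact ⟨S, mem_powersetCard.mpr ⟨subset_univ _, rfl⟩, c, mem_compl.mpr h1, h2⟩
    have hθ : 0 < η / Φ (j - l - 1) := div_pos hη (hΦ _)
    refine (mul_le_mul_of_nonneg_left h1 hθ.le).trans ?_
    rw [Finset.mul_sum]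
    refine (Finset.sum_le_card_nsmul _ _ ((t + 1) ^ 2 * N (l + 1)) ?_).trans ?_
    · intro S hS
      rw [mem_powersetCard] at hS
      rw [Finset.mul_sum]
      refine (Finset.sum_le_card_nsmul _ _ (N (l + 1)) ?_).trans ?_
      · intro c hc
        have h2 := hN (insert c S)
        rw [card_insert_of_notMem (mem_compl.mp hc), hS.2] at h2
        refine le_trans ?_ h2
        have hpos : (0 : ℝ) < Fintype.card (KS K S) := by exact_mod_cast Fintype.card_pos
        refine le_of_mul_le_mul_left ?_ hpos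
        have h3 := congrArg (Nat.cast : ℕ → ℝ) (nc_double (KS K S) (F (insert c S)))
        push_cast at h3
        classical
        rw [← h3, nc_eq_sum]
        push_cast
        rw [Finset.mul_sum, Finset.mul_sum]
        refine Finset.sum_le_sum (fun x _ => ?_)
        split_ifs with h
        · linarith
        · simp
      · rw [nsmul_eq_mul]
        apply mul_le_mul_of_nonneg_right _ (hN0 _)
        have : ((Sᶜ).card : ℝ) ≤ t := by rw [← ht]; exact_mod_cast card_le_univ _
        nlinarith [show (0 : ℝ) ≤ t from Nat.cast_nonneg t]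
    · rw [nsmul_eq_mul, ← mul_assoc]
      apply mul_le_mul_of_nonneg_right _ (hN0 _)
      exact mul_le_mul_of_nonneg_right (hpc l) (by positivity)
  have hNΦ : ∀ m ≤ j, N (j - m) ≤ Φ m * N j := by
    intro m
    induction m with
    | zero => intro _; simp [Φ]
    | succ m ih =>
      intro hm
      have h1 := markov (j - (m + 1)) (by omega)
      rw [show j - (j - (m + 1)) - 1 = m by omega, show j - (m + 1) + 1 = j - m by omega,
        div_mul_eq_mul_div, div_le_iff₀ (hΦ m)] at h1
      have h2 := ih (by omega)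
      change _ ≤ M * Φ m ^ 2 / η * N j
      rw [div_mul_eq_mul_div, le_div_iff₀ hη]
      have h3 : M * N (j - m) * Φ m ≤ M * (Φ m * N j) * Φ m := by
        have := hΦ m
        gcongr
      nlinarith
  have hNj : N j ≤ cnt K j g := by
    simp only [N, cnt]
    norm_cast
    refine le_trans (nc_mono ?_) (nc_exists _ _)
    rintro x ⟨S, h1, h2⟩
    exact ⟨S, mem_powersetCard.mpr ⟨subset_univ _, h1⟩, (hF0 S x h1).mp h2⟩
  have hempty : ∀ x, ¬ F ∅ x := by
    intro x hx
    have h1 : nc (F ∅) = Fintype.card G := nc_true (fun y => by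
      have := (hFi ∅ x (x⁻¹ * y) ((mem_KS K).mpr (by simp))).mpr hx
      simpa using this)
    have h2 := hN ∅
    have h3 := hNΦ j le_rfl
    rw [Nat.sub_self] at h3
    rw [h1, card_empty] at h2
    have h4 : Φ j * N j ≤ (∑ i ∈ range (t + 1), Φ i) * cnt K j g :=
      mul_le_mul (hA j hj.le) hNj (hN0 _) hA0.le
    linarith
  have hdead : (nc (Dead F j) : ℝ) ≤ M * (2 * η * N j) := by
    have h1 : (nc (Dead F j) : ℝ) ≤ ∑ S ∈ (univ : Finset (Finset ι)), ∑ c : ι, ∑ c' : ι,
        (nc (fun x => c ∉ S ∧ c' ∉ S ∧ c ≠ c' ∧ S.card < j ∧ F (insert c S) x ∧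
          F (insert c' S) x ∧ ¬ F S x) : ℝ) := by
      norm_cast
      refine le_trans (nc_mono ?_) ((nc_exists _ _).trans (Finset.sum_le_sum
        (fun S _ => (nc_exists _ _).trans (Finset.sum_le_sum (fun c _ => nc_exists _ _)))))
      rintro x ⟨S, c, c', h⟩
      exact ⟨S, mem_univ _, c, mem_univ _, c', mem_univ _, h⟩
    have h2 : ∀ (S : Finset ι) (c c' : ι), (nc (fun x => c ∉ S ∧ c' ∉ S ∧ c ≠ c' ∧ S.card < j ∧
        F (insert c S) x ∧ F (insert c' S) x ∧ ¬ F S x) : ℝ) ≤ 2 * η * N j := by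
      intro S c c'
      by_cases h : c ∉ S ∧ c' ∉ S ∧ c ≠ c' ∧ S.card < j
      swap
      · rw [nc_eq_zero.mpr (fun x hx => h ⟨hx.1, hx.2.1, hx.2.2.1, hx.2.2.2.1⟩)]
        have := hN0 j
        push_cast; positivity
      obtain ⟨h3, h4, h5, h6⟩ := h
      have hθ : 0 < η / Φ (j - S.card - 1) := div_pos hη (hΦ _)
      have h7 := mixing (KS_anti K (subset_insert c S)) (by positivity) hθ.le
        (hang S c c' h3 h4 h5) (F (insert c S)) (F (insert c' S)) (fun x => ¬ F S x)
        (hFi _) (hFi _) (fun x a ha => not_congr (hFi S x a ha)) (by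
          intro x hx
          rw [hF1 S x h6] at hx
          push Not at hx
          have := (hx c h3).le
          rw [← nc_eq]
          exact this)
      rw [← nc_eq, ← nc_eq, ← nc_eq] at h7
      have h8 := hN (insert c S)
      have h9 := hN (insert c' S)
      rw [card_insert_of_notMem h3] at h8
      rw [card_insert_of_notMem h4] at h9
      have h10 := hNΦ (j - S.card - 1) (by omega)
      rw [show j - (j - S.card - 1) = S.card + 1 by omega] at h10
      have h11 := hl0' (j - S.card - 1) (by omega)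
      have h12 : (nc (fun x => c ∉ S ∧ c' ∉ S ∧ c ≠ c' ∧ S.card < j ∧
          F (insert c S) x ∧ F (insert c' S) x ∧ ¬ F S x) : ℝ) ≤
          nc (fun x => F (insert c S) x ∧ F (insert c' S) x ∧ ¬ F S x) := by
        exact Nat.cast_le.mpr (nc_mono (fun x h => h.2.2.2.2))
      have h13 : η / Φ (j - S.card - 1) * (Φ (j - S.card - 1) * N j) = η * N j := by
        have := (hΦ (j - S.card - 1)).ne'
        field_simp
      have h14 : η / Φ (j - S.card - 1) * nc (F (insert c' S)) ≤ η * N j := by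
        rw [← h13]; gcongr; linarith
      have h15 : l0 * ((nc (F (insert c S)) + nc (F (insert c' S))) / 2) ≤ η * N j := by
        rw [← h13]
        exact mul_le_mul h11 (by linarith) (by positivity) hθ.le
      linarith
    refine h1.trans ?_
    refine (Finset.sum_le_sum (fun S _ => Finset.sum_le_sum (fun c _ =>
      Finset.sum_le_sum (fun c' _ => h2 S c c')))).trans ?_
    simp only [sum_const, card_univ, nsmul_eq_mul, Fintype.card_finset, ht, M]
    push_cast
    have := hN0 j
    have h3 : (t : ℝ) * t ≤ (t + 1) ^ 2 := by nlinarith [show (0 : ℝ) ≤ t from Nat.cast_nonneg t]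
    calc (2 : ℝ) ^ t * (t * (t * (2 * η * N j))) = 2 ^ t * (t * t) * (2 * η * N j) := by ring
      _ ≤ _ := by gcongr
  let n : ℕ → ℝ := fun l => nc (fun x => ∃ S S', S.card = l ∧ S'.card = j ∧ Lad F x S' S)
  have hn : ∀ l ≤ j, n l ≤ l * Γ ^ l * nc (Dead F j) := by
    intro l
    induction l with
    | zero =>
      intro _
      simp only [n]
      rw [nc_eq_zero.mpr]
      · simp
      · rintro x ⟨S, S', h1, -, h2⟩
        rw [card_eq_zero] at h1
        exact hempty x (h1 ▸ h2.fat)
    | succ l ih =>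
      intro hl
      have h1 := ladder_step K (ht ▸ hj) (ht ▸ hc) g hg hmin F hF0 hFi l hl
      rw [ht] at h1
      have h2 : n (l + 1) ≤ Γ * (nc (Dead F j) + n l) := by
        have h3 : n (l + 1) ≤ 2 ^ t * (2 ^ t * R * 2 ^ t) * (nc (Dead F j) + n l) := by
          simp only [n]; exact_mod_cast h1
        refine h3.trans (mul_le_mul_of_nonneg_right (by simp [Γ]) ?_)
        simp only [n]; positivity
      have h3 := ih (by omega)
      have h4 : (1 : ℝ) ≤ Γ ^ l := one_le_pow₀ hΓ
      have h5 : (0 : ℝ) ≤ nc (Dead F j) := Nat.cast_nonneg _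
      push_cast
      calc n (l + 1) ≤ Γ * (Γ ^ l * nc (Dead F j) + l * Γ ^ l * nc (Dead F j)) := by
            refine h2.trans ?_
            gcongr
            nlinarith
        _ = _ := by ring
  have hNn : N j ≤ n j := by
    simp only [N, n]
    norm_cast
    refine nc_mono ?_
    rintro x ⟨S, h1, h2⟩
    exact ⟨S, S, h1, h1, Lad.base h2⟩
  have hfin : N j ≤ 0 := by
    have h1 : (j : ℝ) * Γ ^ j ≤ (t + 1) * Γ ^ t := by
      have : (j : ℝ) ≤ t + 1 := by exact_mod_cast (by omega : j ≤ t + 1)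
      exact mul_le_mul this (pow_le_pow_right₀ hΓ hj.le) (by positivity) (by positivity)
    have h2 : n j ≤ (t + 1) * Γ ^ t * (M * (2 * η * N j)) :=
      (hn j le_rfl).trans (mul_le_mul h1 hdead (Nat.cast_nonneg _) (by positivity))
    have h3 : (t + 1) * Γ ^ t * (M * (2 * η * N j)) = N j / 2 := by
      simp only [η]; field_simp; ring
    linarith
  intro x S hS
  by_contra h
  have h1 : nc (fun x => ∃ S : Finset ι, S.card = j ∧ F S x) = 0 := by
    have : N j = 0 := le_antisymm hfin (hN0 j)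
    simpa [N] using this
  exact nc_eq_zero.mp h1 x ⟨S, hS, (hF0 S x hS).mpr h⟩

theorem ek_main (t R : ℕ) : ∃ l0 : ℝ, 0 < l0 ∧ ∀ D : ℕ, ∃ A : ℕ,
    ∀ (ι G : Type) [Fintype ι] [DecidableEq ι] [Group G] [Fintype G] (K : ι → Subgroup G)
    (k : Type v) [Field k] [CharP k 2], Fintype.card ι = t →
    (∀ S a b, a ∉ S → b ∉ S → a ≠ b →
      Ang (Inv (KS K (insert a S))) (Inv (KS K (insert b S))) (Inv (KS K S)) l0) →
    (∀ S : Finset ι, S.Nonempty → Cone k (CC K (KS K S) Sᶜ) (t - S.card) R) →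
    (∀ s, Nat.card (K s) ≤ D) →
    ∀ j, j + 1 < t → (∀ e ≤ j, Ex k (CC K Set.univ univ) e) → ∀ f : Finset (Vx ι G) → k,
      ∃ h, cnt K j (f + cb h) ≤ A * cnt K (j + 1) (cb f) := by
  obtain ⟨l0, hl0, A0, hA0, key⟩ := ek_key.{v} t R
  refine ⟨l0, hl0, fun D => ⟨2 ^ t * D + 1 + 2 ^ t * ⌈A0⌉₊, ?_⟩⟩
  intro ι G _ _ _ _ K k _ _ ht hang hc hD j hj hex f
  classical
  have hcnt_add : ∀ e (a b : Finset (Vx ι G) → k), cnt K e (a + b) ≤ cnt K e a + cnt K e b := by
    intro e a b
    simp only [cnt, ← Finset.sum_add_distrib]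
    refine Finset.sum_le_sum (fun S _ => le_trans (nc_mono ?_) (nc_or _ _))
    intro x hx
    by_contra h
    push Not at h
    simp [h.1, h.2] at hx
  by_cases hbig : A0 * cnt K (j + 1) (cb f) < Fintype.card G
  swap
  · refine ⟨0, ?_⟩
    have h1 : cnt K j (f + cb 0) ≤ 2 ^ t * Fintype.card G :=
      (Finset.sum_le_card_nsmul _ _ _ (fun S _ => nc_le_card _)).trans
        (Nat.mul_le_mul_right _ (ht ▸ card_pc_le _ _))
    have h2 : Fintype.card G ≤ ⌈A0⌉₊ * cnt K (j + 1) (cb f) := by
      have : (Fintype.card G : ℝ) ≤ ⌈A0⌉₊ * cnt K (j + 1) (cb f) :=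
        (not_lt.mp hbig).trans (mul_le_mul_of_nonneg_right (Nat.le_ceil _) (Nat.cast_nonneg _))
      exact_mod_cast this
    have h3 := Nat.mul_le_mul_left (2 ^ t) h2
    rw [add_mul, mul_assoc]
    omega
  let Ψ : (Finset (Vx ι G) → k) → ℕ := fun f' =>
    (2 ^ t * D + 1) * cnt K (j + 1) (cb f') + cnt K j (f + f')
  obtain ⟨f', hf'⟩ : ∃ f', ∀ f'', Ψ f' ≤ Ψ f'' :=
    ⟨Function.argmin Ψ, fun f'' => Function.argmin_le Ψ f''⟩
  have h0 := hf' f
  have hz : cnt K j (f + f) = 0 := by
    rw [add_self2]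
    exact Finset.sum_eq_zero (fun S _ => nc_eq_zero.mpr (by simp))
  simp only [Ψ, hz, add_zero] at h0
  have h1 : cnt K (j + 1) (cb f') ≤ cnt K (j + 1) (cb f) :=
    Nat.le_of_mul_le_mul_left (le_trans (Nat.le_add_right _ _) h0) (Nat.succ_pos _)
  have h2 := key ι G K k ht hang hc (j + 1) hj (cb f') (fun x S _ => cb_cb _ _) (by
    intro x0 S hS h
    have h2 := hf' (f' + lift (face K x0 S) h)
    simp only [Ψ, cb_add, ← add_assoc] at h2
    have h3 := hcnt_add j (f + f') (lift (face K x0 S) h)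
    have h4 : cnt K j (lift (face K x0 S) h) ≤ 2 ^ t * D := by
      refine (Finset.sum_le_card_nsmul _ _ D ?_).trans
        (Nat.mul_le_mul_right _ (ht ▸ card_pc_le _ _))
      intro S' _
      obtain ⟨s, hs⟩ := hS
      let _ : Fintype (K s) := Fintype.ofFinite _
      refine le_trans (nc_mono (Q := fun x => True ∧ x0⁻¹ * x ∈ K s) ?_) ?_
      · intro x hx
        refine ⟨trivial, ?_⟩
        by_contra h5
        apply hx
        simp only [lift]
        rw [if_neg]
        intro h6
        exact h5 ((mem_KS K).mp ((face_subset_face K).mp h6).2 s hs)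
      · rw [nc_coset (K s) x0 (fun _ => True)]
        exact (nc_le_card _).trans (by rw [← Nat.card_eq_fintype_card]; exact hD s)
    by_contra h5
    have h6 : cnt K (j + 1) (cb f' + cb (lift (face K x0 S) h)) + 1 ≤ cnt K (j + 1) (cb f') := by
      omega
    have h7 := Nat.mul_le_mul_left (2 ^ t * D + 1) h6
    rw [mul_add] at h7
    omega) (lt_of_le_of_lt (mul_le_mul_of_nonneg_left (by exact_mod_cast h1) hA0.le) hbig)
  obtain ⟨h, hh⟩ := cocycle_eq (CC_down K Set.univ univ) hex f' (by
    rintro _ ⟨x, -, S, -, rfl⟩ h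
    exact h2 x S (by rwa [card_face] at h))
  refine ⟨h, ?_⟩
  have h3 : cnt K j (f + cb h) = cnt K j (f + f') := by
    refine Finset.sum_congr rfl (fun S hS => nc_congr (fun x => ?_))
    rw [Pi.add_apply, Pi.add_apply, hh _ ⟨x, Set.mem_univ _, S, subset_univ _, rfl⟩
      (by rw [card_face]; exact (mem_powersetCard.mp hS).2)]
  rw [h3, add_mul]
  omega

end Vale.Agent.P067
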