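import Vale.Agent.P067.Acyc
import Vale.Agent.P067.EK2

/-! Generation, angles, and the counting form of coboundary expansion. -/

namespace Vale.Agent.P067

open Finset Module Matrix Polynomial

lemma Inv_inf {G : Type*} [Group G] [Fintype G] {A B H : Subgroup G} (h : H ≤ A ⊔ B) :
    Inv A ⊓ Inv B ≤ Inv H := by
  rintro φ ⟨h1, h2⟩ x g hg
  let L : Subgroup G := subOf
    { carrier := {g | ∀ x, φ (x * g) = φ x}
      mul_mem' := by
        intro a b ha hb x
        rw [← mul_assoc, hb, ha]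
      one_mem' := by intro x; rw [mul_one] }
  have : A ⊔ B ≤ L := sup_le (fun a ha x => h1 x a ha) (fun a ha x => h2 x a ha)
  exact this (h hg) x

section
variable {F R : Type} [Field F] [Fintype F] [CommRing R] [Algebra F R] [Finite R]
  {ε : R →ₐ[F] F} {t : R} {n : ℕ}

theorem angles {k : Type} [Field k] [CharP k 2] (hg : GoodF k F n) (hε : ε t = 0) (ht : t ≠ 0)
    (hn : 3 ≤ n) {ι : Type} [Fintype ι] [DecidableEq ι] [Nonempty ι] (col : ι → ℕ)
    (hcol : Function.Injective col) (hlt : ∀ s, col s < n)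
    (hex : Ex k (CC (fun s => KK ε n t (col s)) Set.univ univ) 1) (l0 : ℝ) (hl0 : 0 < l0)
    (hq : n + 1 + 1 / l0 ≤ √(Fintype.card F)) (S : Finset ι) (a b : ι) (ha : a ∉ S) (hb : b ∉ S)
    (hab : a ≠ b) : Ang (Inv (KS (fun s => KK ε n t (col s)) (insert a S)))
      (Inv (KS (fun s => KK ε n t (col s)) (insert b S)))
      (Inv (KS (fun s => KK ε n t (col s)) S)) l0 := by
  set K : Fin n → Subgroup (PG ε n) := fun s => KK ε n t s with hK
  have gen1 : ∀ (S : Finset (Fin n)) a b, S.Nonempty → a ∉ S → b ∉ S → a ≠ b →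
      KS K S ≤ KS K (insert a S) ⊔ KS K (insert b S) := by
    intro S a b hS ha hb hab
    obtain ⟨D, τ, Cc, h1, h2, h3, h4⟩ := link_Y.{0} hε ht (fun s : Fin n => (s : ℕ))
      Fin.val_injective (fun s => s.2) S {a, b} hS (by simp) (by simp [ha, hb])
    rw [card_pair hab] at h3
    refine gen_of_ex K _ _ {a, b} (by simp)
      (h4 k 1 _ _ ((hg (n - 1) (by omega) _ D τ Cc 1 h1 h2 (by omega)).be _)).ex ?_
    intro c hc g h5 h6
    have h7 : g ∈ KS K (insert c S) := (mem_KS _).mpr (by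
      simpa using ⟨h5, (mem_KS _).mp h6⟩)
    rcases mem_insert.mp hc with rfl | hc
    · exact Subgroup.mem_sup_left h7
    · rw [mem_singleton.mp hc] at h7
      exact Subgroup.mem_sup_right h7
  have gen : ∀ (S : Finset (Fin n)) a b, a ∉ S → b ∉ S → a ≠ b →
      KS K S ≤ KS K (insert a S) ⊔ KS K (insert b S) := by
    intro S a b ha hb hab
    rcases S.eq_empty_or_nonempty with rfl | hS
    swap
    · exact gen1 S a b hS ha hb hab
    refine le_top.trans (gen_of_ex (fun s => KK ε n t (col s)) ⊤ _ univ univ_nonempty hex ?_)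
    intro c _ g hg _
    have h1 : g ∈ KS K {⟨col c, hlt c⟩} := (mem_KS _).mpr (by simpa using hg)
    by_cases h2 : a = ⟨col c, hlt c⟩
    · exact Subgroup.mem_sup_left (h2 ▸ h1)
    by_cases h3 : b = ⟨col c, hlt c⟩
    · exact Subgroup.mem_sup_right (h3 ▸ h1)
    exact sup_le_sup (KS_anti K (by simp)) (KS_anti K (by simp))
      (gen1 _ a b (singleton_nonempty _) (by simpa using h2) (by simpa using h3) hab h1)
  let c : ι → Fin n := fun s => ⟨col s, hlt s⟩
  have hc : Function.Injective c := fun s s' h => hcol (congrArg Fin.val h)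
  have hKS : ∀ S : Finset ι, KS (fun s => KK ε n t (col s)) S = KS K (S.image c) := by
    intro S; ext g; simp [mem_KS, c, hK]
  have h1 : (S.image c).card + 2 ≤ n := by
    have := card_le_univ ((insert a (insert b S)).image c)
    rw [card_image_of_injective _ hc, card_insert_of_notMem (by simp [hab, ha]),
      card_insert_of_notMem hb, Fintype.card_fin] at this
    rwa [card_image_of_injective _ hc]
  obtain ⟨m, hm⟩ := Nat.exists_eq_add_of_le h1
  have hm' : (m : ℝ) ≤ n := by exact_mod_cast (show m ≤ n by omega)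
  have h2 := one_div_pos.mpr hl0
  simp only [hKS, image_insert]
  refine (trickle (fun S => Inv (KS K S)) (fun S S' h φ hφ x g hg => hφ x g (KS_anti K h hg))
    (fun S a b ha hb hab => Inv_inf (gen S a b ha hb hab)) _ (fun S a b ha hb hab h =>
      base_ang hε ht hn S a b ha hb hab (by simpa using h)) m (by linarith) _ _ _
    (by simpa [hc.mem_finset_image] using ha) (by simpa [hc.mem_finset_image] using hb)
    (hc.ne hab) (by simp [← hm])).mono ?_
  rw [div_le_iff₀ (by linarith), ← div_le_iff₀' hl0]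
  linarith

end

lemma Cone.mono {V : Type*} [Fintype V] [DecidableEq V] {k : Type*} [Field k]
    {A : Set (Finset V)} {e R R' : ℕ} (h : Cone k A e R) (h' : R ≤ R') : Cone k A e R' := by
  obtain ⟨c, hc⟩ := h
  exact ⟨c, fun σ h1 h2 => ⟨(hc σ h1 h2).1, (hc σ h1 h2).2.1.trans h', (hc σ h1 h2).2.2⟩⟩

theorem exists_ring (F : Type) [Field F] [Fintype F] (k0 : ℕ) (hk : 2 ≤ k0) :
    ∃ (R : Type) (_ : CommRing R) (_ : Algebra F R) (_ : Finite R) (ε : R →ₐ[F] F) (t : R),
      RD ε t k0 ∧ k0 ≤ Nat.card R := by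
  let pb := AdjoinRoot.powerBasis' (monic_X_pow (R := F) k0)
  have := pb.finite
  have : Finite (AdjoinRoot (X ^ k0 : F[X])) := Module.finite_of_finite F
  let ε : AdjoinRoot (X ^ k0 : F[X]) →ₐ[F] F :=
    AdjoinRoot.liftAlgHom _ (AlgHom.id F F) 0 (by simp; omega)
  have hε : ε (AdjoinRoot.root _) = 0 := by simp [ε]
  have hnil : AdjoinRoot.root (X ^ k0 : F[X]) ^ k0 = 0 := by
    have := AdjoinRoot.mk_self (f := (X ^ k0 : F[X]))
    rwa [map_pow, AdjoinRoot.mk_X] at this
  refine ⟨AdjoinRoot (X ^ k0 : F[X]), inferInstance, inferInstance, inferInstance, ε,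
    AdjoinRoot.root _, ⟨hε, ?_, hnil, ?_⟩, ?_⟩
  · intro h
    rw [← AdjoinRoot.mk_X, AdjoinRoot.mk_eq_zero, X_pow_dvd_iff] at h
    simpa using h 1 (by omega)
  · intro r hr
    obtain ⟨p, rfl⟩ := AdjoinRoot.mk_surjective r
    rw [← X_mul_divX_add p, map_add, map_mul, AdjoinRoot.mk_X, AdjoinRoot.mk_C] at hr ⊢
    have h1 : p.coeff 0 = 0 := by simpa [hε, ε] using hr
    rw [h1, map_zero, add_zero]
    induction p.divX using Polynomial.induction_on' with
    | add p q hp hq => rw [map_add, mul_add]; exact Submodule.add_mem _ hp hq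
    | monomial j a =>
      rw [← smul_X_eq_monomial, ← AdjoinRoot.smul_mk, map_pow, AdjoinRoot.mk_X, mul_smul_comm,
        ← pow_succ']
      apply Submodule.smul_mem
      by_cases h : j < k0
      · exact Submodule.subset_span ⟨j, h, rfl⟩
      · rw [pow_eq_zero_of_le (by omega) hnil]; exact Submodule.zero_mem _
  · rw [Module.natCard_eq_pow_finrank (K := F), pb.finrank]
    simp only [pb, AdjoinRoot.powerBasis'_dim, natDegree_X_pow]
    exact (Nat.lt_pow_self Finite.one_lt_card).le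

theorem cnt_main (τ : ℕ) (hτ : 2 ≤ τ) : ∃ D A : ℕ, ∀ N : ℕ, ∃ (G : Type) (_ : Group G)
    (_ : Fintype G) (K : Fin τ → Subgroup G), N ≤ Fintype.card G ∧ (∀ s, Nat.card (K s) ≤ D) ∧
    ∀ j, j + 1 < τ → ∀ f : Finset (Vx (Fin τ) G) → ZMod 2,
      ∃ h, cnt K j (f + cb h) ≤ A * cnt K (j + 1) (cb f) := by
  let k := AlgebraicClosure (ZMod 2)
  have hτ2 := Nat.mul_le_mul hτ hτ
  obtain ⟨m, hm⟩ : ∃ m, m = τ + τ * τ := ⟨_, rfl⟩
  obtain ⟨qf, Rf, hY⟩ := g1_fun (ZMod 2) (m + 1 - 1)
  choose B R hB using cone_of_be.{0, 0} Rf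
  obtain ⟨l0, hl0, hek⟩ := ek_main.{0} τ ((range (τ + 1)).sup R)
  obtain ⟨q1, hq1⟩ := exists_goodF k (m + 1)
  obtain ⟨p, hp1, hp⟩ := Nat.exists_infinite_primes (3 + q1 + ⌈((m + 1 : ℕ) + 1 + 1 / l0) ^ 2⌉₊ +
    (range (τ + 1)).sup (fun e => (range (B e + 1)).sup qf))
  have := Fact.mk hp
  obtain ⟨A, hA⟩ := hek (p ^ ((m + 1) * (m + 1)))
  refine ⟨p ^ ((m + 1) * (m + 1)), A, fun N => ?_⟩
  obtain ⟨R', _, _, _, ε, t, hR, hc⟩ := exists_ring (ZMod p) (N + 2) (by omega)
  have hpk : (p : k) ≠ 0 := by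
    rw [Ne, CharP.cast_eq_zero_iff k 2, Nat.prime_dvd_prime_iff_eq Nat.prime_two hp]
    omega
  have : NeZero (p : k) := ⟨hpk⟩
  obtain ⟨ζ, hζ⟩ := HasEnoughRootsOfUnity.exists_primitiveRoot k p
  have hg := hq1 (ZMod p) (by rw [ZMod.card]; omega)
  have hlt : ∀ s : Fin τ, (s : ℕ) < m + 1 := fun s => by have := s.2; omega
  have hex : ∀ e < τ, Ex k (CC (fun s : Fin τ => KK ε (m + 1) t s) Set.univ univ) e := by
    intro e he
    refine acyc hg hR ?_ _ Fin.val_injective (fun s => s.2) ⟨0, by omega⟩ rfl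
      (AddChar.zmodChar p hζ.pow_eq_one) ?_ (by rwa [ZMod.card]) e (by simpa using he) _ ?_ le_rfl
    · have : ((2 : ℕ) : ZMod p) ≠ 0 := by
        rw [Ne, ZMod.natCast_eq_zero_iff]
        exact fun h => absurd (Nat.le_of_dvd (by omega) h) (by omega)
      exact_mod_cast this
    · rw [AddChar.zmod_char_ne_one_iff, AddChar.zmodChar_apply, ZMod.val_one, pow_one]
      exact hζ.ne_one hp.one_lt
    · have := Nat.mul_le_mul_right τ (Nat.succ_le_of_lt he)
      simp only [Fintype.card_fin, Nat.succ_eq_add_one] at *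
      omega
  have hD : ∀ s : Fin τ, Nat.card (KK ε (m + 1) t s) ≤ p ^ ((m + 1) * (m + 1)) := fun s => by
    simpa using card_KK hR.hε (hlt s).le
  have : Nonempty (Fin τ) := ⟨⟨0, by omega⟩⟩
  refine ⟨PG ε (m + 1), inferInstance, inferInstance, fun s => KK ε (m + 1) t s, ?_, hD,
    fun j hj => hA (Fin τ) _ _ (ZMod 2) (Fintype.card_fin _) ?_ ?_ hD j hj
      (fun e he => (hex e (by omega)).descend)⟩
  · rw [← Nat.card_eq_fintype_card]
    refine le_trans (by omega) (Nat.card_le_card_of_injective (fun r => nuC ε m (fun _ => r)) ?_)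
    intro r r' h
    have := congrArg (fun g => mat g (Fin.castAdd 1 ⟨0, by omega⟩) (Fin.natAdd m 0)) h
    simpa only [mat_nuC, blk_cn, of_apply] using this
  · refine angles hg hR.hε hR.ht (by omega) _ Fin.val_injective hlt (hex 1 (by omega)) l0 hl0 ?_
    apply Real.le_sqrt_of_sq_le
    rw [ZMod.card]
    exact (Nat.le_ceil _).trans (Nat.cast_le.mpr (by omega))
  · intro S hS
    have h0 : τ - S.card ∈ range (τ + 1) := mem_range.mpr (by omega)
    refine Cone.mono ?_ (Finset.le_sup (f := R) h0)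
    have h1 : Sᶜ.card = τ - S.card := by simp [card_compl]
    refine hB _ _ _ _ (CC_down _ _ _) (fun e he s hs => ?_)
    obtain ⟨D, ω, Cc, h2, h3, h4, h5⟩ := link_Y.{0} hR.hε hR.ht (fun s : Fin τ => (s : ℕ))
      Fin.val_injective hlt S Sᶜ hS (card_pos.mp (by omega)) disjoint_compl_right
    refine h5 _ _ _ _ (hY _ _ D ω Cc e s ?_ h2 h3 (by omega))
    have := (Finset.le_sup (f := qf) (mem_range.mpr (Nat.lt_succ_of_le hs))).trans
      (Finset.le_sup (f := fun e => (range (B e + 1)).sup qf) h0)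
    rw [ZMod.card]; omega

end Vale.Agent.P067
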