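import Vale.Agent.P067.Coset

/-! Fourier analysis plus a Morse function for semidirect products. -/

namespace Vale.Agent.P067

open Finset Pointwise

def gp (n a b m : ℕ) : ℕ := if a < b then b + m * n else b + (m + 1) * n

theorem semidirect {ι G G' N F k : Type} [Fintype ι] [DecidableEq ι] [Group G] [Finite G]
    [Group G'] [Field F] [Fintype F] [AddCommGroup N] [Module F N] [Fintype N] [Field k]
    [CharP k 2] (K : ι → Subgroup G) (K' : ι → Subgroup G') (ext : G' →* G) (ν : N → G)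
    (ω : G' → N →ₗ[F] N) (hν : ∀ a b, ν (a + b) = ν a * ν b)
    (hconj : ∀ g a, ext g * ν a = ν (ω g a) * ext g)
    (ωmul : ∀ g h a, ω (g * h) a = ω g (ω h a)) (ωone : ∀ a, ω 1 a = a)
    (hSD : ∀ a g s, ν a * ext g ∈ K s → g ∈ K' s) (hE : ∀ g s, g ∈ K' s → ext g ∈ K s)
    (n η : ℕ) (γ0 : ι → ℕ) (hinj : Function.Injective γ0) (hb : ∀ s, η ≤ γ0 s ∧ γ0 s < η + n)
    (Φ : ℕ → Submodule F N) (hmono : Monotone Φ) (htop : ∃ γ, Φ γ = ⊤)
    (hinv : ∀ s, ∀ κ ∈ K' s, ∀ m, ∀ a ∈ Φ (γ0 s + m * n), ω κ a ∈ Φ (γ0 s + m * n))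
    (hNS : ∀ s a, ν a ∈ K s ↔ a ∈ Φ (γ0 s))
    (ψ : AddChar F k) (hψ : ψ ≠ 1) (hN : (Fintype.card N : k) ≠ 0) (e : ℕ)
    (hM3 : ∀ (l : Module.Dual F N) g s m, (¬ ∃ a ∈ Φ (γ0 s + m * n), l (ω g a) ≠ 0) →
      (∃ a ∈ Φ (γ0 s + (m + 1) * n), l (ω g a) ≠ 0) → ∀ e', e = e' + 1 →
      Ex k {σ | ∃ κ ∈ K' s, ∃ S' : Finset ι, s ∉ S' ∧
        (∀ s' ∈ S', ∃ a ∈ Φ (gp n (γ0 s) (γ0 s') m), l (ω (g * κ) a) ≠ 0) ∧
        σ = face K (ext (g * κ)) S'} e')
    (z : Finset (Vx ι G) → k) (hz : Supp (CC K {x | ∃ a g, x = ν a * ext g} univ) e z)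
    (hz0 : bd z = 0) :
    (∀ a, Hom (CC K {x | ∃ a g, x = ν a * ext g} univ) e z (act (ν a) z)) ∧
      ∃ z', Supp (CC K (Set.range ext) univ) e z' ∧ bd z' = 0 ∧
        Hom (CC K {x | ∃ a g, x = ν a * ext g} univ) e z z' := by
  classical
  have hν0 : ν 0 = 1 := by
    have := hν 0 0
    rw [add_zero] at this
    exact left_eq_mul.mp this
  have hνneg : ∀ a, (ν a)⁻¹ = ν (-a) := fun a =>
    inv_eq_of_mul_eq_one_right (by rw [← hν, add_neg_cancel, hν0])
  have hcalc : ∀ a g g', (ν a * ext g)⁻¹ * ext g' = ν (ω g⁻¹ (-a)) * ext (g⁻¹ * g') := by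
    intro a g g'
    rw [mul_inv_rev, hνneg, ← map_inv, hconj, map_mul, mul_assoc]
  have hstab : ∀ a g S, ν a • face K (ext g) S = face K (ext g) S ↔
      ∀ s ∈ S, ω g⁻¹ a ∈ Φ (γ0 s) := by
    intro a g S
    rw [smul_face, face_eq, hcalc]
    simp [hNS]
  have hK' : ∀ g g' s, (ext g)⁻¹ * ext g' ∈ K s → g⁻¹ * g' ∈ K' s := by
    intro g g' s h
    apply hSD 0
    rwa [hν0, one_mul, map_mul, map_inv]
  refine fourier ψ hψ hN ν hν (CC_down K _ _) (CC_mono K ?_ _) (fun a => smul_mem_CC K ?_ _)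
    ?_ ?_ ?_ ?_ z hz hz0
  · rintro _ ⟨g, rfl⟩
    exact ⟨0, g, by rw [hν0, one_mul]⟩
  · rintro _ ⟨b, g, rfl⟩
    exact ⟨a + b, g, by rw [hν, mul_assoc]⟩
  · rintro _ ⟨_, ⟨a, g, rfl⟩, S, hS, rfl⟩
    exact ⟨a, _, ⟨_, ⟨g, rfl⟩, S, hS, rfl⟩, (smul_face K _ _ _).symm⟩
  · rintro a _ ⟨_, ⟨g, rfl⟩, S, -, rfl⟩ ⟨_, ⟨g', rfl⟩, S', -, h⟩
    rw [h]
    rw [smul_face, face_eq, hcalc] at h
    obtain ⟨rfl, h⟩ := h
    symm
    rw [face_eq]
    refine ⟨rfl, fun s hs => ?_⟩
    rw [← map_inv, ← map_mul]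
    exact hE _ _ (hSD _ _ _ (h s hs))
  · rintro _ ⟨_, ⟨g, rfl⟩, S, -, rfl⟩ a c h
    rw [hstab] at h ⊢
    intro s hs
    rw [map_smul]
    exact Submodule.smul_mem _ _ (h s hs)
  intro l hl y hy hby
  obtain ⟨a0, ha0⟩ : ∃ a, l a ≠ 0 := by
    by_contra h
    push Not at h
    exact hl (LinearMap.ext h)
  let nt : G' → ℕ → Prop := fun g γ => ∃ a ∈ Φ γ, l (ω g a) ≠ 0
  have ntmono : ∀ g γ γ', γ ≤ γ' → nt g γ → nt g γ' := by
    rintro g γ γ' h ⟨a, h1, h2⟩
    exact ⟨a, hmono h h1, h2⟩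
  have hex : ∀ g s, ∃ m, nt g (γ0 s + m * n) := by
    intro g s
    obtain ⟨γ, hγ⟩ := htop
    refine ⟨γ, ntmono g γ _ ?_ ⟨ω g⁻¹ a0, hγ ▸ Submodule.mem_top, by
      rwa [← ωmul, mul_inv_cancel, ωone]⟩⟩
    have := hb s
    nlinarith
  have ntinv : ∀ g s, ∀ κ ∈ K' s, ∀ m, nt (g * κ) (γ0 s + m * n) ↔ nt g (γ0 s + m * n) := by
    have h1 : ∀ g s, ∀ κ ∈ K' s, ∀ m, nt (g * κ) (γ0 s + m * n) → nt g (γ0 s + m * n) := by
      rintro g s κ hκ m ⟨a, h1, h2⟩
      exact ⟨ω κ a, hinv s κ hκ m a h1, by rwa [← ωmul]⟩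
    intro g s κ hκ m
    refine ⟨h1 g s κ hκ m, fun h => h1 (g * κ) s κ⁻¹ (inv_mem hκ) m ?_⟩
    rwa [mul_inv_cancel_right]
  let ht : Vx ι G → ℕ := fun v => if h : ∃ g, v = vx K (ext g) v.col then
    γ0 v.col + Nat.find (hex h.choose v.col) * n else 0
  have hht : ∀ g s, ht (vx K (ext g) s) = γ0 s + Nat.find (hex g s) * n := by
    intro g s
    have h : ∃ g', vx K (ext g) s = vx K (ext g') (vx K (ext g) s).col := ⟨g, rfl⟩
    simp only [ht, dif_pos h]
    have h1 := hK' _ _ _ ((vx_eq K).mp h.choose_spec).2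
    have h2 := ntinv g s _ h1
    rw [mul_inv_cancel_left] at h2
    change γ0 s + Nat.find (hex h.choose s) * n = _
    congr 2
    exact Nat.find_congr' (fun {m} => h2 m)
  have hgood : ∀ ρ ∈ CC K (Set.range ext) univ,
      (∃ a, ν a • ρ = ρ ∧ l a ≠ 0) ↔ ∀ v ∈ ρ, ht v < η + n := by
    rintro _ ⟨_, ⟨g, rfl⟩, S, -, rfl⟩
    constructor
    · rintro ⟨a, h1, h2⟩ v hv
      obtain ⟨s, hs, rfl⟩ := (mem_face K).mp hv
      have h3 : Nat.find (hex g s) = 0 := by
        rw [Nat.find_eq_zero]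
        exact ⟨ω g⁻¹ a, by simpa using (hstab a g S).mp h1 s hs, by
          rwa [← ωmul, mul_inv_cancel, ωone]⟩
      rw [hht, h3]
      simpa using (hb s).2
    · intro h
      rcases S.eq_empty_or_nonempty with rfl | hS
      · exact ⟨a0, (hstab _ _ _).mpr (by simp), ha0⟩
      obtain ⟨s, hs, hmin⟩ := exists_min_image S γ0 hS
      have h1 := h _ ((vx_mem_face K).mpr hs)
      rw [hht] at h1
      have h2 : Nat.find (hex g s) = 0 := by
        by_contra h2
        have h3 := Nat.mul_le_mul_right n (Nat.one_le_iff_ne_zero.mpr h2)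
        have := hb s
        omega
      rw [Nat.find_eq_zero] at h2
      obtain ⟨b, h3, h4⟩ := h2
      refine ⟨ω g b, (hstab _ _ _).mpr (fun s' hs' => ?_), h4⟩
      rw [← ωmul, inv_mul_cancel, ωone]
      exact hmono (by simpa using hmin s' hs') h3
  obtain ⟨u, hu1, hu2⟩ := morse (CC_down K (Set.range ext) univ) ht (η + n) e (by
      rintro _ ⟨_, ⟨g, rfl⟩, S, -, rfl⟩ v hv w hw h
      obtain ⟨s, -, rfl⟩ := (mem_face K).mp hv
      obtain ⟨s', -, rfl⟩ := (mem_face K).mp hw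
      rw [hht, hht] at h
      congr 1
      apply hinj
      have h1 := hb s
      have h2 := hb s'
      rcases lt_trichotomy (Nat.find (hex g s)) (Nat.find (hex g s')) with h3 | h3 | h3
      · have := Nat.mul_le_mul_right n (Nat.succ_le_of_lt h3)
        rw [Nat.succ_mul] at this
        omega
      · rw [h3] at h; omega
      · have := Nat.mul_le_mul_right n (Nat.succ_le_of_lt h3)
        rw [Nat.succ_mul] at this
        omega) (by
      rintro v ⟨_, ⟨g, rfl⟩, S, -, hv⟩ hv' e' he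
      obtain ⟨s, -, rfl⟩ := (mem_face K).mp (hv ▸ mem_singleton_self v)
      rw [hht] at hv' ⊢
      obtain ⟨m, hm⟩ : ∃ m, Nat.find (hex g s) = m + 1 := by
        refine Nat.exists_eq_succ_of_ne_zero (fun h => ?_)
        have := hb s
        rw [h] at hv'; omega
      have h1 := hM3 l g s m (Nat.find_min (hex g s) (by omega))
        (hm ▸ Nat.find_spec (hex g s)) e' he
      convert h1
      rename_i ρ
      rw [hm]
      constructor
      · rintro ⟨h2, _, ⟨g1, rfl⟩, S1, -, h3⟩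
        obtain ⟨s1, hs1, h4⟩ := (mem_face K).mp (h3 ▸ mem_insert_self _ ρ)
        obtain ⟨rfl, h5⟩ := (vx_eq K).mp h4.symm
        have h6 : vx K (ext g) s ∉ ρ := fun h => by
          have := h2 _ h
          rw [hht, hm] at this; omega
        have h7 : ρ = face K (ext g1) (S1.erase s) := by
          rw [← face_erase, ← h3, h4, erase_insert h6]
        refine ⟨g⁻¹ * g1, hK' _ _ _ h5, S1.erase s, notMem_erase _ _, ?_, by
          rw [mul_inv_cancel_left]; exact h7⟩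
        intro s' hs'
        rw [mul_inv_cancel_left]
        have h8 := h2 _ (h7 ▸ (vx_mem_face K).mpr hs')
        rw [hht] at h8
        refine ntmono g1 _ _ ?_ (Nat.find_spec (hex g1 s'))
        have h9 := hb s
        have h10 := hb s'
        unfold gp
        split_ifs with h11
        · refine Nat.add_le_add_left (Nat.mul_le_mul_right _ ?_) _
          by_contra h12
          have := Nat.mul_le_mul_right n (Nat.succ_le_of_lt (not_le.mp h12))
          simp only [Nat.succ_eq_add_one] at this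
          omega
        · refine Nat.add_le_add_left (Nat.mul_le_mul_right _ ?_) _
          by_contra h12
          have := Nat.mul_le_mul_right n (Nat.succ_le_of_lt (not_le.mp h12))
          rw [Nat.succ_mul] at this
          omega
      · rintro ⟨κ, hκ, S', h2, h3, rfl⟩
        refine ⟨fun w hw => ?_, _, ⟨g * κ, rfl⟩, insert s S', subset_univ _, ?_⟩
        · obtain ⟨s', hs', rfl⟩ := (mem_face K).mp hw
          have h4 := h3 s' hs'
          have h5 : γ0 s' ≠ γ0 s := fun h => h2 (hinj h ▸ hs')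
          have h9 := hb s
          have h10 := hb s'
          rw [hht]
          unfold gp at h4
          split_ifs at h4 with h11
          · have := Nat.mul_le_mul_right n (Nat.find_min' (hex (g * κ) s') h4)
            rw [Nat.succ_mul]
            omega
          · have := Nat.mul_le_mul_right n (Nat.find_min' (hex (g * κ) s') h4)
            omega
        · rw [face_insert]
          congr 1
          exact (vx_eq K).mpr ⟨rfl, by simpa using hE _ _ hκ⟩) y hy (by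
      intro ρ hρ
      refine (hgood ρ ?_).mp (hby ρ hρ)
      obtain ⟨v, -, h⟩ := bd_ne_zero hρ
      exact CC_down K _ _ _ (hy _ h).1 _ (subset_insert _ _))
  exact ⟨u, hu1, fun σ hσ => (hgood σ ((hy.add (hu1.bd (CC_down K _ _))) σ hσ).1).mpr (hu2 σ hσ)⟩

end Vale.Agent.P067
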