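import Vale.Agent.P067.Theta
import Vale.Agent.P067.Semi

/-! Block matrices, descending links, and the two semidirect products. -/

namespace Vale.Agent.P067

open Finset Module Matrix

universe v

lemma Cone.ex {V : Type*} [Fintype V] [DecidableEq V] {k : Type*} [Field k] {A : Set (Finset V)}
    {E R e : ℕ} (h : Cone k A E R) (he : e < E) : Ex k A e := by
  obtain ⟨c, hc⟩ := h
  intro z hz hz0
  refine ⟨∑ σ, z σ • c σ, Supp.sum _ (fun σ _ => ?_), ?_⟩
  · by_cases h : z σ = 0
    · simp [h, Supp.zero]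
    · obtain ⟨h1, h2⟩ := hz σ h
      exact (h2 ▸ (hc σ h1 (by omega)).1).smul _
  · have h3 : ∀ σ, bd (z σ • c σ) = z σ • Pi.single σ 1 + z σ • ∑ v ∈ σ, c (σ.erase v) := by
      intro σ
      by_cases h : z σ = 0
      · simp [h]
      · obtain ⟨h1, h2⟩ := hz σ h
        rw [map_smul, (hc σ h1 (by omega)).2.2, smul_add]
    rw [map_sum, Finset.sum_congr rfl (fun σ _ => h3 σ), Finset.sum_add_distrib, sum_dual, hz0]
    funext ρ
    simp [Finset.sum_apply, Pi.single_apply]

def GoodF (k : Type) [Field k] (F : Type) [Field F] (n0 : ℕ) : Prop :=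
  ∀ r ≤ n0, ∀ (E : Type) [AddCommGroup E] [Module F E] [Fintype E] (D : GD F E r)
    (τ : Finset (Submodule F E)) (C : Finset ℕ) (e : ℕ), D.ok τ → C ⊆ Free r τ → e < C.card →
    Ex k (D.Y τ C) e

theorem exists_goodF (k : Type) [Field k] [CharP k 2] (n0 : ℕ) : ∃ q, ∀ (F : Type) [Field F]
    [Fintype F], q < Fintype.card F → GoodF k F n0 := by
  have : ∀ r, ∃ q, ∀ (F : Type) [Field F] [Fintype F], q < Fintype.card F →
      ∀ (E : Type) [AddCommGroup E] [Module F E] [Fintype E] (D : GD F E r)
      (τ : Finset (Submodule F E)) (C : Finset ℕ) (e : ℕ), D.ok τ → C ⊆ Free r τ → e < C.card →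
      Ex k (D.Y τ C) e := by
    intro r
    obtain ⟨qf, Rf, h⟩ := g1_fun k r
    choose B R hB using cone_of_be.{0, 0} Rf
    refine ⟨(range (r + 1)).sup (fun e => (range (B e + 1)).sup qf), ?_⟩
    intro F _ _ hq E _ _ _ D τ C e h1 h2 h3
    have h4 : C.card ≤ r := (card_le_card h2).trans (card_free_le τ)
    refine (hB C.card _ k _ (D.down τ C) (fun e' he s hs => h F E D τ C e' s
      (lt_of_le_of_lt ?_ hq) h1 h2 he)).ex h3
    exact (Finset.le_sup (f := qf) (mem_range.mpr (Nat.lt_succ_of_le hs))).trans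
      (Finset.le_sup (f := fun e => (range (B e + 1)).sup qf)
        (mem_range.mpr (Nat.lt_succ_of_le h4)))
  choose q hq using this
  exact ⟨(range (n0 + 1)).sup q, fun F _ _ h r hr => hq r F
    (lt_of_le_of_lt (Finset.le_sup (f := q) (mem_range.mpr (by omega))) h)⟩

section blk
variable {R : Type*} [CommRing R] {m c : ℕ}

def blk (A : Matrix (Fin m) (Fin m) R) (B : Matrix (Fin m) (Fin c) R)
    (C : Matrix (Fin c) (Fin m) R) (D : Matrix (Fin c) (Fin c) R) :
    Matrix (Fin (m + c)) (Fin (m + c)) R :=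
  reindex finSumFinEquiv finSumFinEquiv (fromBlocks A B C D)

variable (A A' : Matrix (Fin m) (Fin m) R) (B B' : Matrix (Fin m) (Fin c) R)
    (C C' : Matrix (Fin c) (Fin m) R) (D D' : Matrix (Fin c) (Fin c) R)

omit [CommRing R] in
@[simp] lemma blk_cc (a b : Fin m) : blk A B C D (Fin.castAdd c a) (Fin.castAdd c b) = A a b := by
  simp [blk]
omit [CommRing R] in
@[simp] lemma blk_cn (a : Fin m) (b : Fin c) :
    blk A B C D (Fin.castAdd c a) (Fin.natAdd m b) = B a b := by simp [blk]
omit [CommRing R] in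
@[simp] lemma blk_nc (a : Fin c) (b : Fin m) :
    blk A B C D (Fin.natAdd m a) (Fin.castAdd c b) = C a b := by simp [blk]
omit [CommRing R] in
@[simp] lemma blk_nn (a b : Fin c) : blk A B C D (Fin.natAdd m a) (Fin.natAdd m b) = D a b := by
  simp [blk]

lemma blk_mul : blk A B C D * blk A' B' C' D' =
    blk (A * A' + B * C') (A * B' + B * D') (C * A' + D * C') (C * B' + D * D') := by
  simp only [blk, reindex_apply, submatrix_mul_equiv, fromBlocks_multiply]

lemma blk_one : blk (1 : Matrix (Fin m) (Fin m) R) (0 : Matrix (Fin m) (Fin c) R) 0 1 = 1 := by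
  simp [blk]

lemma det_blk_lower : (blk A 0 C D).det = A.det * D.det := by
  simp [blk, det_fromBlocks_zero₁₂]

lemma det_blk_upper : (blk A B 0 D).det = A.det * D.det := by
  simp [blk, det_fromBlocks_zero₂₁]

omit [CommRing R] in
lemma exists_blk (M : Matrix (Fin (m + c)) (Fin (m + c)) R) : ∃ A B C D, M = blk A B C D := by
  refine ⟨of fun a b => M (Fin.castAdd c a) (Fin.castAdd c b),
    of fun a b => M (Fin.castAdd c a) (Fin.natAdd m b),
    of fun a b => M (Fin.natAdd m a) (Fin.castAdd c b),
    of fun a b => M (Fin.natAdd m a) (Fin.natAdd m b), ?_⟩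
  ext a b
  refine Fin.addCases (fun a => ?_) (fun a => ?_) a <;>
    refine Fin.addCases (fun b => ?_) (fun b => ?_) b <;> simp

omit [CommRing R] in
lemma uni_blk {F : Type*} [CommRing F] (f : R → F) : IsUni ((blk A B C D).map f) ↔
    IsUni (A.map f) ∧ (∀ i b, f (C i b) = 0) ∧ IsUni (D.map f) := by
  simp only [IsUni, map_apply, Fin.forall_fin_add, blk_cc, blk_cn, blk_nc, blk_nn, Fin.lt_def,
    Fin.val_castAdd, Fin.val_natAdd]
  constructor
  · rintro ⟨⟨h1, h2⟩, h3, h4⟩
    exact ⟨⟨fun a => (h1 a).1, h3⟩, fun i b => (h2 i).1 b (by omega),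
      fun a b h => (h2 a).2 b (by omega), h4⟩
  · rintro ⟨⟨h1, h2⟩, h3, h4, h5⟩
    exact ⟨⟨fun a => ⟨h1 a, fun b h => by omega⟩, fun a => ⟨fun b _ => h3 a b,
      fun b h => h4 a b (by omega)⟩⟩, h2, h5⟩

end blk

section
variable {F R : Type} [Field F] [Fintype F] [CommRing R] [Algebra F R] [Finite R]
  {ε : R →ₐ[F] F} {t : R} {m c : ℕ}

omit [Fintype F] in
lemma KK_blk {s : ℕ} (hs : s ≤ m) {g : PG ε (m + c)} {A B C D} (h : mat g = blk A B C D) :
    g ∈ KK ε (m + c) t s ↔ (∀ a b, ∃ x : F, A a b = x • tau t s a b) ∧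
      (∀ a j, ∃ x : F, B a j = x • (if (a : ℕ) < s then 0 else 1)) ∧
      (∀ i b, ∃ x : F, C i b = x • (if (b : ℕ) < s then t else 1)) ∧
      (∀ i j, ∃ x : F, D i j = x • 1) := by
  have h1 : ∀ j : Fin c, ¬ m + j < s := fun j => by omega
  simp only [mem_KK, h, Fin.forall_fin_add, blk_cc, blk_cn, blk_nc, blk_nn,
    Fin.val_castAdd, Fin.val_natAdd, tau, h1, if_false, forall_and, and_assoc]
  tauto

omit [Fintype F] [Finite R] in
lemma one_shape {n : ℕ} (s : ℕ) (a b : Fin n) :
    ∃ x : F, (1 : Matrix (Fin n) (Fin n) R) a b = x • tau t s a b := by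
  by_cases h : a = b
  · subst h; exact ⟨1, by simp [tau_self]⟩
  · exact ⟨0, by simp [h]⟩

omit [Fintype F] [Finite R] in
lemma one_shape' {n : ℕ} (a b : Fin n) :
    ∃ x : F, (1 : Matrix (Fin n) (Fin n) R) a b = x • 1 := by
  by_cases h : a = b
  · subst h; exact ⟨1, by simp⟩
  · exact ⟨0, by simp [h]⟩

omit [Fintype F] [Finite R] in
lemma uni_one {n : ℕ} : IsUni ((1 : Matrix (Fin n) (Fin n) R).map ε) := by
  rw [Matrix.map_one _ (map_zero ε) (map_one ε)]
  exact IsUni.one

variable (ε m c) in
def ext : PG ε m →* PG ε (m + c) where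
  toFun g := mkP (blk (mat g) 0 0 1) (by simp [det_blk_lower, mat_det])
    ((uni_blk _ _ _ _ _).mpr ⟨mat_uni g, by simp, uni_one⟩)
  map_one' := mat_ext blk_one
  map_mul' g h := mat_ext (by simp [mat_mul, blk_mul])

omit [Fintype F] in
lemma mat_ext' (g : PG ε m) : mat (ext ε m c g) = blk (mat g) 0 0 1 := rfl

omit [Fintype F] in
lemma ext_mem {s : ℕ} (hs : s ≤ m) {g : PG ε m} :
    ext ε m c g ∈ KK ε (m + c) t s ↔ g ∈ KK ε m t s := by
  rw [KK_blk hs (mat_ext' g)]
  exact ⟨fun h => h.1, fun h => ⟨h, fun _ _ => ⟨0, by simp⟩, fun _ _ => ⟨0, by simp⟩, one_shape'⟩⟩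

theorem desc_link {k : Type} [Field k] {n0 : ℕ} (hg : GoodF k F n0) (hm : m ≤ n0) (hε : ε t = 0)
    (ht : t ≠ 0) {ι : Type} [Fintype ι] [DecidableEq ι] (col : ι → ℕ)
    (hcol : Function.Injective col) (hlt : ∀ s, col s < m) (g : PG ε m) (s : ι)
    (H H' : Submodule F (Fin m → F)) (hH : H ≠ ⊤) (hH' : H' ≠ ⊥) (Q : PG ε m → ι → Prop)
    (hQ : ∀ u s', s' ≠ s → (Q (Theta hε (col s) (hlt s).le u) s' ↔
      ¬ actS u (Dst F F m (rk m (col s) (col s'))) ≤ H ∧
      ¬ H' ≤ actS u (Dst F F m (rk m (col s) (col s'))))) (e : ℕ) (he : e + 1 < Fintype.card ι) :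
    Ex k {σ | ∃ κ ∈ KK ε m t (col s), ∃ S' : Finset ι, s ∉ S' ∧ (∀ s' ∈ S', Q κ s') ∧
      σ = face (fun s => KK ε (m + c) t (col s)) (ext ε m c (g * κ)) S'} e := by
  have hne : ∀ s' ∈ univ.erase s, col s' ≠ col s := fun s' hs' h => ne_of_mem_erase hs' (hcol h)
  have hcard : (univ.erase s).card = Fintype.card ι - 1 := by simp
  obtain ⟨D, τ, Cc, h1, h2, h3, h4⟩ := link_transfer.{0} (fun s => KK ε (m + c) t (col s))
    ((ext ε m c).comp (Theta hε (col s) (hlt s).le)) (fun s' => rk m (col s) (col s'))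
    (ext ε m c g) ∅ (univ.erase s) H H'
    (fun s' hs' => rk_bounds (hlt s) (hlt s') (hne s' (by simpa using hs')))
    (fun a _ b _ h => hcol (rk_inj (hlt s).le (hlt a) (hlt b) h)) (disjoint_empty_left _)
    (card_pos.mp (by omega)) (fun s' hs' u => by
      rw [MonoidHom.comp_apply, ext_mem (hlt s').le, Theta_mem_iff hε ht _ (hlt s') (hne s' hs')])
    hH hH' (by simp)
  have h5 := (h4 k e _ _ ((hg (m - 1) (by omega) _ D τ Cc e h1 h2 (by omega)).be _)).ex
  convert h5
  rename_i σ
  constructor
  · rintro ⟨κ, hκ, S', h6, h7, rfl⟩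
    obtain ⟨u, rfl⟩ := exists_Theta hε (hlt s).le hκ
    have h8 : ∀ s' ∈ S', s' ≠ s := fun s' hs' h => h6 (h ▸ hs')
    exact ⟨u, by simp, S', fun s' hs' => mem_erase.mpr ⟨h8 s' hs', mem_univ _⟩,
      fun s' hs' => (hQ u s' (h8 s' hs')).mp (h7 s' hs'), by simp⟩
  · rintro ⟨u, -, S', h6, h7, rfl⟩
    exact ⟨_, Theta_mem hε _ u, S', fun h => notMem_erase _ _ (h6 h),
      fun s' hs' => (hQ u s' (ne_of_mem_erase (h6 hs'))).mpr (h7 s' hs'), by simp⟩

lemma window {m s mm i b : ℕ} (hb : b < m) (h1 : s + mm * m ≤ i * m + b)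
    (h2 : i * m + b < s + (mm + 1) * m) (hs : s ≤ m) :
    (s ≤ b ∧ i = mm) ∨ (b < s ∧ i = mm + 1) := by
  rcases lt_trichotomy i mm with h | h | h
  · have := Nat.mul_le_mul_right m (Nat.succ_le_of_lt h)
    rw [Nat.succ_mul] at this
    omega
  · subst h; left; omega
  · rcases (Nat.succ_le_of_lt h).eq_or_lt with h' | h'
    · subst h'
      right; rw [Nat.succ_mul] at *; omega
    · have := Nat.mul_le_mul_right m (Nat.succ_le_of_lt h')
      simp only [Nat.succ_mul] at *
      omega

/-- the hypotheses on the coefficient ring -/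
structure RD (ε : R →ₐ[F] F) (t : R) (k0 : ℕ) : Prop where
  hε : ε t = 0
  ht : t ≠ 0
  nil : t ^ k0 = 0
  span : ∀ r, ε r = 0 → r ∈ Submodule.span F {x | ∃ i < k0, x = t ^ (i + 1)}

/-! ### columns -/

variable (ε m) in
def nuC (κ : Fin m → R) : PG ε (m + 1) :=
  mkP (blk 1 (of fun a _ => κ a) 0 1) (by simp [det_blk_upper])
    ((uni_blk _ _ _ _ _).mpr ⟨uni_one, by simp, uni_one⟩)

omit [Fintype F] in
lemma mat_nuC (κ : Fin m → R) : mat (nuC ε m κ) = blk 1 (of fun a _ => κ a) 0 1 := rfl

omit [Fintype F] in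
lemma nuC_add (a b : Fin m → R) : nuC ε m (a + b) = nuC ε m a * nuC ε m b := by
  apply mat_ext
  simp only [mat_mul, mat_nuC, blk_mul, Matrix.one_mul, Matrix.mul_one, Matrix.mul_zero,
    Matrix.zero_mul, add_zero, zero_add]
  congr 1
  ext i j
  simp [add_comm]

variable (F t m) in
def PhiC (γ : ℕ) : Submodule F (Fin m → R) :=
  Submodule.span F {v | ∃ (i : ℕ) (a : Fin m), i * m + (m - 1 - a) < γ ∧ v = Pi.single a (t ^ i)}

omit [Fintype F] in
lemma lin_single (g : PG ε m) (b : Fin m) (x : R) :
    lin g (Pi.single b x) = ∑ a, Pi.single a (mat g a b * x) := by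
  funext a
  simp [lin_apply, Finset.sum_apply, Pi.single_apply]

theorem semi_col {k : Type} [Field k] [CharP k 2] {n0 k0 : ℕ} (hg : GoodF k F n0) (hm : m ≤ n0)
    (hR : RD ε t k0) {ι : Type} [Fintype ι] [DecidableEq ι] (col : ι → ℕ)
    (hcol : Function.Injective col) (hlt : ∀ s, col s < m) (ψ : AddChar F k) (hψ : ψ ≠ 1)
    (hF : (Fintype.card F : k) ≠ 0) (e : ℕ) (he : e < Fintype.card ι)
    (z : Finset (Vx ι (PG ε (m + 1))) → k)
    (hz : Supp (CC (fun s => KK ε (m + 1) t (col s)) (Set.range (ext ε m 1)) univ) e z)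
    (hz0 : bd z = 0) (a : Fin m → R) :
    Hom (CC (fun s => KK ε (m + 1) t (col s)) Set.univ univ) e z (act (nuC ε m a) z) := by
  classical
  let _ : Fintype R := Fintype.ofFinite _
  have hgen : ∀ γ (i : ℕ) (a : Fin m), i * m + (m - 1 - a) < γ →
      (Pi.single a (t ^ i) : Fin m → R) ∈ PhiC F t m γ :=
    fun γ i a h => Submodule.subset_span ⟨i, a, h, rfl⟩
  have hinv : ∀ s0 < m, ∀ κ ∈ KK ε m t s0, ∀ mm, ∀ a ∈ PhiC F t m (m - s0 + mm * m),
      lin κ a ∈ PhiC F t m (m - s0 + mm * m) := by
    intro s0 hs0 κ hκ mm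
    change PhiC F t m _ ≤ (PhiC F t m _).comap (lin κ)
    rw [PhiC, Submodule.span_le]
    rintro _ ⟨i, b, h, rfl⟩
    change lin κ _ ∈ PhiC F t m _
    rw [lin_single]
    refine Submodule.sum_mem _ (fun a _ => ?_)
    obtain ⟨x, hx⟩ := hκ a b
    have hb := b.2
    have ha := a.2
    have hi : (s0 ≤ (b : ℕ) → i ≤ mm) ∧ ((b : ℕ) < s0 → i + 1 ≤ mm) := by
      constructor
      · intro h1
        by_contra h2
        have := Nat.mul_le_mul_right m (Nat.succ_le_of_lt (not_le.mp h2))
        rw [Nat.succ_mul] at this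
        omega
      · intro h1
        by_contra h2
        have := Nat.mul_le_mul_right m (show mm ≤ i by omega)
        omega
    rw [hx, smul_mul_assoc, Pi.single_smul]
    apply Submodule.smul_mem
    unfold tau
    split_ifs with h1 h2 h3
    · rw [one_mul]; apply hgen
      have := Nat.mul_le_mul_right m (hi.2 h2)
      rw [Nat.succ_mul] at this
      omega
    · simp
    · rw [← pow_succ']; apply hgen
      have := Nat.mul_le_mul_right m (hi.2 h3)
      omega
    · rw [one_mul]; apply hgen
      have := Nat.mul_le_mul_right m (hi.1 (by omega))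
      omega
  have main := semidirect (fun s => KK ε (m + 1) t (col s)) (fun s => KK ε m t (col s))
    (ext ε m 1) (nuC ε m) lin nuC_add (by
      intro g a
      apply mat_ext
      simp only [mat_mul, mat_nuC, mat_ext', blk_mul, Matrix.one_mul, Matrix.mul_one,
        Matrix.mul_zero, Matrix.zero_mul, add_zero, zero_add]
      congr 1) lin_mul lin_one (by
      intro a g s h
      exact ((KK_blk (hlt s).le (A := mat g) (by
        simp only [mat_mul, mat_nuC, mat_ext', blk_mul, Matrix.one_mul, Matrix.mul_one,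
          Matrix.mul_zero, Matrix.zero_mul, add_zero, zero_add]
        rfl)).mp h).1) (fun g s h => (ext_mem (hlt s).le).mpr h) m 1 (fun s => m - col s)
    (fun a b h => hcol (by have := hlt a; have := hlt b; simp only at h; omega))
    (fun s => by have := hlt s; omega) (PhiC F t m)
    (fun γ γ' h => Submodule.span_mono (by
      rintro _ ⟨i, a, h1, rfl⟩; exact ⟨i, a, by omega, rfl⟩)) (by
      refine ⟨(k0 + 1) * m, eq_top_iff.mpr (fun v _ => ?_)⟩
      rw [← Finset.univ_sum_single v]
      refine Submodule.sum_mem _ (fun a _ => ?_)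
      have ha := a.2
      have h1 : v a = ε (v a) • (1 : R) + (v a - ε (v a) • 1) := by abel
      rw [h1, Pi.single_add, Pi.single_smul]
      refine Submodule.add_mem _ (Submodule.smul_mem _ _ ?_) ?_
      · rw [← pow_zero t]; apply hgen
        rw [Nat.succ_mul]; omega
      · have h2 := hR.span (v a - ε (v a) • 1) (by simp)
        refine (Submodule.span_le (p := (PhiC F t m _).comap
          (LinearMap.single F (fun _ : Fin m => R) a))).mpr ?_ h2
        rintro _ ⟨i, hi, rfl⟩
        apply hgen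
        have := Nat.mul_le_mul_right m (Nat.succ_le_of_lt hi)
        simp only [Nat.succ_mul] at this ⊢
        omega) (fun s => hinv _ (hlt s)) (by
      intro s a
      rw [KK_blk (hlt s).le (mat_nuC a)]
      have hs := hlt s
      constructor
      · rintro ⟨-, h, -⟩
        rw [← Finset.univ_sum_single a]
        refine Submodule.sum_mem _ (fun b _ => ?_)
        obtain ⟨x, hx⟩ := h b 0
        simp only [of_apply] at hx
        rw [hx]
        split_ifs with h1
        · simp
        · rw [Pi.single_smul, ← pow_zero t]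
          exact Submodule.smul_mem _ _ (hgen _ _ _ (by omega))
      · intro h
        have h1 : PhiC F t m (m - col s) ≤ Dst F R m (col s) := by
          rw [PhiC, Submodule.span_le]
          rintro _ ⟨i, b, h1, rfl⟩
          have hb := b.2
          have hi : i = 0 := by
            by_contra h2
            have := Nat.mul_le_mul_right m (Nat.one_le_iff_ne_zero.mpr h2)
            omega
          subst hi
          rw [pow_zero]
          exact single_mem_Dst (by omega)
        refine ⟨one_shape _, fun b _ => ?_, fun _ _ => ⟨0, by simp⟩, one_shape'⟩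
        obtain ⟨x, h2, h3⟩ := h1 h b
        refine ⟨x, ?_⟩
        split_ifs with h4
        · simp [h2, h3 h4]
        · simp [h2, Algebra.algebraMap_eq_smul_one]) ψ hψ (by
      rw [Module.card_eq_pow_finrank (K := F)]
      push_cast
      exact pow_ne_zero _ hF) e (by
      intro l g s mm h1 h2 e' he'
      have hs := hlt s
      let τc : Fin m → R := fun a => if (a : ℕ) < col s then 1 else t
      let j : (Fin m → F) →ₗ[F] (Fin m → R) := LinearMap.pi (fun a =>
        (LinearMap.toSpanSingleton F R (t ^ mm * τc a)) ∘ₗ LinearMap.proj (rot m _ hs.le a))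
      have hj : ∀ w a, j w a = w (rot m _ hs.le a) • (t ^ mm * τc a) := fun w a => rfl
      have hj1 : ∀ b, j (Pi.single (rot m _ hs.le b) 1) = Pi.single b (t ^ mm * τc b) := by
        intro b; funext a
        by_cases h : a = b
        · simp [hj, h]
        · simp [hj, h]
      have hj2 : ∀ u w, lin (Theta hR.hε _ hs.le u) (j w) = j (lin u w) := by
        intro u w; funext a
        simp only [lin_apply, mulVec, dotProduct, hj, mat_Theta, Finset.sum_smul]
        refine Fintype.sum_equiv (rot m _ hs.le) _ _ (fun b => ?_)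
        by_cases h : rot m _ hs.le b < rot m _ hs.le a
        · simp [(matU_uni u).1 _ _ h]
        rw [smul_mul_smul_comm]
        congr 1
        have h' : ¬ rk m (col s) b < rk m (col s) a := h
        have := a.2
        have := b.2
        unfold rk at h'
        simp only [τc, tau]
        split_ifs at h' ⊢ <;> first | omega | ring
      have GC : ∀ u c', c' ≤ m → ((∃ a ∈ PhiC F t m (m - col s + mm * m + (m - c')),
          l (lin (g * Theta hR.hε _ hs.le u) a) ≠ 0) ↔
          ¬ actS u (Dst F F m c') ≤ LinearMap.ker (l ∘ₗ lin g ∘ₗ j)) := by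
        intro u c' hc'
        rw [actS, map_Dst_le]
        constructor
        · rintro ⟨a, h3, h4⟩ h5
          apply h4
          refine (Submodule.span_le (p := LinearMap.ker (l ∘ₗ lin _))).mpr ?_ h3
          rintro _ ⟨i, b, h6, rfl⟩
          have hb := b.2
          change l (lin _ _) = 0
          rw [lin_mul]
          by_cases h7 : i * m + (m - 1 - b) < m - col s + mm * m
          · by_contra h8
            exact h1 ⟨_, hinv _ hs _ (Theta_mem hR.hε _ u) mm _ (hgen _ _ _ h7), h8⟩
          · have h8 := window (m := m) (s := m - col s) (mm := mm) (i := i) (b := m - 1 - b)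
              (by omega) (by omega) (by rw [Nat.succ_mul]; omega) (by omega)
            have h9 : t ^ i = t ^ mm * τc b ∧ c' ≤ rk m (col s) b := by
              unfold rk
              rcases h8 with ⟨h8, rfl⟩ | ⟨h8, rfl⟩
              · simp only [τc]; rw [if_pos (by omega), if_neg (by omega)]
                exact ⟨by ring, by omega⟩
              · simp only [τc]; rw [if_neg (by omega), if_pos (by omega)]
                rw [Nat.succ_mul] at h6
                exact ⟨by ring, by omega⟩
            rw [h9.1, ← hj1, hj2]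
            exact h5 _ h9.2
        · intro h3
          push Not at h3
          obtain ⟨b', h4, h5⟩ := h3
          obtain ⟨b, rfl⟩ := (rot m _ hs.le).surjective b'
          refine ⟨j (Pi.single (rot m _ hs.le b) 1), ?_, by rw [lin_mul, hj2]; exact h5⟩
          rw [hj1]
          have hb := b.2
          rw [rot_val] at h4
          unfold rk at h4
          simp only [τc]
          by_cases h6 : (b : ℕ) < col s
          · rw [if_neg (by omega)] at h4
            rw [if_pos h6, mul_one]; apply hgen; omega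
          · rw [if_pos (by omega)] at h4
            rw [if_neg h6, ← pow_succ]; apply hgen; rw [Nat.succ_mul]; omega
      have : Nonempty (Fin m) := ⟨⟨0, by omega⟩⟩
      refine desc_link hg hm hR.hε hR.ht col hcol hlt g s (LinearMap.ker (l ∘ₗ lin g ∘ₗ j)) ⊤ ?_
        top_ne_bot _ ?_ e' (by omega)
      · intro h
        have := (GC 1 0 (Nat.zero_le _)).mp (by
          rw [map_one, mul_one, Nat.sub_zero, add_assoc, ← Nat.succ_mul]; exact h2)
        exact this (h ▸ le_top)
      · intro u s' hs'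
        have h3 := rk_bounds hs (hlt s') (fun h => hs' (hcol h))
        have h4 : gp m (m - col s) (m - col s') mm =
            m - col s + mm * m + (m - rk m (col s) (col s')) := by
          have := hlt s'
          have : col s' ≠ col s := fun h => hs' (hcol h)
          unfold gp rk
          split_ifs <;> first | omega | (rw [Nat.succ_mul]; omega)
        rw [h4, GC u _ h3.2.le]
        exact ⟨fun h => ⟨h, (Dst_triv h3.1 h3.2 u).2⟩, fun h => h.1⟩)
    z (hz.mono (CC_mono _ (by
      rintro _ ⟨g, rfl⟩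
      refine ⟨0, g, ?_⟩
      have := nuC_add (ε := ε) (0 : Fin m → R) 0
      rw [add_zero] at this
      rw [left_eq_mul.mp this, one_mul]) _)) hz0
  exact (main.1 a).mono (CC_mono _ (Set.subset_univ _) _)

end

end Vale.Agent.P067
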