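import Mathlib

/-! Simplicial chains in characteristic two, on a finite vertex type. -/

namespace Vale.Agent.P067

open Finset

variable {V : Type*} [Fintype V] [DecidableEq V] {k : Type*} [Field k]

/-- boundary of a chain -/
def bd : (Finset V → k) →ₗ[k] (Finset V → k) where
  toFun y := fun ρ => ∑ v ∈ ρᶜ, y (insert v ρ)
  map_add' y z := by funext ρ; simp [Finset.sum_add_distrib]
  map_smul' c y := by funext ρ; simp [Finset.mul_sum]

lemma bd_apply (y : Finset V → k) (ρ : Finset V) : bd y ρ = ∑ v ∈ ρᶜ, y (insert v ρ) := rfl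

def Supp (A : Set (Finset V)) (e : ℕ) (y : Finset V → k) : Prop :=
  ∀ σ, y σ ≠ 0 → σ ∈ A ∧ σ.card = e

open scoped Classical in
noncomputable def sz (y : Finset V → k) : ℕ := (univ.filter (fun σ => y σ ≠ 0)).card

def Down (A : Set (Finset V)) : Prop := ∀ σ ∈ A, ∀ ρ, ρ ⊆ σ → ρ ∈ A

variable (k) in
def BE (A : Set (Finset V)) (e s R : ℕ) : Prop :=
  ∀ z : Finset V → k, Supp A e z → bd z = 0 → sz z ≤ s →
    ∃ y, Supp A (e + 1) y ∧ bd y = z ∧ sz y ≤ R

variable (k) in
def Ex (A : Set (Finset V)) (e : ℕ) : Prop :=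
  ∀ z : Finset V → k, Supp A e z → bd z = 0 → ∃ y, Supp A (e + 1) y ∧ bd y = z

omit [Fintype V] [DecidableEq V] in
lemma Supp.zero (A : Set (Finset V)) (e : ℕ) : Supp A e (0 : Finset V → k) := by
  intro σ h; simp at h

omit [Fintype V] [DecidableEq V] in
lemma Supp.add {A : Set (Finset V)} {e : ℕ} {y z : Finset V → k} (hy : Supp A e y)
    (hz : Supp A e z) : Supp A e (y + z) := by
  intro σ h
  by_cases h1 : y σ = 0
  · apply hz; simpa [h1] using h
  · exact hy σ h1

omit [Fintype V] [DecidableEq V] in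
lemma Supp.smul {A : Set (Finset V)} {e : ℕ} {y : Finset V → k} (hy : Supp A e y) (c : k) :
    Supp A e (c • y) := by
  intro σ h
  apply hy; intro h1; simp [h1] at h

omit [Fintype V] [DecidableEq V] in
lemma Supp.sum {A : Set (Finset V)} {e : ℕ} {ι : Type*} (s : Finset ι) {y : ι → Finset V → k}
    (hy : ∀ i ∈ s, Supp A e (y i)) : Supp A e (∑ i ∈ s, y i) := by
  intro σ h
  rw [Finset.sum_apply] at h
  obtain ⟨i, hi, h⟩ := Finset.exists_ne_zero_of_sum_ne_zero h
  exact hy i hi σ h

omit [Fintype V] [DecidableEq V] in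
lemma Supp.mono {A B : Set (Finset V)} {e : ℕ} {y : Finset V → k} (hy : Supp A e y)
    (h : A ⊆ B) : Supp B e y := fun σ hσ => ⟨h (hy σ hσ).1, (hy σ hσ).2⟩

lemma bd_ne_zero {y : Finset V → k} {ρ : Finset V} (h : bd y ρ ≠ 0) :
    ∃ v, v ∉ ρ ∧ y (insert v ρ) ≠ 0 := by
  obtain ⟨v, hv, h⟩ := Finset.exists_ne_zero_of_sum_ne_zero h
  exact ⟨v, by simpa using hv, h⟩

lemma Supp.bd {A : Set (Finset V)} (hA : Down A) {e : ℕ} {y : Finset V → k}
    (hy : Supp A (e + 1) y) : Supp A e (bd y) := by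
  intro ρ h
  obtain ⟨v, hv, h⟩ := bd_ne_zero h
  obtain ⟨h1, h2⟩ := hy _ h
  refine ⟨hA _ h1 _ (subset_insert _ _), ?_⟩
  rw [card_insert_of_notMem hv] at h2; omega

lemma bd_of_supp_zero {A : Set (Finset V)} {y : Finset V → k} (hy : Supp A 0 y) : bd y = 0 := by
  funext ρ
  by_contra h
  obtain ⟨v, hv, h⟩ := bd_ne_zero h
  have := (hy _ h).2
  simp at this

lemma bd_bd [CharP k 2] (y : Finset V → k) : bd (bd y) = 0 := by
  funext ρ
  simp only [bd_apply, Pi.zero_apply]
  have h1 : ∀ v ∈ ρᶜ, ∑ w ∈ (insert v ρ)ᶜ, y (insert w (insert v ρ)) =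
      ∑ w ∈ ρᶜ, if w = v then 0 else y (insert w (insert v ρ)) := by
    intro v hv
    rw [compl_insert, ← Finset.sum_erase (s := ρᶜ) (a := v) (by simp)]
    apply Finset.sum_congr rfl
    intro w hw
    rw [if_neg (ne_of_mem_erase hw)]
  rw [Finset.sum_congr rfl h1, ← Finset.sum_product']
  apply Finset.sum_involution (fun p _ => p.swap)
  · rintro ⟨v, w⟩ _
    by_cases h : w = v
    · simp [h]
    · have h' : ¬ v = w := fun h' => h h'.symm
      simp only [Prod.swap, h, h', if_false]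
      rw [Finset.insert_comm, CharTwo.add_self_eq_zero]
  · rintro ⟨v, w⟩ _ h h'
    simp only [Prod.swap, Prod.mk.injEq] at h'
    simp [h'.1] at h
  · rintro ⟨v, w⟩ _; rfl
  · rintro ⟨v, w⟩ h
    simp only [mem_product] at h ⊢
    exact ⟨h.2, h.1⟩

/-- duality between boundary and coboundary -/
lemma sum_dual {M : Type*} [AddCommGroup M] [Module k M] (z : Finset V → k) (f : Finset V → M) :
    ∑ σ, z σ • ∑ v ∈ σ, f (σ.erase v) = ∑ ρ, bd z ρ • f ρ := by
  simp only [bd_apply, Finset.smul_sum, Finset.sum_smul]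
  rw [Finset.sum_sigma', Finset.sum_sigma']
  refine Finset.sum_bij' (fun p _ => ⟨p.1.erase p.2, p.2⟩) (fun p _ => ⟨insert p.2 p.1, p.2⟩)
    ?_ ?_ ?_ ?_ ?_
  · rintro ⟨σ, v⟩ h; simp
  · rintro ⟨σ, v⟩ h; simp
  · rintro ⟨σ, v⟩ h
    simp only [mem_sigma, mem_univ, true_and] at h
    simp [insert_erase h]
  · rintro ⟨σ, v⟩ h
    simp only [mem_sigma, mem_univ, true_and, mem_compl] at h
    simp [erase_insert h]
  · rintro ⟨σ, v⟩ h
    simp only [mem_sigma, mem_univ, true_and] at h
    simp [insert_erase h]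

lemma bd_single (σ : Finset V) :
    bd (Pi.single σ (1 : k)) = ∑ v ∈ σ, Pi.single (σ.erase v) (1 : k) := by
  have h := sum_dual (k := k) (Pi.single σ (1 : k))
    (fun ρ => (Pi.single ρ (1 : k) : Finset V → k))
  rw [Finset.sum_eq_single σ (by intro b _ hb; simp [hb]) (by simp)] at h
  simp only [Pi.single_eq_same, one_smul] at h
  rw [h]
  funext ρ
  rw [Finset.sum_apply, Finset.sum_eq_single ρ (by intro b _ hb; simp [hb.symm]) (by simp)]
  simp

omit [DecidableEq V] in
lemma sz_zero : sz (0 : Finset V → k) = 0 := by simp [sz]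

omit [DecidableEq V] in
lemma sz_le_card (y : Finset V → k) : sz y ≤ Fintype.card (Finset V) := by
  classical
  unfold sz; exact card_le_univ _

omit [DecidableEq V] in
lemma sz_le_of_subset {y : Finset V → k} {s : Finset (Finset V)} (h : ∀ σ, y σ ≠ 0 → σ ∈ s) :
    sz y ≤ s.card := by
  unfold sz
  apply card_le_card
  intro σ hσ
  exact h σ (by simpa using hσ)

omit [DecidableEq V] in
lemma sz_add (y z : Finset V → k) : sz (y + z) ≤ sz y + sz z := by
  classical
  unfold sz
  refine le_trans (card_le_card ?_) (card_union_le _ _)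
  intro σ hσ
  simp only [mem_filter, mem_univ, true_and, mem_union, Pi.add_apply] at hσ ⊢
  by_contra h
  push Not at h
  simp [h.1, h.2] at hσ

omit [DecidableEq V] in
lemma sz_sum {ι : Type*} (s : Finset ι) (y : ι → Finset V → k) :
    sz (∑ i ∈ s, y i) ≤ ∑ i ∈ s, sz (y i) := by
  classical
  induction s using Finset.induction_on with
  | empty => simp [sz_zero]
  | insert a s ha ih =>
    rw [Finset.sum_insert ha, Finset.sum_insert ha]
    exact (sz_add _ _).trans (by omega)

lemma sz_single (σ : Finset V) : sz (Pi.single σ (1 : k) : Finset V → k) ≤ 1 := by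
  refine (sz_le_of_subset (s := {σ}) ?_).trans (by simp)
  intro ρ h
  by_contra h'
  exact h (Pi.single_eq_of_ne (by simpa using h') _)

omit [DecidableEq V] in
lemma sz_le_of_inj {V' : Type*} [Fintype V'] {y : Finset V → k} {y' : Finset V' → k}
    (φ : Finset V → Finset V') (h1 : ∀ σ, y σ ≠ 0 → y' (φ σ) ≠ 0)
    (h2 : ∀ σ τ, y σ ≠ 0 → y τ ≠ 0 → φ σ = φ τ → σ = τ) : sz y ≤ sz y' := by
  classical
  unfold sz
  apply Finset.card_le_card_of_injOn φ
  · intro σ hσ
    simp only [coe_filter, mem_univ, true_and, Set.mem_ofPred_eq] at hσ ⊢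
    exact h1 σ hσ
  · intro σ hσ τ hτ h
    simp only [coe_filter, mem_univ, true_and, Set.mem_ofPred_eq] at hσ hτ
    exact h2 σ τ hσ hτ h

lemma BE.mono {A : Set (Finset V)} {e s R s' R' : ℕ} (h : BE k A e s R) (hs : s' ≤ s)
    (hR : R ≤ R') : BE k A e s' R' := by
  intro z h1 h2 h3
  obtain ⟨y, h4, h5, h6⟩ := h z h1 h2 (h3.trans hs)
  exact ⟨y, h4, h5, h6.trans hR⟩

/-! ### cones over a vertex -/

def cone (w : V) (z : Finset V → k) : Finset V → k :=
  fun σ => if w ∈ σ then z (σ.erase w) else 0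

lemma bd_cone [CharP k 2] (w : V) (z : Finset V → k) (hw : ∀ σ, z σ ≠ 0 → w ∉ σ) :
    bd (cone w z) = z + cone w (bd z) := by
  funext ρ
  simp only [bd_apply, cone, Pi.add_apply]
  by_cases h : w ∈ ρ
  · have hz : z ρ = 0 := by by_contra h'; exact hw ρ h' h
    simp only [mem_insert, h, or_true, if_true, hz, zero_add]
    rw [compl_erase, Finset.sum_insert (by simpa using h), insert_erase h, hz, zero_add]
    apply Finset.sum_congr rfl
    intro v hv
    rw [erase_insert_of_ne]
    rintro rfl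
    simp [h] at hv
  · simp only [h, if_false, add_zero]
    rw [Finset.sum_eq_single w]
    · simp [erase_insert h]
    · intro v _ hv
      rw [if_neg]; simp [h, hv.symm]
    · intro h'; simp [h] at h'

lemma sz_cone (w : V) (z : Finset V → k) : sz (cone w z) ≤ sz z := by
  apply sz_le_of_inj (fun σ => σ.erase w)
  · intro σ h h'; apply h; simp [cone, h']
  · intro σ τ h1 h2 h
    have h3 : w ∈ σ := by by_contra h'; simp [cone, h'] at h1
    have h4 : w ∈ τ := by by_contra h'; simp [cone, h'] at h2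
    rw [← insert_erase h3, h, insert_erase h4]

omit [Fintype V] in
lemma supp_cone {A : Set (Finset V)} {e : ℕ} (w : V) {z : Finset V → k}
    (h : ∀ σ, z σ ≠ 0 → w ∉ σ → insert w σ ∈ A ∧ σ.card = e) : Supp A (e + 1) (cone w z) := by
  intro σ hσ
  have h3 : w ∈ σ := by by_contra h'; simp [cone, h'] at hσ
  simp only [cone, h3, if_true] at hσ
  obtain ⟨h1, h2⟩ := h _ hσ (notMem_erase _ _)
  rw [insert_erase h3] at h1
  refine ⟨h1, ?_⟩
  rw [← h2, card_erase_add_one h3]

lemma cone_fill [CharP k 2] {A : Set (Finset V)} {e : ℕ} (w : V) {z : Finset V → k}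
    (hz : bd z = 0) (h : ∀ σ, z σ ≠ 0 → w ∉ σ ∧ insert w σ ∈ A ∧ σ.card = e) :
    ∃ y, Supp A (e + 1) y ∧ bd y = z ∧ sz y ≤ sz z := by
  refine ⟨cone w z, supp_cone w (fun σ hσ _ => (h σ hσ).2), ?_, sz_cone _ _⟩
  rw [bd_cone w z (fun σ hσ => (h σ hσ).1), hz]
  funext σ; simp [cone]

/-! ### pushing a chain off a set of pairwise nonadjacent vertices -/

def lk (A : Set (Finset V)) (C : V → Prop) (v : V) : Set (Finset V) :=
  {ρ | (∀ w ∈ ρ, ¬ C w) ∧ insert v ρ ∈ A}

theorem push_core [CharP k 2] {A : Set (Finset V)} (C : V → Prop) {e R : ℕ}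
    {y : Finset V → k} (hy : Supp A (e + 1) y)
    (h1 : ∀ σ, y σ ≠ 0 → ∀ v ∈ σ, ∀ w ∈ σ, C v → C w → v = w)
    (hb : ∀ ρ, bd y ρ ≠ 0 → ∀ v ∈ ρ, ¬ C v)
    (hfill : ∀ v, C v → ∀ z : Finset V → k, Supp (lk A C v) e z → bd z = 0 → sz z ≤ sz y →
      z ≠ 0 → (∀ ρ, z ρ ≠ 0 → y (insert v ρ) ≠ 0) →
      ∃ u, Supp (lk A C v) (e + 1) u ∧ bd u = z ∧ sz u ≤ R) :
    ∃ u, Supp A (e + 2) u ∧ (∀ σ, (y + bd u) σ ≠ 0 → ∀ v ∈ σ, ¬ C v) ∧
      sz (y + bd u) ≤ sz y + sz y * R ∧ sz u ≤ sz y * R := by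
  classical
  let sl : V → Finset V → k := fun v ρ => if ∀ w ∈ ρ, ¬ C w then y (insert v ρ) else 0
  have hsl : ∀ v ρ, sl v ρ ≠ 0 → (∀ w ∈ ρ, ¬ C w) ∧ y (insert v ρ) ≠ 0 := by
    intro v ρ h
    by_cases h' : ∀ w ∈ ρ, ¬ C w
    · exact ⟨h', by simpa [sl, if_pos h'] using h⟩
    · simp only [sl, if_neg h'] at h; exact absurd rfl h
  have key : ∀ v, ∃ u, C v → (Supp (lk A C v) (e + 1) u ∧ bd u = sl v ∧ sz u ≤ R ∧
      (sl v = 0 → u = 0)) := by
    intro v
    by_cases hv : C v
    swap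
    · exact ⟨0, fun h => absurd h hv⟩
    by_cases h0 : sl v = 0
    · exact ⟨0, fun _ => ⟨Supp.zero _ _, by simp [h0], by simp [sz_zero], fun _ => rfl⟩⟩
    suffices h : Supp (lk A C v) e (sl v) ∧ bd (sl v) = 0 ∧ sz (sl v) ≤ sz y by
      obtain ⟨u, hu⟩ := hfill v hv (sl v) h.1 h.2.1 h.2.2 h0 (fun ρ h => (hsl v ρ h).2)
      exact ⟨u, fun _ => ⟨hu.1, hu.2.1, hu.2.2, fun h => absurd h h0⟩⟩
    refine ⟨?_, ?_, ?_⟩
    · intro ρ h
      obtain ⟨h2, h3⟩ := hsl v ρ h
      have hvρ : v ∉ ρ := fun h => h2 v h hv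
      obtain ⟨h4, h5⟩ := hy _ h3
      rw [card_insert_of_notMem hvρ] at h5
      exact ⟨⟨h2, h4⟩, by omega⟩
    · funext ρ
      by_cases h2 : ∀ w ∈ ρ, ¬ C w
      · have hvρ : v ∉ ρ := fun h => h2 v h hv
        have h3 : bd y (insert v ρ) = 0 := by
          by_contra h; exact hb _ h v (mem_insert_self _ _) hv
        rw [Pi.zero_apply, ← h3, bd_apply, bd_apply, compl_insert,
          ← Finset.sum_erase (s := ρᶜ) (a := v) (by simp [sl, hv])]
        apply Finset.sum_congr rfl
        intro w hw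
        by_cases hw' : C w
        · have : y (insert w (insert v ρ)) = 0 := by
            by_contra h
            exact ne_of_mem_erase hw (h1 _ h w (by simp) v (by simp) hw' hv)
          simp [sl, hw', this]
        · simp only [sl]
          rw [if_pos (by simpa [hw'] using h2), Finset.insert_comm]
      · rw [bd_apply, Pi.zero_apply]
        apply Finset.sum_eq_zero
        intro w _
        simp only [sl]
        rw [if_neg]
        intro h; apply h2; intro w' hw'; exact h w' (mem_insert_of_mem hw')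
    · apply sz_le_of_inj (fun ρ => insert v ρ) (fun ρ h => (hsl v ρ h).2)
      intro σ τ h2 h3 h
      have h4 : v ∉ σ := fun h => (hsl v σ h2).1 v h hv
      have h5 : v ∉ τ := fun h => (hsl v τ h3).1 v h hv
      rw [← erase_insert h4, h, erase_insert h5]
  choose u hu using key
  let T : Finset V := univ.filter (fun v => C v ∧ sl v ≠ 0)
  have hT : T.card ≤ sz y := by
    have : T ⊆ (univ.filter (fun σ => y σ ≠ 0)).biUnion (fun σ => σ.filter C) := by
      intro v hv
      simp only [T, mem_filter, mem_univ, true_and] at hv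
      obtain ⟨ρ, hρ⟩ := Function.ne_iff.mp hv.2
      simp only [mem_biUnion, mem_filter, mem_univ, true_and]
      exact ⟨_, (hsl v ρ hρ).2, mem_insert_self _ _, hv.1⟩
    refine (card_le_card this).trans (card_biUnion_le.trans ?_)
    unfold sz
    rw [card_eq_sum_ones (univ.filter _)]
    apply Finset.sum_le_sum
    intro σ hσ
    rw [card_le_one]
    intro a ha b hb
    simp only [mem_filter, mem_univ, true_and] at ha hb hσ
    exact h1 σ hσ a ha.1 b hb.1 ha.2 hb.2
  have hfree : ∀ v ∈ T, ∀ σ, u v σ ≠ 0 → ∀ w ∈ σ, ¬ C w := by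
    intro v hv σ h
    simp only [T, mem_filter, mem_univ, true_and] at hv
    exact ((hu v hv.1).1 σ h).1.1
  have hbd : bd (∑ v ∈ T, cone v (u v)) = ∑ v ∈ T, u v + ∑ v ∈ T, cone v (sl v) := by
    rw [map_sum, ← Finset.sum_add_distrib]
    apply Finset.sum_congr rfl
    intro v hv
    have hv' := hv
    simp only [T, mem_filter, mem_univ, true_and] at hv'
    rw [bd_cone v _ (fun σ h h' => hfree v hv σ h v h' hv'.1), (hu v hv'.1).2.1]
  have htop : ∀ σ, (y + ∑ v ∈ T, cone v (sl v)) σ = if ∀ w ∈ σ, ¬ C w then y σ else 0 := by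
    intro σ
    rw [Pi.add_apply, Finset.sum_apply]
    split_ifs with h
    · rw [Finset.sum_eq_zero, add_zero]
      intro v hv
      simp only [T, mem_filter, mem_univ, true_and] at hv
      simp only [cone]; rw [if_neg]; intro h'; exact h v h' hv.1
    · push Not at h
      obtain ⟨w, hw, hw'⟩ := h
      by_cases hy0 : y σ = 0
      · rw [hy0, zero_add]
        apply Finset.sum_eq_zero
        intro v _
        simp only [cone]
        split_ifs with h2
        · by_contra h3
          have := (hsl _ _ h3).2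
          rw [insert_erase h2] at this
          exact this hy0
        · rfl
      · have hsw : sl w (σ.erase w) = y σ := by
          simp only [sl]
          rw [if_pos, insert_erase hw]
          intro w' h2 h3
          exact ne_of_mem_erase h2 (h1 σ hy0 w' (mem_of_mem_erase h2) w hw h3 hw')
        rw [Finset.sum_eq_single w]
        · simp only [cone, hw, if_true, hsw]; exact CharTwo.add_self_eq_zero _
        · intro v hv hvw
          simp only [T, mem_filter, mem_univ, true_and] at hv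
          simp only [cone]
          rw [if_neg]
          intro h2; exact hvw (h1 σ hy0 v h2 w hw hv.1 hw')
        · intro h2
          exfalso; apply h2
          simp only [T, mem_filter, mem_univ, true_and]
          refine ⟨hw', fun h3 => hy0 ?_⟩
          rw [← hsw, h3]; rfl
  have hsum : ∑ v ∈ T, sz (u v) ≤ sz y * R := by
    refine (Finset.sum_le_card_nsmul T _ R ?_).trans ?_
    · intro v hv
      simp only [T, mem_filter, mem_univ, true_and] at hv
      exact (hu v hv.1).2.2.1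
    · simpa using Nat.mul_le_mul_right R hT
  have hre : y + bd (∑ v ∈ T, cone v (u v)) = (y + ∑ v ∈ T, cone v (sl v)) + ∑ v ∈ T, u v := by
    rw [hbd]; abel
  refine ⟨∑ v ∈ T, cone v (u v), ?_, ?_, ?_, ?_⟩
  · apply Supp.sum
    intro v hv
    simp only [T, mem_filter, mem_univ, true_and] at hv
    apply supp_cone
    intro σ h _
    exact ⟨((hu v hv.1).1 σ h).1.2, ((hu v hv.1).1 σ h).2⟩
  · intro σ h
    rw [hre, Pi.add_apply, htop] at h
    by_contra h'
    rw [if_neg h', zero_add, Finset.sum_apply] at h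
    obtain ⟨v, hv, h⟩ := Finset.exists_ne_zero_of_sum_ne_zero h
    exact h' (hfree v hv σ h)
  · rw [hre]
    refine (sz_add _ _).trans (add_le_add ?_ ((sz_sum _ _).trans hsum))
    apply sz_le_of_inj id _ (fun _ _ _ _ h => h)
    intro σ h h'
    rw [htop] at h
    simp only [id] at h'
    simp [h'] at h
  · exact (sz_sum _ _).trans ((Finset.sum_le_sum (fun v _ => sz_cone _ _)).trans hsum)

end Vale.Agent.P067
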