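import Vale.Agent.P067.Chain

/-! Morse lemma, transport, cones, zigzag, change of coefficients. -/

namespace Vale.Agent.P067

open Finset

section
variable {V : Type*} [Fintype V] [DecidableEq V] {k : Type*} [Field k]

lemma Ex.be {A : Set (Finset V)} {e : ℕ} (h : Ex k A e) (s : ℕ) :
    BE k A e s (Fintype.card (Finset V)) := by
  intro z h1 h2 _
  obtain ⟨y, h3, h4⟩ := h z h1 h2
  exact ⟨y, h3, h4, sz_le_card _⟩

lemma BE.ex {A : Set (Finset V)} {e R : ℕ} (h : BE k A e (Fintype.card (Finset V)) R) :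
    Ex k A e := by
  intro z h1 h2
  obtain ⟨y, h3, h4, _⟩ := h z h1 h2 (sz_le_card _)
  exact ⟨y, h3, h4⟩

theorem morse [CharP k 2] {A : Set (Finset V)} (hA : Down A) (ht : V → ℕ) (h0 e : ℕ)
    (hd : ∀ σ ∈ A, ∀ v ∈ σ, ∀ w ∈ σ, ht v = ht w → v = w)
    (hl : ∀ v, {v} ∈ A → h0 ≤ ht v → ∀ e', e = e' + 1 →
      Ex k {ρ | (∀ w ∈ ρ, ht w < ht v) ∧ insert v ρ ∈ A} e')
    (y : Finset V → k) (hy : Supp A e y) (hb : ∀ ρ, bd y ρ ≠ 0 → ∀ v ∈ ρ, ht v < h0) :
    ∃ u : Finset V → k, Supp A (e + 1) u ∧ ∀ σ, (y + bd u) σ ≠ 0 → ∀ v ∈ σ, ht v < h0 := by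
  rcases e with _ | e
  · refine ⟨0, Supp.zero _ _, ?_⟩
    intro σ h v hv
    simp only [map_zero, add_zero] at h
    have := (hy σ h).2
    rw [card_eq_zero] at this
    simp [this] at hv
  suffices H : ∀ m, ∀ y : Finset V → k, Supp A (e + 1) y →
      (∀ ρ, bd y ρ ≠ 0 → ∀ v ∈ ρ, ht v < h0) → (∀ σ, y σ ≠ 0 → ∀ v ∈ σ, ht v < h0 + m) →
      ∃ u : Finset V → k, Supp A (e + 2) u ∧ ∀ σ, (y + bd u) σ ≠ 0 → ∀ v ∈ σ, ht v < h0 by
    apply H (univ.sup ht + 1) y hy hb
    intro σ _ v _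
    have := Finset.le_sup (f := ht) (mem_univ v)
    omega
  intro m
  induction m with
  | zero =>
    intro y _ _ h
    exact ⟨0, Supp.zero _ _, by simpa using h⟩
  | succ m ih =>
    intro y hy hb hm
    let A' : Set (Finset V) := {σ | σ ∈ A ∧ ∀ v ∈ σ, ht v < h0 + (m + 1)}
    have hy' : Supp A' (e + 1) y := fun σ h => ⟨⟨(hy σ h).1, hm σ h⟩, (hy σ h).2⟩
    obtain ⟨u, hu1, hu2, -, -⟩ := push_core (A := A') (fun v => ht v = h0 + m)
      (R := Fintype.card (Finset V)) hy'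
      (fun σ h v hv w hw h1 h2 => hd σ (hy σ h).1 v hv w hw (h1.trans h2.symm))
      (fun ρ h v hv => by have := hb ρ h v hv; omega) (by
        intro v hv z hz1 hz2 _ hz3 hz4
        obtain ⟨ρ, hρ⟩ := Function.ne_iff.mp hz3
        have hvA : {v} ∈ A := hA _ (hy _ (hz4 ρ hρ)).1 _ (by simp)
        have heq : lk A' (fun v => ht v = h0 + m) v =
            {ρ | (∀ w ∈ ρ, ht w < ht v) ∧ insert v ρ ∈ A} := by
          ext ρ
          simp only [lk, A', Set.mem_ofPred_eq, mem_insert, forall_eq_or_imp]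
          constructor
          · rintro ⟨h1, h2, -, h3⟩
            exact ⟨fun w hw => by have := h1 w hw; have := h3 w hw; omega, h2⟩
          · rintro ⟨h1, h2⟩
            exact ⟨fun w hw => by have := h1 w hw; omega, h2, by omega,
              fun w hw => by have := h1 w hw; omega⟩
        rw [heq] at hz1 ⊢
        exact (hl v hvA (by omega) e rfl).be _ z hz1 hz2 (sz_le_card _))
    have hA' : Down A' := fun σ h ρ hρ => ⟨hA σ h.1 ρ hρ, fun v hv => h.2 v (hρ hv)⟩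
    have hs : Supp A' (e + 1) (y + bd u) := hy'.add (hu1.bd hA')
    obtain ⟨u', hu1', hu2'⟩ := ih (y + bd u) (hs.mono (fun _ h => h.1))
      (by rw [map_add, bd_bd, add_zero]; exact hb)
      (fun σ h v hv => by have := (hs σ h).1.2 v hv; have := hu2 σ h v hv; omega)
    refine ⟨u + u', (hu1.mono (fun _ h => h.1)).add hu1', ?_⟩
    rw [map_add, ← add_assoc]; exact hu2'

/-! ### cones -/

variable (k) in
def Cone (A : Set (Finset V)) (e R : ℕ) : Prop :=
  ∃ c : Finset V → Finset V → k, ∀ σ ∈ A, σ.card < e →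
    Supp A (σ.card + 1) (c σ) ∧ sz (c σ) ≤ R ∧
      bd (c σ) = Pi.single σ 1 + ∑ v ∈ σ, c (σ.erase v)

omit [Fintype V] in
lemma sum_erase_erase [CharP k 2] {M : Type*} [AddCommGroup M] [Module k M] (σ : Finset V)
    (c : Finset V → M) : ∑ v ∈ σ, ∑ w ∈ σ.erase v, c ((σ.erase v).erase w) = 0 := by
  have h2 : ∀ x : M, x + x = 0 := fun x => by
    rw [← two_smul k x, CharTwo.two_eq_zero, zero_smul]
  rw [Finset.sum_sigma']
  refine Finset.sum_involution (fun p _ => ⟨p.2, p.1⟩) ?_ ?_ ?_ ?_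
  · rintro ⟨v, w⟩ _
    simp only
    rw [erase_right_comm]; exact h2 _
  · rintro ⟨v, w⟩ h _ h'
    simp only [Sigma.mk.injEq, heq_eq_eq] at h'
    simp only [mem_sigma, mem_erase] at h
    exact h.2.1 h'.1
  · rintro ⟨v, w⟩ h
    simp only [mem_sigma, mem_erase] at h ⊢
    exact ⟨h.2.2, fun h' => h.2.1 h'.symm, h.1⟩
  · rintro ⟨v, w⟩ _; rfl

lemma Cone.step [CharP k 2] {A : Set (Finset V)} (hA : Down A) {e R R' : ℕ} (h : Cone k A e R)
    (h' : BE k A e (1 + e * R) R') : Cone k A (e + 1) (max R R') := by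
  obtain ⟨c, hc⟩ := h
  have key : ∀ σ : Finset V, ∃ y : Finset V → k, σ ∈ A → σ.card = e →
      Supp A (e + 1) y ∧ bd y = Pi.single σ 1 + ∑ v ∈ σ, c (σ.erase v) ∧ sz y ≤ R' := by
    intro σ
    by_cases hσ : σ ∈ A ∧ σ.card = e
    swap
    · exact ⟨0, fun h1 h2 => absurd ⟨h1, h2⟩ hσ⟩
    obtain ⟨h1, h2⟩ := hσ
    have hc' : ∀ v ∈ σ, (σ.erase v).card + 1 = e ∧ σ.erase v ∈ A := fun v hv =>
      ⟨by rw [card_erase_add_one hv, h2], hA σ h1 _ (erase_subset _ _)⟩
    obtain ⟨y, hy⟩ := h' (Pi.single σ 1 + ∑ v ∈ σ, c (σ.erase v)) (by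
      apply Supp.add
      · intro ρ hρ
        by_cases h : ρ = σ
        · rw [h]; exact ⟨h1, h2⟩
        · exact absurd (Pi.single_eq_of_ne h _) hρ
      · apply Supp.sum
        intro v hv
        have := (hc _ (hc' v hv).2 (by have := (hc' v hv).1; omega)).1
        rwa [(hc' v hv).1] at this) (by
      rw [map_add, map_sum, bd_single, Finset.sum_congr rfl
        (fun v hv => (hc _ (hc' v hv).2 (by have := (hc' v hv).1; omega)).2.2),
        Finset.sum_add_distrib, sum_erase_erase (k := k), add_zero]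
      funext ρ
      exact CharTwo.add_self_eq_zero _) (by
      refine (sz_add _ _).trans (add_le_add (sz_single _) ((sz_sum _ _).trans ?_))
      refine (Finset.sum_le_card_nsmul _ _ R ?_).trans (by simp [h2])
      intro v hv
      exact (hc _ (hc' v hv).2 (by have := (hc' v hv).1; omega)).2.1)
    exact ⟨y, fun _ _ => hy⟩
  choose c' hc' using key
  refine ⟨fun σ => if σ.card < e then c σ else c' σ, ?_⟩
  intro σ hσ hlt
  have hs : ∑ v ∈ σ, (if (σ.erase v).card < e then c (σ.erase v) else c' (σ.erase v)) =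
      ∑ v ∈ σ, c (σ.erase v) := by
    apply Finset.sum_congr rfl
    intro v hv
    rw [if_pos]
    have := card_erase_add_one hv
    omega
  simp only [hs]
  by_cases h1 : σ.card < e
  · simp only [h1, if_true]
    obtain ⟨h2, h3, h4⟩ := hc σ hσ h1
    exact ⟨h2, h3.trans (le_max_left _ _), h4⟩
  · simp only [h1, if_false]
    have h2 : σ.card = e := by omega
    obtain ⟨h3, h4, h5⟩ := hc' σ hσ h2
    exact ⟨h2 ▸ h3, h5.trans (le_max_right _ _), h4⟩

/-- coboundary of a cochain -/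
def cb (f : Finset V → k) : Finset V → k := fun τ => ∑ v ∈ τ, f (τ.erase v)

lemma cone_cochain [CharP k 2] (c : Finset V → Finset V → k) (σ : Finset V)
    (h : bd (c σ) = Pi.single σ 1 + ∑ v ∈ σ, c (σ.erase v)) (f : Finset V → k) :
    f σ + cb (fun ρ => ∑ τ, c ρ τ * f τ) σ = ∑ τ, c σ τ * cb f τ := by
  have h1 := sum_dual (k := k) (c σ) f
  simp only [smul_eq_mul] at h1
  simp only [cb]
  rw [h1, h]
  simp only [Pi.add_apply, add_mul, Finset.sum_add_distrib, Finset.sum_apply, Finset.sum_mul]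
  congr 1
  · rw [Finset.sum_eq_single σ (by intro b _ hb; simp [hb]) (by simp)]; simp
  · exact Finset.sum_comm

omit [Fintype V] in
lemma cb_cb [CharP k 2] (f : Finset V → k) (σ : Finset V) : cb (cb f) σ = 0 :=
  sum_erase_erase (k := k) σ f

omit [Fintype V] in
lemma cb_add (f g : Finset V → k) : cb (f + g) = cb f + cb g := by
  funext σ; simp [cb, Finset.sum_add_distrib]

end

universe u v

theorem cone_of_be (Rf : ℕ → ℕ) (e : ℕ) : ∃ B R : ℕ, ∀ (V : Type u) [Fintype V] [DecidableEq V]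
    (k : Type v) [Field k] [CharP k 2] (A : Set (Finset V)), Down A →
    (∀ e' < e, ∀ s ≤ B, BE k A e' s (Rf s)) → Cone k A e R := by
  induction e with
  | zero =>
    refine ⟨0, 0, ?_⟩
    intro V _ _ k _ _ A _ _
    exact ⟨fun _ => 0, fun σ _ h => absurd h (Nat.not_lt_zero _)⟩
  | succ e ih =>
    obtain ⟨B, R, h⟩ := ih
    refine ⟨max B (1 + e * R), max R (Rf (1 + e * R)), ?_⟩
    intro V _ _ k _ _ A hA hB
    exact (h V k A hA (fun e' he s hs => hB e' (by omega) s (hs.trans (le_max_left _ _)))).step hA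
      (hB e (by omega) _ (le_max_right _ _))

section
variable {V : Type u} [Fintype V] [DecidableEq V] {k : Type v} [Field k]

theorem cocycle_eq [CharP k 2] {A : Set (Finset V)} (hA : Down A) {e : ℕ}
    (h : ∀ e' ≤ e, Ex k A e') (f : Finset V → k)
    (hf : ∀ τ ∈ A, τ.card = e + 1 → cb f τ = 0) :
    ∃ g : Finset V → k, ∀ σ ∈ A, σ.card = e → f σ = cb g σ := by
  obtain ⟨B, R, hc⟩ := cone_of_be.{u, v} (fun _ => Fintype.card (Finset V)) (e + 1)
  obtain ⟨c, hc⟩ := hc V k A hA (fun e' he s _ => (h e' (by omega)).be s)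
  refine ⟨fun ρ => ∑ τ, c ρ τ * f τ, ?_⟩
  intro σ hσ he
  obtain ⟨h1, -, h3⟩ := hc σ hσ (by omega)
  have := cone_cochain c σ h3 f
  rw [Finset.sum_eq_zero] at this
  · exact CharTwo.add_eq_zero.mp this
  · intro τ _
    by_cases h4 : c σ τ = 0
    · simp [h4]
    · rw [hf τ (h1 τ h4).1 (by rw [(h1 τ h4).2, he]), mul_zero]

end

/-! ### transport -/

section
variable {V V' : Type*} [Fintype V] [DecidableEq V] [Fintype V'] [DecidableEq V']
  {k : Type*} [Field k]

open scoped Classical in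
noncomputable def pull (S : Set V) (φ : V → V') (y : Finset V' → k) : Finset V → k :=
  fun σ => if (σ : Set V) ⊆ S then y (σ.image φ) else 0

lemma bd_pull {S : Set V} {S' : Set V'} {φ : V → V'} {ψ : V' → V} (hφ : Set.MapsTo φ S S')
    (hψ : Set.MapsTo ψ S' S) (h1 : ∀ v ∈ S, ψ (φ v) = v) (h2 : ∀ v ∈ S', φ (ψ v) = v)
    (y : Finset V' → k) (hy : ∀ σ, y σ ≠ 0 → (σ : Set V') ⊆ S') :
    bd (pull S φ y) = pull S φ (bd y) := by
  classical
  funext σ
  by_cases hσ : (σ : Set V) ⊆ S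
  · simp only [bd_apply, pull, hσ, if_true]
    rw [← Finset.sum_filter_of_ne (p := fun v => v ∈ S),
      ← Finset.sum_filter_of_ne (s := (σ.image φ)ᶜ) (p := fun v => v ∈ S')]
    · refine Finset.sum_bij' (fun v _ => φ v) (fun v _ => ψ v) ?_ ?_ ?_ ?_ ?_
      · intro v hv
        simp only [mem_filter, mem_compl, mem_image, not_exists, not_and] at hv ⊢
        refine ⟨fun w hw h => hv.1 ?_, hφ hv.2⟩
        rw [← h1 v hv.2, ← h, h1 w (hσ hw)]; exact hw
      · intro v hv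
        simp only [mem_filter, mem_compl, mem_image, not_exists, not_and] at hv ⊢
        exact ⟨fun h => hv.1 _ h (h2 v hv.2), hψ hv.2⟩
      · intro v hv
        simp only [mem_filter] at hv
        exact h1 v hv.2
      · intro v hv
        simp only [mem_filter] at hv
        exact h2 v hv.2
      · intro v hv
        simp only [mem_filter] at hv
        rw [if_pos, image_insert]
        rw [coe_insert]
        exact Set.insert_subset hv.2 hσ
    · intro v _ h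
      exact hy _ h (by simp)
    · intro v _ h
      by_contra h'
      apply h
      rw [if_neg]
      intro h3; exact h' (h3 (by simp))
  · simp only [bd_apply, pull, hσ, if_false]
    apply Finset.sum_eq_zero
    intro v _
    rw [if_neg]
    intro h; apply hσ; intro w hw; exact h (by simp [mem_coe.mp hw])

omit [Fintype V] [Fintype V'] in
lemma image_image_of {S : Set V} {φ : V → V'} {ψ : V' → V} (h1 : ∀ v ∈ S, ψ (φ v) = v)
    {σ : Finset V} (hσ : (σ : Set V) ⊆ S) : (σ.image φ).image ψ = σ := by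
  rw [image_image]
  conv_rhs => rw [← image_id (s := σ)]
  apply image_congr
  intro v hv; exact h1 v (hσ hv)

omit [Fintype V] [Fintype V'] in
lemma supp_pull {S : Set V} {φ : V → V'} {ψ : V' → V} (h1 : ∀ v ∈ S, ψ (φ v) = v)
    {A : Set (Finset V)} {A' : Set (Finset V')} (hA' : ∀ σ ∈ A', σ.image ψ ∈ A) {e : ℕ}
    {y : Finset V' → k} (hy : Supp A' e y) : Supp A e (pull S φ y) := by
  intro σ h
  by_cases hσ : (σ : Set V) ⊆ S
  · simp only [pull, hσ, if_true] at h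
    obtain ⟨h3, h4⟩ := hy _ h
    refine ⟨image_image_of h1 hσ ▸ hA' _ h3, ?_⟩
    rw [← h4, card_image_of_injOn]
    intro v hv w hw h
    rw [← h1 v (hσ hv), h, h1 w (hσ hw)]
  · simp [pull, hσ] at h

lemma sz_pull {S : Set V} {φ : V → V'} {ψ : V' → V} (h1 : ∀ v ∈ S, ψ (φ v) = v)
    (y : Finset V' → k) : sz (pull S φ y) ≤ sz y := by
  have hs : ∀ σ, pull S φ y σ ≠ 0 → (σ : Set V) ⊆ S := by
    intro σ h; by_contra h'; simp [pull, h'] at h
  apply sz_le_of_inj (fun σ => σ.image φ)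
  · intro σ h
    simpa [pull, hs σ h] using h
  · intro σ τ h2 h3 h
    rw [← image_image_of h1 (hs σ h2), h, image_image_of h1 (hs τ h3)]

theorem BE.transport {S : Set V} {S' : Set V'} {φ : V → V'} {ψ : V' → V}
    (hφ : Set.MapsTo φ S S') (hψ : Set.MapsTo ψ S' S) (h1 : ∀ v ∈ S, ψ (φ v) = v)
    (h2 : ∀ v ∈ S', φ (ψ v) = v) {A : Set (Finset V)} {A' : Set (Finset V')}
    (hA : ∀ σ ∈ A, (σ : Set V) ⊆ S ∧ σ.image φ ∈ A')
    (hA' : ∀ σ ∈ A', (σ : Set V') ⊆ S' ∧ σ.image ψ ∈ A) {e s R : ℕ} (h : BE k A e s R) :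
    BE k A' e s R := by
  intro z hz1 hz2 hz3
  have hzS : ∀ σ, z σ ≠ 0 → (σ : Set V') ⊆ S' := fun σ h => (hA' σ (hz1 σ h).1).1
  obtain ⟨y, hy1, hy2, hy3⟩ := h (pull S φ z) (supp_pull h1 (fun σ h => (hA' σ h).2) hz1)
    (by rw [bd_pull hφ hψ h1 h2 z hzS, hz2]; funext σ; simp [pull]) ((sz_pull h1 z).trans hz3)
  refine ⟨pull S' ψ y, supp_pull h2 (fun σ h => (hA σ h).2) hy1, ?_, (sz_pull h2 y).trans hy3⟩
  rw [bd_pull hψ hφ h2 h1 y (fun σ h => (hA σ (hy1 σ h).1).1), hy2]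
  funext σ
  by_cases hσ : (σ : Set V') ⊆ S'
  · simp only [pull, hσ, if_true]
    rw [if_pos, image_image_of h2 hσ]
    intro v hv
    simp only [coe_image, Set.mem_image] at hv
    obtain ⟨w, hw, rfl⟩ := hv
    exact hψ (hσ hw)
  · simp only [pull, hσ, if_false]
    by_contra h
    exact hσ (hzS σ (fun h' => h h'.symm))

theorem BE.transport_param {Ω : Type*} [Nonempty Ω] (α : Ω → V) (β : Ω → V') (P : Set Ω)
    (hker : ∀ p ∈ P, ∀ p' ∈ P, α p = α p' ↔ β p = β p') (𝒮 : Set (Finset Ω))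
    (h𝒮 : ∀ T ∈ 𝒮, (T : Set Ω) ⊆ P) {e s R : ℕ}
    (h : BE k ((fun T : Finset Ω => T.image α) '' 𝒮) e s R) :
    BE k ((fun T : Finset Ω => T.image β) '' 𝒮) e s R := by
  have ha : ∀ p ∈ P, β (Function.invFunOn α P (α p)) = β p := by
    intro p hp
    have h0 : ∃ a ∈ P, α a = α p := ⟨p, hp, rfl⟩
    exact (hker _ (Function.invFunOn_mem h0) p hp).mp (Function.invFunOn_eq h0)
  have hb : ∀ p ∈ P, α (Function.invFunOn β P (β p)) = α p := by
    intro p hp
    have h0 : ∃ a ∈ P, β a = β p := ⟨p, hp, rfl⟩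
    exact (hker _ (Function.invFunOn_mem h0) p hp).mpr (Function.invFunOn_eq h0)
  refine BE.transport (S := α '' P) (S' := β '' P) (φ := β ∘ Function.invFunOn α P)
    (ψ := α ∘ Function.invFunOn β P) ?_ ?_ ?_ ?_ ?_ ?_ h
  · rintro _ ⟨p, hp, rfl⟩; exact ⟨p, hp, (ha p hp).symm⟩
  · rintro _ ⟨p, hp, rfl⟩; exact ⟨p, hp, (hb p hp).symm⟩
  · rintro _ ⟨p, hp, rfl⟩; simp only [Function.comp, ha p hp, hb p hp]
  · rintro _ ⟨p, hp, rfl⟩; simp only [Function.comp, ha p hp, hb p hp]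
  · rintro _ ⟨T, hT, rfl⟩
    refine ⟨by rw [coe_image]; exact Set.image_mono (h𝒮 T hT), T, hT, ?_⟩
    rw [image_image]
    apply image_congr
    intro p hp; exact (ha p (h𝒮 T hT hp)).symm
  · rintro _ ⟨T, hT, rfl⟩
    refine ⟨by rw [coe_image]; exact Set.image_mono (h𝒮 T hT), T, hT, ?_⟩
    rw [image_image]
    apply image_congr
    intro p hp; exact (hb p (h𝒮 T hT hp)).symm

theorem Ex.transport_param {Ω : Type*} [Nonempty Ω] (α : Ω → V) (β : Ω → V') (P : Set Ω)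
    (hker : ∀ p ∈ P, ∀ p' ∈ P, α p = α p' ↔ β p = β p') (𝒮 : Set (Finset Ω))
    (h𝒮 : ∀ T ∈ 𝒮, (T : Set Ω) ⊆ P) {e : ℕ}
    (h : Ex k ((fun T : Finset Ω => T.image α) '' 𝒮) e) :
    Ex k ((fun T : Finset Ω => T.image β) '' 𝒮) e :=
  (BE.transport_param α β P hker 𝒮 h𝒮 (h.be _)).ex

/-! ### the zigzag lemma -/

theorem zigzag [CharP k 2] (B : Finset V → Finset V' → Prop)
    (hd1 : ∀ ω, Down {σ | B σ ω}) (hd2 : ∀ σ, Down {ω | B σ ω}) (e : ℕ)
    (H2 : ∀ σ, B σ ∅ → ∀ b ≤ e, Ex k {ω | B σ ω} b)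
    (H1 : ∀ ω, ω ≠ ∅ → B ∅ ω → ∀ a < e, Ex k {σ | B σ ω} a)
    (z : Finset V → k) (hz : Supp {σ | B σ ∅} e z) (hz0 : bd z = 0) :
    ∃ y : V' → Finset V → k, (∀ w, Supp {σ | B σ {w}} e (y w) ∧ bd (y w) = 0) ∧ z = ∑ w, y w := by
  let S2 : ℕ → ℕ → (Finset V → Finset V' → k) → Prop := fun a b x =>
    ∀ σ ω, x σ ω ≠ 0 → B σ ω ∧ σ.card = a ∧ ω.card = b
  let d1 : (Finset V → Finset V' → k) → Finset V → Finset V' → k :=
    fun x σ ω => bd (fun σ' => x σ' ω) σ
  let d2 : (Finset V → Finset V' → k) → Finset V → Finset V' → k := fun x σ => bd (x σ)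
  have hcomm : ∀ x, d1 (d2 x) = d2 (d1 x) := by
    intro x; funext σ ω
    simp only [d1, d2, bd_apply]
    exact Finset.sum_comm
  have hd11 : ∀ x, d1 (d1 x) = 0 := by
    intro x; funext σ ω
    exact congrFun (bd_bd (fun σ' => x σ' ω)) σ
  have hd22 : ∀ x, d2 (d2 x) = 0 := by
    intro x; funext σ
    exact bd_bd (x σ)
  have hd1add : ∀ x x', d1 (x + x') = d1 x + d1 x' := by
    intro x x'; funext σ ω
    simp [d1, bd_apply, Finset.sum_add_distrib]
  have hd2add : ∀ x x', d2 (x + x') = d2 x + d2 x' := by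
    intro x x'; funext σ ω
    simp [d2, bd_apply, Finset.sum_add_distrib]
  have hs1 : ∀ a b x, S2 (a + 1) b x → S2 a b (d1 x) := by
    intro a b x hx σ ω h
    obtain ⟨v, hv, h⟩ := bd_ne_zero h
    obtain ⟨h1, h2, h3⟩ := hx _ _ h
    rw [card_insert_of_notMem hv] at h2
    exact ⟨hd1 ω _ h1 _ (subset_insert _ _), by omega, h3⟩
  have hs2 : ∀ a b x, S2 a (b + 1) x → S2 a b (d2 x) := by
    intro a b x hx σ ω h
    obtain ⟨v, hv, h⟩ := bd_ne_zero h
    obtain ⟨h1, h2, h3⟩ := hx _ _ h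
    rw [card_insert_of_notMem hv] at h3
    exact ⟨hd2 σ _ h1 _ (subset_insert _ _), h2, by omega⟩
  have f2 : ∀ a b x, b ≤ e → S2 a b x → d2 x = 0 → ∃ y, S2 a (b + 1) y ∧ d2 y = x := by
    intro a b x hb hx h0
    have : ∀ σ, ∃ y : Finset V' → k, (∀ ω, y ω ≠ 0 → B σ ω ∧ σ.card = a ∧ ω.card = b + 1) ∧
        bd y = x σ := by
      intro σ
      by_cases h : x σ = 0
      · exact ⟨0, by simp, by simp [h]⟩
      obtain ⟨ω, hω⟩ := Function.ne_iff.mp h
      obtain ⟨y, hy1, hy2⟩ := H2 σ (hd2 σ ω (hx σ ω hω).1 ∅ (empty_subset _)) b hb (x σ)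
        (fun ω h => ⟨(hx σ ω h).1, (hx σ ω h).2.2⟩) (congrFun h0 σ)
      exact ⟨y, fun ω' h' => ⟨(hy1 ω' h').1, (hx σ ω hω).2.1, (hy1 ω' h').2⟩, hy2⟩
    choose y hy using this
    exact ⟨y, fun σ ω h => (hy σ).1 ω h, funext fun σ => (hy σ).2⟩
  have f1 : ∀ a b x, a < e → S2 a (b + 1) x → d1 x = 0 → ∃ y, S2 (a + 1) (b + 1) y ∧ d1 y = x := by
    intro a b x ha hx h0
    have : ∀ ω, ∃ y : Finset V → k,
        (∀ σ, y σ ≠ 0 → B σ ω ∧ σ.card = a + 1 ∧ ω.card = b + 1) ∧ bd y = fun σ => x σ ω := by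
      intro ω
      by_cases h : (fun σ => x σ ω) = 0
      · exact ⟨0, by simp, by simp [h]⟩
      obtain ⟨σ, hσ⟩ := Function.ne_iff.mp h
      have h3 := (hx σ ω hσ).2.2
      obtain ⟨y, hy1, hy2⟩ := H1 ω (by rintro rfl; simp at h3)
        (hd1 ω σ (hx σ ω hσ).1 ∅ (empty_subset _)) a ha (fun σ => x σ ω)
        (fun σ h => ⟨(hx σ ω h).1, (hx σ ω h).2.1⟩)
        (funext fun σ => congrFun (congrFun h0 σ) ω)
      exact ⟨y, fun σ' h' => ⟨(hy1 σ' h').1, (hy1 σ' h').2, h3⟩, hy2⟩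
    choose y hy using this
    exact ⟨fun σ ω => y ω σ, fun σ ω h => (hy ω).1 σ h,
      funext fun σ => funext fun ω => congrFun (hy ω).2 σ⟩
  have main : ∀ a b x, a + b ≤ e → S2 a b x → d1 x = 0 → d2 x = 0 →
      ∃ y, S2 a (b + 1) y ∧ d1 y = 0 ∧ d2 y = x := by
    intro a
    induction a with
    | zero =>
      intro b x hb hx _ h2
      obtain ⟨y, hy1, hy2⟩ := f2 0 b x (by omega) hx h2
      refine ⟨y, hy1, ?_, hy2⟩
      funext σ ω
      by_contra h
      obtain ⟨v, hv, h⟩ := bd_ne_zero h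
      have := (hy1 _ _ h).2.1
      simp at this
    | succ a ih =>
      intro b x hb hx h1 h2
      obtain ⟨y0, hy1, hy2⟩ := f2 _ b x (by omega) hx h2
      obtain ⟨y1, hy3, hy4, hy5⟩ := ih (b + 1) (d1 y0) (by omega) (hs1 _ _ _ hy1) (hd11 _)
        (by rw [← hcomm, hy2, h1])
      obtain ⟨y2, hy6, hy7⟩ := f1 a (b + 1) y1 (by omega) hy3 hy4
      refine ⟨y0 + d2 y2, ?_, ?_, ?_⟩
      · intro σ ω h
        by_cases h' : y0 σ ω = 0
        · exact hs2 _ _ _ hy6 σ ω (by simpa [h'] using h)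
        · exact hy1 σ ω h'
      · rw [hd1add, hcomm, hy7, hy5]
        funext σ ω
        exact CharTwo.add_self_eq_zero _
      · rw [hd2add, hd22, add_zero, hy2]
  obtain ⟨y, hy1, hy2, hy3⟩ := main e 0 (fun σ ω => if ω = ∅ then z σ else 0) (by omega) (by
      intro σ ω h
      by_cases h' : ω = ∅
      · subst h'
        simp only [if_true] at h
        exact ⟨(hz σ h).1, (hz σ h).2, rfl⟩
      · simp [h'] at h) (by
      funext σ ω
      by_cases h' : ω = ∅
      · simp only [d1, h', if_true]; exact congrFun hz0 σ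
      · simp [d1, h', bd_apply]) (by
      funext σ ω
      simp [d2, bd_apply])
  refine ⟨fun w σ => y σ {w}, fun w => ⟨fun σ h => ⟨(hy1 _ _ h).1, (hy1 _ _ h).2.1⟩,
    funext fun σ => congrFun (congrFun hy2 σ) {w}⟩, ?_⟩
  funext σ
  have := congrFun (congrFun hy3 σ) ∅
  simp only [d2, bd_apply, if_true] at this
  rw [← this, Finset.sum_apply]
  simp

/-! ### change of coefficients -/

theorem Ex.descend {L : Type*} [Field L] [Algebra k L] {A : Set (Finset V)} {e : ℕ}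
    (h : Ex L A e) : Ex k A e := by
  obtain ⟨φ, hφ⟩ := (Algebra.linearMap k L).exists_leftInverse_of_injective
    (LinearMap.ker_eq_bot.mpr (algebraMap k L).injective)
  have hφ' : ∀ x, φ (algebraMap k L x) = x := fun x => congrArg (fun f => f x) hφ
  intro z hz1 hz2
  obtain ⟨y, hy1, hy2⟩ := h (fun σ => algebraMap k L (z σ))
    (fun σ h => hz1 σ (fun h' => h (by simp [h']))) (by
      funext ρ
      have := congrFun hz2 ρ
      simp only [bd_apply, Pi.zero_apply] at this ⊢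
      rw [← map_sum, this, map_zero])
  refine ⟨fun σ => φ (y σ), fun σ h => hy1 σ (fun h' => h (by simp [h'])), ?_⟩
  funext ρ
  have := congrFun hy2 ρ
  simp only [bd_apply] at this ⊢
  rw [← map_sum, this, hφ']

end

end Vale.Agent.P067
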