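import Vale.Agent.P067.Chain2

/-! Coset complexes, group actions on chains, Fourier lemma. -/

namespace Vale.Agent.P067

open Finset Pointwise

section act
variable {G V : Type*} [Group G] [MulAction G V] [Fintype V] [DecidableEq V]
  {k : Type*} [Field k]

def act (g : G) : (Finset V → k) →ₗ[k] (Finset V → k) :=
  LinearMap.funLeft k k (fun σ => g⁻¹ • σ)

omit [Fintype V] in
lemma act_apply (g : G) (y : Finset V → k) (σ : Finset V) : act g y σ = y (g⁻¹ • σ) := rfl

omit [Fintype V] in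
lemma act_mul (g h : G) (y : Finset V → k) : act (g * h) y = act g (act h y) := by
  funext σ; simp [act_apply, mul_smul]

omit [Fintype V] in
lemma act_one (y : Finset V → k) : act (1 : G) y = y := by
  funext σ; simp [act_apply]

lemma bd_act (g : G) (y : Finset V → k) : bd (act g y) = act g (bd y) := by
  funext ρ
  simp only [act_apply, bd_apply]
  refine Finset.sum_bij' (fun v _ => g⁻¹ • v) (fun v _ => g • v) ?_ ?_ ?_ ?_ ?_
  · intro v hv; simpa [Finset.smul_mem_smul_finset_iff] using hv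
  · intro v hv
    simp only [mem_compl] at hv ⊢
    intro h; apply hv
    have := (Finset.smul_mem_smul_finset_iff g⁻¹).mpr h
    simpa using this
  · intro v _; simp
  · intro v _; simp
  · intro v _; rw [smul_finset_insert]

omit [Fintype V] in
lemma act_single (g : G) (σ : Finset V) :
    act g (Pi.single σ (1 : k) : Finset V → k) = Pi.single (g • σ) 1 := by
  funext ρ
  simp only [act_apply, Pi.single_apply, inv_smul_eq_iff]

omit [Fintype V] in
lemma Supp.act {A B : Set (Finset V)} {e : ℕ} {y : Finset V → k} (hy : Supp A e y) (g : G)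
    (h : ∀ σ ∈ A, g • σ ∈ B) : Supp B e (act g y) := by
  intro σ hσ
  obtain ⟨h1, h2⟩ := hy _ hσ
  exact ⟨by simpa using h _ h1, by simpa using h2⟩

lemma Ex.smul {A B : Set (Finset V)} {e : ℕ} (h : Ex k A e) (g : G)
    (h1 : ∀ σ ∈ A, g • σ ∈ B) (h2 : ∀ σ ∈ B, g⁻¹ • σ ∈ A) : Ex k B e := by
  intro z hz1 hz2
  obtain ⟨y, hy1, hy2⟩ := h (act g⁻¹ z) (hz1.act _ h2) (by rw [bd_act, hz2, map_zero])
  exact ⟨act g y, hy1.act _ h1, by rw [bd_act, hy2, ← act_mul, mul_inv_cancel, act_one]⟩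

/-- homologous -/
def Hom (A : Set (Finset V)) (e : ℕ) (z z' : Finset V → k) : Prop :=
  ∃ y, Supp A (e + 1) y ∧ bd y = z + z'

lemma add_self2 [CharP k 2] {α : Type*} (z : α → k) : z + z = 0 := by
  funext σ; exact CharTwo.add_self_eq_zero _

lemma Hom.refl [CharP k 2] (A : Set (Finset V)) (e : ℕ) (z : Finset V → k) : Hom A e z z :=
  ⟨0, Supp.zero _ _, by rw [add_self2, map_zero]⟩

lemma Hom.symm {A : Set (Finset V)} {e : ℕ} {z z' : Finset V → k} (h : Hom A e z z') :
    Hom A e z' z := by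
  obtain ⟨y, h1, h2⟩ := h
  exact ⟨y, h1, by rw [h2, add_comm]⟩

lemma Hom.trans [CharP k 2] {A : Set (Finset V)} {e : ℕ} {z z' z'' : Finset V → k}
    (h : Hom A e z z') (h' : Hom A e z' z'') : Hom A e z z'' := by
  obtain ⟨y, h1, h2⟩ := h
  obtain ⟨y', h1', h2'⟩ := h'
  refine ⟨y + y', h1.add h1', ?_⟩
  rw [map_add, h2, h2', add_assoc, ← add_assoc z', add_self2, zero_add]

lemma Hom.mono {A B : Set (Finset V)} {e : ℕ} {z z' : Finset V → k} (h : Hom A e z z')
    (hAB : A ⊆ B) : Hom B e z z' := by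
  obtain ⟨y, h1, h2⟩ := h
  exact ⟨y, h1.mono hAB, h2⟩

lemma Hom.act {A B : Set (Finset V)} {e : ℕ} {z z' : Finset V → k} (h : Hom A e z z') (g : G)
    (hAB : ∀ σ ∈ A, g • σ ∈ B) : Hom B e (act g z) (act g z') := by
  obtain ⟨y, h1, h2⟩ := h
  exact ⟨Vale.Agent.P067.act g y, h1.act g hAB, by rw [bd_act, h2, map_add]⟩

lemma Hom.sum {A : Set (Finset V)} {e : ℕ} {ι : Type*} (s : Finset ι)
    {z z' : ι → Finset V → k} (h : ∀ i ∈ s, Hom A e (z i) (z' i)) :
    Hom A e (∑ i ∈ s, z i) (∑ i ∈ s, z' i) := by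
  choose! y hy using h
  refine ⟨∑ i ∈ s, y i, Supp.sum s (fun i hi => (hy i hi).1), ?_⟩
  rw [map_sum, ← Finset.sum_add_distrib]
  exact Finset.sum_congr rfl (fun i hi => (hy i hi).2)

lemma sum_dual_char {F N : Type*} [Field F] [Fintype F] [AddCommGroup N] [Module F N] [Fintype N]
    [Fintype (Module.Dual F N)] [DecidableEq N] (ψ : AddChar F k) (hψ : ψ ≠ 1) (a : N) :
    ∑ l : Module.Dual F N, ψ (l a) = if a = 0 then (Fintype.card N : k) else 0 := by
  split_ifs with h
  · simp only [h, map_zero, AddChar.map_zero_eq_one, sum_const, card_univ, nsmul_eq_mul, mul_one]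
    rw [Module.card_eq_pow_finrank (K := F), Module.card_eq_pow_finrank (K := F) (V := N),
      Subspace.dual_finrank_eq]
  · have := AddChar.sum_eq_zero_of_ne_one
      (ψ := ψ.compAddMonoidHom (Module.Dual.eval F N a).toAddMonoidHom) (by
      obtain ⟨c, hc⟩ := AddChar.ne_one_iff.mp hψ
      obtain ⟨l, hl⟩ : ∃ l : Module.Dual F N, l a ≠ 0 := by
        by_contra h'
        push Not at h'
        exact h ((Module.forall_dual_apply_eq_zero_iff F a).mp h')
      refine AddChar.ne_one_iff.mpr ⟨(c / l a) • l, ?_⟩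
      simpa [hl] using hc)
    simpa using this

theorem fourier [CharP k 2] {F N : Type*} [Field F] [Fintype F] [AddCommGroup N] [Module F N]
    [Fintype N] (ψ : AddChar F k) (hψ : ψ ≠ 1) (hN : (Fintype.card N : k) ≠ 0) (ν : N → G)
    (hν : ∀ a b, ν (a + b) = ν a * ν b) {A A' : Set (Finset V)} (hA' : Down A') (hsub : A' ⊆ A)
    (hinv : ∀ a, ∀ σ ∈ A, ν a • σ ∈ A) (hcov : ∀ σ ∈ A, ∃ a, ∃ σ' ∈ A', σ = ν a • σ')
    (hsep : ∀ a, ∀ σ ∈ A', ν a • σ ∈ A' → ν a • σ = σ)
    (hF : ∀ σ ∈ A', ∀ a (c : F), ν a • σ = σ → ν (c • a) • σ = σ) {e : ℕ}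
    (hrel : ∀ l : Module.Dual F N, l ≠ 0 → ∀ y : Finset V → k, Supp A' e y →
      (∀ ρ, bd y ρ ≠ 0 → ∃ a, ν a • ρ = ρ ∧ l a ≠ 0) →
      ∃ u : Finset V → k, Supp A' (e + 1) u ∧ ∀ σ, (y + bd u) σ ≠ 0 → ∃ a, ν a • σ = σ ∧ l a ≠ 0)
    (z : Finset V → k) (hz : Supp A e z) (hz0 : bd z = 0) :
    (∀ a, Hom A e z (act (ν a) z)) ∧ ∃ z', Supp A' e z' ∧ bd z' = 0 ∧ Hom A e z z' := by
  classical
  have : Finite (Module.Dual F N) := Module.finite_of_finite F
  let _ : Fintype (Module.Dual F N) := Fintype.ofFinite _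
  have hν0 : ν 0 = 1 := by
    have := hν 0 0
    rw [add_zero] at this
    exact left_eq_mul.mp this
  have hνneg : ∀ a, (ν a)⁻¹ = ν (-a) := fun a =>
    inv_eq_of_mul_eq_one_right (by rw [← hν, add_neg_cancel, hν0])
  let E : Module.Dual F N → (Finset V → k) →ₗ[k] (Finset V → k) := fun l =>
    (Fintype.card N : k)⁻¹ • ∑ a, ψ (-l a) • act (ν a)
  have hE : ∀ l y, E l y = (Fintype.card N : k)⁻¹ • ∑ a, ψ (-l a) • act (ν a) y := by
    intro l y; simp [E, LinearMap.sum_apply]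
  have hEbd : ∀ l y, bd (E l y) = E l (bd y) := by
    intro l y; simp only [hE, map_smul, map_sum, bd_act]
  have hEsupp : ∀ l e' y, Supp A e' y → Supp A e' (E l y) := by
    intro l e' y hy
    rw [hE]
    exact (Supp.sum _ (fun a _ => (hy.act _ (hinv a)).smul _)).smul _
  have hEeig : ∀ (l : Module.Dual F N) (b : N) (y : Finset V → k),
      (act (ν b) (E l y) : Finset V → k) = ψ (l b) • E l y := by
    intro l b y
    simp only [hE, map_smul, map_sum, ← act_mul, ← hν]
    rw [smul_comm (ψ (l b)), Finset.smul_sum (r := ψ (l b))]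
    congr 1
    refine Fintype.sum_equiv (Equiv.addLeft b) _ _ ?_
    intro a
    simp only [Equiv.coe_addLeft, smul_smul, ← AddChar.map_add_eq_mul, map_add]
    congr 2; ring
  have hE0 : ∀ b y, E 0 (act (ν b) y) = E 0 y := by
    intro b y
    simp only [hE, LinearMap.zero_apply, neg_zero, AddChar.map_zero_eq_one, one_smul, ← act_mul,
      ← hν]
    congr 1
    exact Fintype.sum_equiv (Equiv.addRight b) _ _ (fun a => rfl)
  have hEsum : ∀ y, ∑ l, E l y = y := by
    intro y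
    simp only [hE]
    rw [← Finset.smul_sum, Finset.sum_comm]
    simp only [← Finset.sum_smul, ← map_neg, sum_dual_char ψ hψ]
    rw [Finset.sum_eq_single 0 (by intro b _ hb; simp [hb]) (by simp)]
    simp [hν0, act_one, smul_smul, hN]
  have hvan : ∀ (l : Module.Dual F N) (ζ : Finset V → k), (∀ b, act (ν b) ζ = ψ (l b) • ζ) →
      ∀ σ ∈ A', (∃ a, ν a • σ = σ ∧ l a ≠ 0) → ζ σ = 0 := by
    rintro l ζ hζ σ hσ ⟨a, h1, h2⟩
    obtain ⟨c, hc⟩ := AddChar.ne_one_iff.mp hψ
    have h3 := hF σ hσ a (c / l a) h1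
    have h4 := congrFun (hζ ((c / l a) • a)) σ
    rw [act_apply, inv_smul_eq_iff.mpr h3.symm] at h4
    simp only [map_smul, smul_eq_mul, div_mul_cancel₀ _ h2, Pi.smul_apply] at h4
    by_contra h5
    exact hc (mul_right_cancel₀ h5 (by rw [← h4, one_mul]))
  let w : Finset V → k := fun σ =>
    (Fintype.card N : k)⁻¹ * ((univ.filter (fun a => ν a • σ = σ)).card : k)
  have hw : ∀ σ, w σ ≠ 0 := by
    intro σ
    refine mul_ne_zero (inv_ne_zero hN) ?_
    let St : AddSubgroup N :=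
      { carrier := {a | ν a • σ = σ}
        add_mem' := by
          intro a b ha hb
          simp only [Set.mem_ofPred_eq] at ha hb ⊢
          rw [hν, mul_smul, hb, ha]
        zero_mem' := by simp [hν0]
        neg_mem' := by
          intro a ha
          simp only [Set.mem_ofPred_eq] at ha ⊢
          rw [← hνneg, inv_smul_eq_iff, ha] }
    obtain ⟨m, hm⟩ := AddSubgroup.card_addSubgroup_dvd_card St
    have h1 : Nat.card St = (univ.filter (fun a => ν a • σ = σ)).card := by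
      rw [← Fintype.card_subtype, ← Nat.card_eq_fintype_card]; rfl
    intro h
    apply hN
    rw [← Nat.card_eq_fintype_card, hm, h1, Nat.cast_mul, h, zero_mul]
  have hF1 : ∀ (l : Module.Dual F N) e' (c : Finset V → k), Supp A' e' c → ∀ σ ∈ A',
      (¬ ∃ a, ν a • σ = σ ∧ l a ≠ 0) → E l c σ = w σ * c σ := by
    intro l e' c hc σ hσ h
    push Not at h
    simp only [hE, w, Pi.smul_apply, Finset.sum_apply, smul_eq_mul, act_apply, mul_assoc]
    congr 1
    rw [card_filter, Nat.cast_sum, Finset.sum_mul]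
    apply Finset.sum_congr rfl
    intro a _
    by_cases h1 : ν a • σ = σ
    · simp [h1, h a h1, inv_smul_eq_iff.mpr h1.symm]
    · simp only [h1, if_false, Nat.cast_zero, zero_mul]
      apply mul_eq_zero_of_right
      by_contra h2
      have h3 := (hc _ h2).1
      rw [hνneg] at h3
      have h4 := hsep _ σ hσ h3
      rw [← hνneg, inv_smul_eq_iff] at h4
      exact h1 h4.symm
  have hext : ∀ (l : Module.Dual F N) e' (ζ ζ' : Finset V → k), Supp A e' ζ → Supp A e' ζ' →
      (∀ b, act (ν b) ζ = ψ (l b) • ζ) → (∀ b, act (ν b) ζ' = ψ (l b) • ζ') →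
      (∀ σ ∈ A', ζ σ = ζ' σ) → ζ = ζ' := by
    intro l e' ζ ζ' h1 h2 h3 h4 h5
    funext σ
    by_cases hσ : σ ∈ A
    · obtain ⟨a, σ', h6, rfl⟩ := hcov σ hσ
      have h7 := congrFun (h3 (-a)) σ'
      have h8 := congrFun (h4 (-a)) σ'
      rw [act_apply, hνneg, neg_neg] at h7 h8
      rw [h7, h8]; simp [h5 σ' h6]
    · have h6 : ζ σ = 0 := by by_contra h; exact hσ (h1 σ h).1
      have h7 : ζ' σ = 0 := by by_contra h; exact hσ (h2 σ h).1
      rw [h6, h7]
  have hy : ∀ z : Finset V → k, Supp A e z → bd z = 0 → ∀ l : Module.Dual F N,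
      ∃ y, Supp A' e y ∧ E l y = E l z ∧ ∀ ρ, bd y ρ ≠ 0 → ∃ a, ν a • ρ = ρ ∧ l a ≠ 0 := by
    intro z hz hz0 l
    let y : Finset V → k := fun σ => if σ ∈ A' then (w σ)⁻¹ * E l z σ else 0
    have h1 : Supp A' e y := by
      intro σ h
      by_cases h' : σ ∈ A'
      · simp only [y, h', if_true] at h
        exact ⟨h', (hEsupp l e z hz σ (right_ne_zero_of_mul h)).2⟩
      · simp [y, h'] at h
    have h2 : E l y = E l z := by
      apply hext l e _ _ (hEsupp l e _ (h1.mono hsub)) (hEsupp l e _ hz) (hEeig l · y) (hEeig l · z)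
      intro σ hσ
      by_cases h : ∃ a, ν a • σ = σ ∧ l a ≠ 0
      · rw [hvan l _ (hEeig l · y) σ hσ h, hvan l _ (hEeig l · z) σ hσ h]
      · rw [hF1 l e y h1 σ hσ h]
        simp only [y, hσ, if_true]
        rw [← mul_assoc, mul_inv_cancel₀ (hw σ), one_mul]
    refine ⟨y, h1, h2, ?_⟩
    intro ρ hρ
    by_contra h
    rcases e with _ | e
    · rw [bd_of_supp_zero h1] at hρ; exact hρ rfl
    have h3 := h1.bd hA'
    have h4 := hF1 l e _ h3 ρ (h3 ρ hρ).1 h
    rw [← hEbd, h2, hEbd, hz0, map_zero] at h4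
    exact mul_ne_zero (hw ρ) hρ h4.symm
  have hmain : ∀ z : Finset V → k, Supp A e z → bd z = 0 → Hom A e z (E 0 z) := by
    intro z hz hz0
    have h1 : Hom A e (∑ l, E l z) (∑ l : Module.Dual F N, if l = 0 then E 0 z else 0) := by
      apply Hom.sum
      intro l _
      split_ifs with hl
      · rw [hl]; exact Hom.refl _ _ _
      obtain ⟨y, h1, h2, h3⟩ := hy z hz hz0 l
      obtain ⟨u, h4, h5⟩ := hrel l hl y h1 h3
      refine ⟨E l u, hEsupp l _ _ (h4.mono hsub), ?_⟩
      have h6 : Supp A' e (y + bd u) := h1.add (h4.bd hA')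
      have h7 : E l (y + bd u) = 0 := by
        apply hext l e _ _ (hEsupp l e _ (h6.mono hsub)) (Supp.zero _ _) (hEeig l · _) (by simp)
        intro σ hσ
        by_cases h : ∃ a, ν a • σ = σ ∧ l a ≠ 0
        · exact hvan l _ (hEeig l · _) σ hσ h
        · rw [hF1 l e _ h6 σ hσ h]
          apply mul_eq_zero_of_right
          by_contra h8
          exact h (h5 σ h8)
      rw [map_add, h2] at h7
      rw [hEbd, add_zero, ← add_zero (E l z), ← add_self2 (E l (bd u)), ← add_assoc, h7, zero_add]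
    rw [hEsum] at h1
    simpa using h1
  refine ⟨fun a => (hmain z hz hz0).trans ?_, ?_⟩
  · rw [← hE0 a z]
    exact (hmain _ (hz.act _ (hinv a)) (by rw [bd_act, hz0, map_zero])).symm
  · obtain ⟨y, h1, h2, h3⟩ := hy z hz hz0 0
    have h4 : bd y = 0 := by
      funext ρ
      by_contra h
      obtain ⟨a, -, h5⟩ := h3 ρ h
      exact h5 rfl
    exact ⟨y, h1, h4, (hmain z hz hz0).trans (h2 ▸ (hmain y (h1.mono hsub) h4).symm)⟩

end act

/-- vertices of coset complexes -/
structure Vx (ι G : Type) where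
  col : ι
  cs : Set G

noncomputable instance (ι G : Type) : DecidableEq (Vx ι G) := Classical.decEq _

instance (ι G : Type) [Finite ι] [Finite G] : Finite (Vx ι G) :=
  Finite.of_injective (fun v : Vx ι G => (v.col, v.cs)) (by
    rintro ⟨a, b⟩ ⟨c, d⟩ h
    simp only [Prod.mk.injEq] at h
    rw [h.1, h.2])

noncomputable instance (ι G : Type) [Finite ι] [Finite G] : Fintype (Vx ι G) := Fintype.ofFinite _

section coset
variable {ι G : Type} [Group G] (K : ι → Subgroup G)

def vx (x : G) (s : ι) : Vx ι G := ⟨s, {y | x⁻¹ * y ∈ K s}⟩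

lemma vx_eq {x x' : G} {s s' : ι} : vx K x s = vx K x' s' ↔ s = s' ∧ x⁻¹ * x' ∈ K s := by
  constructor
  · intro h
    simp only [vx, Vx.mk.injEq] at h
    obtain ⟨rfl, h⟩ := h
    refine ⟨rfl, ?_⟩
    have : x' ∈ {y | x'⁻¹ * y ∈ K s} := by simp
    rw [← h] at this
    exact this
  · rintro ⟨rfl, h⟩
    simp only [vx, Vx.mk.injEq, true_and]
    ext y
    simp only [Set.mem_ofPred_eq]
    rw [← (K s).mul_mem_cancel_left h (y := x'⁻¹ * y), ← mul_assoc, mul_assoc x⁻¹, mul_inv_cancel,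
      mul_one]

instance : MulAction G (Vx ι G) where
  smul g v := ⟨v.col, {y | g⁻¹ * y ∈ v.cs}⟩
  one_smul v := by
    change (⟨v.col, {y | 1⁻¹ * y ∈ v.cs}⟩ : Vx ι G) = v
    simp
  mul_smul g h v := by
    change (⟨v.col, {y | (g * h)⁻¹ * y ∈ v.cs}⟩ : Vx ι G) =
      ⟨v.col, {y | g⁻¹ * y ∈ {y | h⁻¹ * y ∈ v.cs}}⟩
    simp [mul_assoc]

lemma smul_vx (g x : G) (s : ι) : g • vx K x s = vx K (g * x) s := by
  change (⟨s, {y | g⁻¹ * y ∈ {y | x⁻¹ * y ∈ K s}}⟩ : Vx ι G) = _
  simp [vx, mul_assoc]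

noncomputable def face (x : G) (S : Finset ι) : Finset (Vx ι G) := S.image (vx K x)

lemma vx_inj (x : G) : Function.Injective (vx K x) := fun _ _ h => ((vx_eq K).mp h).1

lemma mem_face {x : G} {S : Finset ι} {v : Vx ι G} : v ∈ face K x S ↔ ∃ s ∈ S, vx K x s = v :=
  mem_image

lemma vx_mem_face {x : G} {S : Finset ι} {s : ι} : vx K x s ∈ face K x S ↔ s ∈ S :=
  (vx_inj K x).mem_finset_image

lemma card_face (x : G) (S : Finset ι) : (face K x S).card = S.card :=
  card_image_of_injective _ (vx_inj K x)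

lemma smul_face (g x : G) (S : Finset ι) : g • face K x S = face K (g * x) S := by
  simp only [face, smul_finset_def, image_image]
  exact image_congr (fun s _ => smul_vx K g x s)

lemma face_eq {x x' : G} {S S' : Finset ι} :
    face K x S = face K x' S' ↔ S = S' ∧ ∀ s ∈ S, x⁻¹ * x' ∈ K s := by
  constructor
  · intro h
    have h1 : ∀ s ∈ S, s ∈ S' ∧ x⁻¹ * x' ∈ K s := by
      intro s hs
      have := (vx_mem_face K (x := x)).mpr hs
      rw [h, mem_face] at this
      obtain ⟨s', h1, h2⟩ := this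
      obtain ⟨rfl, h3⟩ := (vx_eq K).mp h2.symm
      exact ⟨h1, h3⟩
    refine ⟨eq_of_subset_of_card_le (fun s hs => (h1 s hs).1) ?_, fun s hs => (h1 s hs).2⟩
    rw [← card_face K x S, h, card_face]
  · rintro ⟨rfl, h⟩
    exact image_congr (fun s hs => (vx_eq K).mpr ⟨rfl, h s hs⟩)

lemma face_mul {x κ : G} {S : Finset ι} (h : ∀ s ∈ S, κ ∈ K s) :
    face K (x * κ) S = face K x S :=
  ((face_eq K).mpr ⟨rfl, fun s hs => by simpa using h s hs⟩).symm

lemma sum_face {M : Type*} [AddCommMonoid M] (x : G) (S : Finset ι) (f : Vx ι G → M) :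
    ∑ v ∈ face K x S, f v = ∑ s ∈ S, f (vx K x s) :=
  sum_image (fun _ _ _ _ h => vx_inj K x h)

lemma subset_face {x : G} {S : Finset ι} {ρ : Finset (Vx ι G)} (h : ρ ⊆ face K x S) :
    ∃ S' ⊆ S, ρ = face K x S' := by
  obtain ⟨S', h1, h2⟩ := subset_image_iff.mp h
  exact ⟨S', h1, h2.symm⟩

def CC (Ω : Set G) (C : Finset ι) : Set (Finset (Vx ι G)) :=
  {σ | ∃ x ∈ Ω, ∃ S ⊆ C, σ = face K x S}

lemma CC_down (Ω : Set G) (C : Finset ι) : Down (CC K Ω C) := by
  rintro _ ⟨x, hx, S, hS, rfl⟩ ρ hρ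
  obtain ⟨S', h1, rfl⟩ := subset_face K hρ
  exact ⟨x, hx, S', h1.trans hS, rfl⟩

lemma CC_mono {Ω Ω' : Set G} (h : Ω ⊆ Ω') (C : Finset ι) : CC K Ω C ⊆ CC K Ω' C := by
  rintro _ ⟨x, hx, S, hS, rfl⟩
  exact ⟨x, h hx, S, hS, rfl⟩

lemma smul_mem_CC {Ω Ω' : Set G} {g : G} (h : ∀ x ∈ Ω, g * x ∈ Ω') (C : Finset ι) :
    ∀ σ ∈ CC K Ω C, g • σ ∈ CC K Ω' C := by
  rintro _ ⟨x, hx, S, hS, rfl⟩
  exact ⟨g * x, h x hx, S, hS, smul_face K g x S⟩

variable [DecidableEq ι]

lemma face_erase (x : G) (S : Finset ι) (s : ι) :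
    (face K x S).erase (vx K x s) = face K x (S.erase s) :=
  (image_erase (vx_inj K x) S s).symm

lemma face_insert (x : G) (S : Finset ι) (s : ι) :
    face K x (insert s S) = insert (vx K x s) (face K x S) := image_insert _ _ _

lemma cb_face {k : Type*} [Field k] (f : Finset (Vx ι G) → k) (x : G) (S : Finset ι) :
    cb f (face K x S) = ∑ s ∈ S, f (face K x (S.erase s)) := by
  simp only [cb, sum_face, face_erase]

variable [Finite ι] [Finite G] {k : Type*} [Field k] [CharP k 2]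

theorem gen_of_ex (Ω H : Subgroup G) (C : Finset ι) (hC : C.Nonempty)
    (h : Ex k (CC K Ω C) 1) (hH : ∀ c ∈ C, ∀ g ∈ K c, g ∈ Ω → g ∈ H) : Ω ≤ H := by
  classical
  intro x hx
  obtain ⟨c, hc⟩ := hC
  let f : Finset (Vx ι G) → k := fun σ =>
    if ∃ y ∈ Ω, y ∈ H ∧ ∃ c ∈ C, σ = face K y {c} then 1 else 0
  have hf : ∀ y ∈ Ω, ∀ c ∈ C, f (face K y {c}) = if y ∈ H then 1 else 0 := by
    intro y hy c hc
    simp only [f]
    congr 1
    apply propext
    constructor
    · rintro ⟨y', h1, h2, c', h3, h4⟩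
      have h5 := ((face_eq K).mp h4).2 c (mem_singleton_self _)
      have h6 := hH c hc _ h5 (Ω.mul_mem (Ω.inv_mem hy) h1)
      simpa using (H.mul_mem_cancel_right h2).mp h6
    · intro h; exact ⟨y, hy, h, c, hc, rfl⟩
  have hs : ∀ y ∈ Ω, Supp (CC K Ω C) 1 (Pi.single (face K y {c}) (1 : k)) := by
    intro y hy σ hσ
    by_cases h : σ = face K y {c}
    · exact ⟨⟨y, hy, {c}, by simpa using hc, h⟩, by rw [h, card_face]; simp⟩
    · exact absurd (Pi.single_eq_of_ne h _) hσ
  obtain ⟨y, hy1, hy2⟩ := h (Pi.single (face K x {c}) 1 + Pi.single (face K 1 {c}) 1)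
    ((hs x hx).add (hs 1 Ω.one_mem)) (by
      simp only [map_add, bd_single, sum_face, face_erase, sum_singleton, erase_singleton]
      exact add_self2 _)
  have h1 := sum_dual (k := k) y f
  rw [hy2, Finset.sum_eq_zero] at h1
  · simp only [Pi.add_apply, add_smul, Finset.sum_add_distrib] at h1
    rw [Finset.sum_eq_single (face K x {c}) (by intro b _ hb; simp [hb]) (by simp),
      Finset.sum_eq_single (face K 1 {c}) (by intro b _ hb; simp [hb]) (by simp)] at h1
    simp only [Pi.single_eq_same, one_smul, hf x hx c hc, hf 1 Ω.one_mem c hc, H.one_mem,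
      if_true] at h1
    by_contra h2
    simp [h2] at h1
  · intro τ _
    by_cases h2 : y τ = 0
    · simp [h2]
    obtain ⟨⟨w, hw, S, hS, rfl⟩, h3⟩ := hy1 τ h2
    rw [card_face] at h3
    obtain ⟨a, b, hab, rfl⟩ := card_eq_two.mp h3
    have := cb_face K f w {a, b}
    simp only [cb] at this
    rw [this, sum_pair hab, erase_insert (by simpa using hab), pair_comm,
      erase_insert (by simpa using hab.symm), hf w hw a (hS (by simp)), hf w hw b (hS (by simp)),
      CharTwo.add_self_eq_zero, smul_zero]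

theorem ex_of_normal [Fintype ι] (Λ : Subgroup G) [hΛ : Λ.Normal] (hcard : (Nat.card Λ : k) ≠ 0)
    (s0 : ι) (hK : ∀ g : G, ∃ κ ∈ K s0, g * κ⁻¹ ∈ Λ ∧ ∀ s, g ∈ K s → κ ∈ K s) (e : ℕ)
    (htriv : ∀ l ∈ Λ, ∀ z : Finset (Vx ι G) → k, Supp (CC K Set.univ univ) e z → bd z = 0 →
      Hom (CC K Set.univ univ) e z (act l z)) : Ex k (CC K Set.univ univ) e := by
  classical
  let _ : Fintype Λ := Fintype.ofFinite _
  let Av : (Finset (Vx ι G) → k) →ₗ[k] (Finset (Vx ι G) → k) := ∑ l : Λ, act (l : G)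
  have hAv : ∀ y, Av y = ∑ l : Λ, act (l : G) y := fun y => LinearMap.sum_apply _ _ _
  clear_value Av
  have hAvbd : ∀ y, bd (Av y) = Av (bd y) := by
    intro y
    rw [hAv, hAv, map_sum]
    exact Finset.sum_congr rfl (fun l _ => bd_act _ _)
  have hAvl : ∀ l ∈ Λ, ∀ y, Av (act l y) = Av y := by
    intro l hl y
    rw [hAv, hAv]
    refine Fintype.sum_equiv (Equiv.mulRight (⟨l, hl⟩ : Λ)) _ _ (fun a => ?_)
    rw [← act_mul, Equiv.coe_mulRight, Subgroup.coe_mul]
  have hc : ∀ σ : Finset (Vx ι G), ∃ c : Finset (Vx ι G) → k, ∀ x S, σ = face K x S →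
      c = if s0 ∈ S then 0 else Av (Pi.single (face K x (insert s0 S)) 1) := by
    intro σ
    by_cases h : ∃ x S, σ = face K x S
    swap
    · exact ⟨0, fun x S h' => absurd ⟨x, S, h'⟩ h⟩
    obtain ⟨x, S, rfl⟩ := h
    refine ⟨if s0 ∈ S then 0 else Av (Pi.single (face K x (insert s0 S)) 1), ?_⟩
    intro x' S' h
    obtain ⟨rfl, h0⟩ := (face_eq K).mp h
    obtain ⟨κ, h1, h2, h3⟩ := hK (x⁻¹ * x')
    have h4 : face K x' (insert s0 S) = (x * (x⁻¹ * x' * κ⁻¹) * x⁻¹) • face K x (insert s0 S) := by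
      rw [smul_face, ← face_mul K (x := x * (x⁻¹ * x' * κ⁻¹) * x⁻¹ * x) (κ := κ)]
      · congr 1; group
      · intro s hs
        rcases mem_insert.mp hs with rfl | hs
        · exact h1
        · exact h3 s (h0 s hs)
    rw [h4, ← act_single, hAvl _ (hΛ.conj_mem _ h2 x)]
  choose c hc using hc
  have hbd : ∀ x S, bd (c (face K x S)) = Av (Pi.single (face K x S) 1) +
      ∑ v ∈ face K x S, c ((face K x S).erase v) := by
    intro x S
    simp only [sum_face, face_erase]
    rw [hc _ x S rfl]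
    split_ifs with h
    · rw [Finset.sum_eq_single s0, hc _ x _ rfl, if_neg (notMem_erase _ _), insert_erase h,
        add_self2, map_zero]
      · intro b _ hb
        rw [hc _ x _ rfl, if_pos (mem_erase.mpr ⟨hb.symm, h⟩)]
      · intro h'; exact absurd h h'
    · rw [hAvbd, bd_single, sum_face, sum_insert h, map_add, face_erase, erase_insert h, map_sum]
      congr 1
      apply Finset.sum_congr rfl
      intro s hs
      rw [hc _ x _ rfl, if_neg (fun h' => h (mem_of_mem_erase h')), face_erase,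
        erase_insert_of_ne (by rintro rfl; exact h hs)]
  intro z hz hz0
  have h1 : Hom (CC K Set.univ univ) e (∑ l : Λ, z) (∑ l : Λ, act (l : G) z) :=
    Hom.sum _ (fun l _ => htriv l l.2 z hz hz0)
  obtain ⟨y, hy1, hy2⟩ := h1
  have h2 : bd (∑ σ, z σ • c σ) = Av z := by
    have h3 : ∀ σ, bd (z σ • c σ) = z σ • Av (Pi.single σ 1) + z σ • ∑ v ∈ σ, c (σ.erase v) := by
      intro σ
      by_cases h : z σ = 0
      · simp [h]
      obtain ⟨⟨x, -, S, -, rfl⟩, -⟩ := hz σ h
      rw [map_smul, hbd, smul_add]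
    rw [map_sum, Finset.sum_congr rfl (fun σ _ => h3 σ), Finset.sum_add_distrib, sum_dual, hz0]
    simp only [Pi.zero_apply, zero_smul, sum_const_zero, add_zero, ← map_smul, ← map_sum]
    congr 1
    funext ρ
    rw [Finset.sum_apply, Finset.sum_eq_single ρ (by intro b _ hb; simp [hb.symm]) (by simp)]
    simp
  refine ⟨(Nat.card Λ : k)⁻¹ • (y + ∑ σ, z σ • c σ), (hy1.add (Supp.sum _ ?_)).smul _, ?_⟩
  · intro σ _
    by_cases h : z σ = 0
    · simp [h, Supp.zero]
    obtain ⟨⟨x, -, S, -, rfl⟩, h3⟩ := hz σ h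
    apply Supp.smul
    rw [hc _ x S rfl]
    split_ifs with h4
    · exact Supp.zero _ _
    rw [hAv]
    refine Supp.sum _ (fun l _ => Supp.act ?_ _
      (smul_mem_CC K (Ω := Set.univ) (fun _ _ => Set.mem_univ _) _))
    intro ρ hρ
    by_cases h5 : ρ = face K x (insert s0 S)
    · refine ⟨⟨x, Set.mem_univ _, _, subset_univ _, h5⟩, ?_⟩
      rw [h5, card_face, card_insert_of_notMem h4, ← h3, card_face]
    · exact absurd (Pi.single_eq_of_ne h5 _) hρ
  · rw [map_smul, map_add, hy2, h2, hAv, add_assoc, add_self2, add_zero, sum_const, card_univ,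
      ← Nat.cast_smul_eq_nsmul k, smul_smul, ← Nat.card_eq_fintype_card, inv_mul_cancel₀ hcard,
      one_smul]

end coset

end Vale.Agent.P067
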