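import Mathlib

namespace Vale.Agent.P067

open Finset

/-- A finite abstract simplicial complex: a finite set of nonempty finite vertex sets (faces)
closed under passing to nonempty subsets. -/
structure FinComplex where
  V : Type
  dec : DecidableEq V
  faces : Finset (Finset V)
  nonempty_of_mem : ∀ σ ∈ faces, σ.Nonempty
  down_closed : ∀ σ ∈ faces, ∀ ρ, ρ ⊆ σ → ρ.Nonempty → ρ ∈ faces

namespace FinComplex

instance (X : FinComplex) : DecidableEq X.V := X.dec

/-- `X(i)`: the faces with `i + 1` vertices. -/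
def cells (X : FinComplex) (i : ℕ) : Finset (Finset X.V) :=
  X.faces.filter (fun σ => σ.card = i + 1)

/-- Pure of dimension `d`: there is a `d`-face and every face lies in a `d`-face. -/
def IsPure (X : FinComplex) (d : ℕ) : Prop :=
  (X.cells d).Nonempty ∧ ∀ σ ∈ X.faces, ∃ τ ∈ X.cells d, σ ⊆ τ

/-- Any two vertices are joined by a path of edges. -/
def IsConnected (X : FinComplex) : Prop :=
  ∀ u v : X.V, {u} ∈ X.faces → {v} ∈ X.faces →
    Relation.ReflTransGen (fun a b : X.V => ({a, b} : Finset X.V) ∈ X.faces) u v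

/-- Every vertex lies in at most `D` of the `d`-faces. -/
def DegreeLE (X : FinComplex) (d D : ℕ) : Prop :=
  ∀ v : X.V, ((X.cells d).filter (fun τ => v ∈ τ)).card ≤ D

/-- `C^i(X)`: functions from the `i`-faces to the field with two elements. -/
abbrev Cochain (X : FinComplex) (i : ℕ) : Type := {σ // σ ∈ X.cells i} → ZMod 2

/-- The weight `w_i(σ)`. -/
noncomputable def weight (X : FinComplex) (d i : ℕ) (σ : Finset X.V) : ℝ :=
  (((X.cells d).filter (fun τ => σ ⊆ τ)).card : ℝ) /
    (((d + 1).choose (i + 1) : ℝ) * ((X.cells d).card : ℝ))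

/-- The norm `‖f‖_i`: total weight of the support of `f`. -/
noncomputable def norm (X : FinComplex) (d i : ℕ) (f : X.Cochain i) : ℝ :=
  ∑ σ : {σ // σ ∈ X.cells i}, if f σ ≠ 0 then X.weight d i σ.1 else 0

/-- The coboundary `δ_i`. -/
def cob (X : FinComplex) (i : ℕ) (f : X.Cochain i) : X.Cochain (i + 1) :=
  fun τ => ∑ σ : {σ // σ ∈ X.cells i}, if σ.1 ⊆ τ.1 then f σ else 0

/-- `B^0` is the set of constants and `B^{i+1}` is the image of `δ_i`. -/
def coboundaries (X : FinComplex) : (i : ℕ) → Set (X.Cochain i)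
  | 0 => {f | ∃ c : ZMod 2, f = fun _ => c}
  | i + 1 => Set.range (X.cob i)

/-- `dist_i(f, A)`: the least norm of `f - a` over `a ∈ A`. -/
noncomputable def dist (X : FinComplex) (d i : ℕ) (f : X.Cochain i) (A : Set (X.Cochain i)) : ℝ :=
  sInf ((fun a => X.norm d i (f - a)) '' A)

/-- `ε`-coboundary expander (as a `d`-dimensional complex). -/
def IsCoboundaryExpander (X : FinComplex) (d : ℕ) (ε : ℝ) : Prop :=
  ∀ i < d, ∀ f : X.Cochain i,
    ε * X.dist d i f (X.coboundaries i) ≤ X.norm d (i + 1) (X.cob i f)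

end FinComplex

end Vale.Agent.P067
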