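import Mathlib

/-! Angles between spaces of invariant functions: trickling down, Heisenberg base case, mixing. -/

namespace Vale.Agent.P067

open Finset
open scoped RealInnerProductSpace

section hilbert
variable {E : Type*} [NormedAddCommGroup E] [InnerProductSpace ℝ E] [FiniteDimensional ℝ E]

def Ang (A B H : Submodule ℝ E) (γ : ℝ) : Prop :=
  ∀ v ∈ A, ∀ w ∈ B, v ∈ Hᗮ → ⟪v, w⟫ ≤ γ * ‖v‖ * ‖w‖

lemma dec (K : Submodule ℝ E) (v : E) :
    ∃ y ∈ K, ∃ z ∈ Kᗮ, v = y + z ∧ ‖v‖ ^ 2 = ‖y‖ ^ 2 + ‖z‖ ^ 2 := by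
  obtain ⟨y, hy, z, hz, h⟩ := K.exists_add_mem_mem_orthogonal v
  refine ⟨y, hy, z, hz, h, ?_⟩
  rw [h, norm_add_sq_real, Submodule.inner_right_of_mem_orthogonal hy hz]; ring

omit [FiniteDimensional ℝ E] in
lemma Ang.mono {A B H : Submodule ℝ E} {γ γ' : ℝ} (h : Ang A B H γ) (h' : γ ≤ γ') :
    Ang A B H γ' := fun v hv w hw hv' =>
  (h v hv w hw hv').trans (by gcongr)

lemma Ang.symm {A B H : Submodule ℝ E} {γ : ℝ} (h : Ang A B H γ) (hγ : 0 ≤ γ) (hA : H ≤ A) :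
    Ang B A H γ := by
  intro v hv w hw hv'
  obtain ⟨y, hy, z, hz, rfl, h2⟩ := dec H w
  have hzA : z ∈ A := by simpa using A.sub_mem hw (hA hy)
  have h3 := h z hzA v hv hz
  have h4 : ‖z‖ ≤ ‖y + z‖ := by
    apply le_of_sq_le_sq _ (norm_nonneg _); nlinarith [sq_nonneg ‖y‖]
  rw [inner_add_right, Submodule.inner_left_of_mem_orthogonal hy hv', zero_add, real_inner_comm]
  calc _ ≤ γ * ‖z‖ * ‖v‖ := h3
    _ ≤ γ * ‖y + z‖ * ‖v‖ := by gcongr
    _ = _ := by ring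

lemma ang_lt_one {A B H : Submodule ℝ E} (h : A ⊓ B ≤ H) : ∃ γ, 0 ≤ γ ∧ γ < 1 ∧ Ang A B H γ := by
  let S : Set E := Metric.sphere 0 1 ∩ (A ⊓ Hᗮ : Submodule ℝ E)
  have hS : IsCompact S := (isCompact_sphere 0 1).inter_right (A ⊓ Hᗮ).closed_of_finiteDimensional
  have key : ∀ γ, (∀ v ∈ S, ‖B.starProjection v‖ ≤ γ) → Ang A B H γ := by
    intro γ hγ v hv w hw hv'
    by_cases h0 : v = 0
    · simp [h0]
    have h1 : 0 < ‖v‖ := norm_pos_iff.mpr h0
    have h2 := hγ (‖v‖⁻¹ • v) ⟨by simp [norm_smul, h0], Submodule.smul_mem _ _ ⟨hv, hv'⟩⟩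
    rw [map_smul, norm_smul, norm_inv, norm_norm, inv_mul_le_iff₀ h1] at h2
    have h3 : ⟪v, w⟫ = ⟪B.starProjection v, w⟫ := by
      have := B.starProjection_inner_eq_zero v w hw
      rw [inner_sub_left] at this; linarith
    rw [h3]
    calc _ ≤ ‖B.starProjection v‖ * ‖w‖ := real_inner_le_norm _ _
      _ ≤ (‖v‖ * γ) * ‖w‖ := by gcongr
      _ = _ := by ring
  by_cases hne : S.Nonempty
  · obtain ⟨v, hv, hmax⟩ := hS.exists_isMaxOn hne
      (f := fun v => ‖B.starProjection v‖) (by fun_prop)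
    refine ⟨_, norm_nonneg _, ?_, key _ (fun w hw => hmax hw)⟩
    have h1 : ‖v‖ = 1 := by simpa using hv.1
    by_contra h2
    have h3 : v ∈ B := (B.mem_iff_norm_starProjection v).mpr
      (le_antisymm (B.norm_starProjection_apply_le v) (by rw [h1]; exact not_lt.mp h2))
    have h4 : v = 0 := inner_self_eq_zero.mp
      (Submodule.inner_right_of_mem_orthogonal (h ⟨hv.2.1, h3⟩) hv.2.2)
    simp [h4] at h1
  · exact ⟨0, le_rfl, zero_lt_one, key 0 (fun v hv => absurd ⟨v, hv⟩ hne)⟩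

theorem trickle {ι : Type*} [Fintype ι] [DecidableEq ι] (W : Finset ι → Submodule ℝ E)
    (mono : Monotone W)
    (gen : ∀ S a b, a ∉ S → b ∉ S → a ≠ b → W (insert a S) ⊓ W (insert b S) ≤ W S) (Λ : ℝ)
    (base : ∀ S a b, a ∉ S → b ∉ S → a ≠ b → S.card + 2 = Fintype.card ι →
      Ang (W (insert a S)) (W (insert b S)) (W S) (1 / Λ)) (m : ℕ) (hm : (m : ℝ) + 1 < Λ) :
    ∀ S a b, a ∉ S → b ∉ S → a ≠ b → S.card + 2 + m = Fintype.card ι →
      Ang (W (insert a S)) (W (insert b S)) (W S) (1 / (Λ - m)) := by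
  induction m with
  | zero => simpa using base
  | succ m ih =>
    push_cast at hm ⊢
    have hm0 : (0 : ℝ) ≤ m := Nat.cast_nonneg m
    specialize ih (by linarith)
    intro S a0 b0 ha0 hb0 hab0 hS
    set l : ℝ := 1 / (Λ - m) with hl
    have hl0 : 0 < l := by rw [hl]; apply one_div_pos.mpr; linarith
    have hl1 : l < 1 := by rw [hl, div_lt_one (by linarith)]; linarith
    let Γ : Set ℝ := {γ | 0 ≤ γ ∧ ∀ a b, a ∉ S → b ∉ S → a ≠ b →
      Ang (W (insert a S)) (W (insert b S)) (W S) γ}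
    obtain ⟨γ1, hγ1, hγ1'⟩ : ∃ γ ∈ Γ, γ < 1 := by
      have : ∀ p : ι × ι, ∃ γ, 0 ≤ γ ∧ γ < 1 ∧ (p.1 ∉ S → p.2 ∉ S → p.1 ≠ p.2 →
          Ang (W (insert p.1 S)) (W (insert p.2 S)) (W S) γ) := by
        intro p
        by_cases h : p.1 ∉ S ∧ p.2 ∉ S ∧ p.1 ≠ p.2
        · obtain ⟨γ, h1, h2, h3⟩ := ang_lt_one (gen S _ _ h.1 h.2.1 h.2.2)
          exact ⟨γ, h1, h2, fun _ _ _ => h3⟩
        · exact ⟨0, le_rfl, zero_lt_one, fun h1 h2 h3 => absurd ⟨h1, h2, h3⟩ h⟩
      choose g hg using this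
      have : Nonempty (ι × ι) := ⟨(a0, b0)⟩
      obtain ⟨p, hp⟩ := Finite.exists_max g
      exact ⟨g p, ⟨(hg p).1, fun a b h1 h2 h3 => ((hg (a, b)).2.2 h1 h2 h3).mono (hp _)⟩,
        (hg p).2.1⟩
    have hbdd : BddBelow Γ := ⟨0, fun γ h => h.1⟩
    have hγ0 : sInf Γ ∈ Γ := by
      refine ⟨le_csInf ⟨γ1, hγ1⟩ (fun γ h => h.1), ?_⟩
      intro a b h1 h2 h3 v hv w hw hv'
      by_cases h0 : ‖v‖ * ‖w‖ = 0
      · have := real_inner_le_norm v w
        rw [mul_assoc, h0]; linarith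
      have h4 : 0 < ‖v‖ * ‖w‖ := lt_of_le_of_ne (by positivity) (Ne.symm h0)
      rw [mul_assoc, ← div_le_iff₀ h4]
      refine le_csInf ⟨γ1, hγ1⟩ (fun γ h => ?_)
      rw [div_le_iff₀ h4, ← mul_assoc]
      exact h.2 a b h1 h2 h3 v hv w hw hv'
    set γ := sInf Γ with hγ
    have hγ2 : γ < 1 := lt_of_le_of_lt (csInf_le hbdd hγ1) hγ1'
    have hT : l + (1 - l) * γ ^ 2 ∈ Γ := by
      refine ⟨by have := sq_nonneg γ; nlinarith, ?_⟩
      intro a b ha hb hab
      obtain ⟨c, hc⟩ : ∃ c, c ∉ insert a (insert b S) := by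
        by_contra h
        push Not at h
        have h1 := card_le_card (s := univ) (fun x _ => h x)
        have h2 := card_insert_le a (insert b S)
        have h3 := card_insert_le b S
        rw [card_univ] at h1
        omega
      simp only [mem_insert, not_or] at hc
      have proj : ∀ a, a ∉ S → c ≠ a → ∀ v ∈ W (insert a S), v ∈ (W S)ᗮ →
          ∃ y ∈ W (insert c S), ∃ z ∈ (W (insert c S))ᗮ, z ∈ W (insert a (insert c S)) ∧
            v = y + z ∧ ‖v‖ ^ 2 = ‖y‖ ^ 2 + ‖z‖ ^ 2 ∧ ‖y‖ ≤ γ * ‖v‖ := by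
        intro a ha hca v hv hv'
        obtain ⟨y, hy, z, hz, h1, h2⟩ := dec (W (insert c S)) v
        refine ⟨y, hy, z, hz, ?_, h1, h2, ?_⟩
        · have h3 : z = v - y := by rw [h1]; abel
          rw [h3]
          exact Submodule.sub_mem _ (mono (insert_subset_insert _ (subset_insert _ _)) hv)
            (mono (subset_insert _ _) hy)
        · have h3 := hγ0.2 a c ha hc.2.2 hca.symm v hv y hy hv'
          have h4 : ⟪v, y⟫ = ‖y‖ ^ 2 := by
            rw [h1, inner_add_left, Submodule.inner_left_of_mem_orthogonal hy hz,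
              real_inner_self_eq_norm_sq, add_zero]
          rw [h4] at h3
          rcases (norm_nonneg y).eq_or_lt with h5 | h5
          · rw [← h5]; exact mul_nonneg hγ0.1 (norm_nonneg _)
          · nlinarith
      intro v hv w0 hw0 hv'
      obtain ⟨w1, hw1, w, hw', rfl, hw2⟩ := dec (W S) w0
      have hw : w ∈ W (insert b S) := by
        simpa using (W (insert b S)).sub_mem hw0 (mono (subset_insert _ _) hw1)
      have h4 : ‖w‖ ≤ ‖w1 + w‖ := by
        apply le_of_sq_le_sq _ (norm_nonneg _); nlinarith [sq_nonneg ‖w1‖]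
      rw [inner_add_right, Submodule.inner_left_of_mem_orthogonal hw1 hv', zero_add]
      have hpos : 0 ≤ l + (1 - l) * γ ^ 2 := by have := sq_nonneg γ; nlinarith
      refine le_trans ?_ (mul_le_mul_of_nonneg_left h4 (mul_nonneg hpos (norm_nonneg v)))
      obtain ⟨y, hy, z, hz, hz', h5, h6, h7⟩ := proj a ha hc.1 v hv hv'
      obtain ⟨y', hy', z', hz2, hz2', h5', h6', h7'⟩ := proj b hb hc.2.1 w hw hw'
      have h8 := ih (insert c S) a b (by simp [ha, Ne.symm hc.1]) (by simp [hb, Ne.symm hc.2.1])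
        hab (by rw [card_insert_of_notMem hc.2.2]; omega) z hz' z' hz2' hz
      have h9 : ⟪v, w⟫ = ⟪y, y'⟫ + ⟪z, z'⟫ := by
        rw [h5, h5', inner_add_left, inner_add_right, inner_add_right,
          Submodule.inner_right_of_mem_orthogonal hy hz2,
          Submodule.inner_left_of_mem_orthogonal hy' hz]; ring
      have h10 := real_inner_le_norm y y'
      have h11 : ‖y‖ * ‖y'‖ + ‖z‖ * ‖z'‖ ≤ ‖v‖ * ‖w‖ := by
        apply le_of_sq_le_sq _ (by positivity)
        rw [mul_pow, h6, h6']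
        nlinarith [sq_nonneg (‖y‖ * ‖z'‖ - ‖z‖ * ‖y'‖)]
      have h12 : ‖y‖ * ‖y'‖ ≤ (γ * ‖v‖) * (γ * ‖w‖) :=
        mul_le_mul h7 h7' (norm_nonneg _) ((norm_nonneg _).trans h7)
      rw [h9]
      nlinarith
    have h1 := csInf_le hbdd hT
    rw [← hγ] at h1
    refine (hγ0.2 a0 b0 ha0 hb0 hab0).mono ?_
    have h2 : (1 - l) * γ ≤ l := by nlinarith
    have h3 : l * (Λ - m) = 1 := by rw [hl]; exact one_div_mul_cancel (by linarith)
    rw [le_div_iff₀ (by linarith)]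
    nlinarith [hγ0.1]

end hilbert

section group
variable {G : Type*} [Group G] [Fintype G]

def Inv (H : Subgroup G) : Submodule ℝ (EuclideanSpace ℝ G) where
  carrier := {φ | ∀ x, ∀ h ∈ H, φ (x * h) = φ x}
  add_mem' := by
    intro a b ha hb x h hh
    simp [ha x h hh, hb x h hh]
  zero_mem' := by intro x h _; rfl
  smul_mem' := by
    intro c a ha x h hh
    simp [ha x h hh]

omit [Group G] in
lemma inner_eq_sum (φ ψ : EuclideanSpace ℝ G) : ⟪φ, ψ⟫ = ∑ x, φ x * ψ x := by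
  simp [PiLp.inner_apply, mul_comm]

omit [Group G] in
lemma norm_sq_eq_sum (φ : EuclideanSpace ℝ G) : ‖φ‖ ^ 2 = ∑ x, φ x * φ x := by
  rw [← real_inner_self_eq_norm_sq, inner_eq_sum]

lemma sum_sq_hom {F : Type*} [AddCommGroup F] [Fintype F] (u : F → G)
    (hu : ∀ a b, u a * u b = u (a + b)) (φ : G → ℝ) :
    ∑ x, (∑ b, φ (x * u b)) * (∑ b, φ (x * u b)) =
      Fintype.card F * ∑ b, ∑ x, φ (x * u b) * φ x := by
  have h0 : u 0 = 1 := by
    have := hu 0 0
    rw [add_zero] at this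
    exact mul_eq_left.mp this
  simp only [Finset.sum_mul_sum]
  rw [Finset.sum_comm]
  have : ∀ b, ∑ x, ∑ b', φ (x * u b') * φ (x * u b) = ∑ b', ∑ x, φ (x * u b') * φ x := by
    intro b
    rw [Finset.sum_comm]
    refine Fintype.sum_equiv (Equiv.addLeft (-b)) _ _ (fun b' => ?_)
    refine Fintype.sum_equiv (Equiv.mulRight (u b)) _ _ (fun x => ?_)
    simp [mul_assoc, hu]
  rw [Finset.sum_congr rfl (fun b _ => ?_)]
  · rw [Finset.sum_congr rfl (fun b _ => this b)]; simp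
  · simp only [mul_comm]

theorem heis {F : Type*} [Field F] [Fintype F] (h : F → F → F → G)
    (hm : ∀ a b c a' b' c', h a b c * h a' b' c' = h (a + a') (b + b') (c + c' + a * b'))
    (A B H : Subgroup G) (hA : ∀ a, h a 0 0 ∈ A) (hB : ∀ b, h 0 b 0 ∈ B)
    (hH : ∀ g ∈ H, ∃ a b c, g = h a b c) :
    Ang (Inv A) (Inv B) (Inv H) (1 / √(Fintype.card F)) := by
  classical
  intro φ hφ ψ hψ hφ'
  have hq : (0 : ℝ) < Fintype.card F := by exact_mod_cast Fintype.card_pos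
  let T : G → ℝ := fun g => ∑ x, φ (x * g) * φ x
  have h0 : h 0 0 0 = 1 := by
    have := hm 0 0 0 0 0 0
    simp only [add_zero, mul_zero] at this
    exact mul_eq_left.mp this
  have hT1 : ∀ g a, T (g * h a 0 0) = T g := by
    intro g a
    simp only [T, ← mul_assoc, hφ _ _ (hA a)]
  have hT2 : ∀ g a, T (h a 0 0 * g) = T g := by
    intro g a
    refine Fintype.sum_equiv (Equiv.mulRight (h a 0 0)) _ _ (fun x => ?_)
    simp [mul_assoc, hφ _ _ (hA a)]
  have hT3 : ∀ b, b ≠ 0 → ∀ c, T (h 0 b c) = T (h 0 b 0) := by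
    intro b hb c
    rw [← hT2 (h 0 b 0) (c / b), ← hT1 (h (c / b) 0 0 * h 0 b 0) (-(c / b)), hm, hm]
    simp [hb]
  have hT4 : ∑ b, ∑ c, T (h 0 b c) = 0 := by
    let Φ : EuclideanSpace ℝ G := WithLp.toLp 2 (fun x => ∑ p : F × F × F, φ (x * h p.1 p.2.1 p.2.2))
    have hΦ : Φ ∈ Inv H := by
      intro x g hg
      obtain ⟨a, b, c, rfl⟩ := hH g hg
      simp only [Φ, mul_assoc, hm]
      refine Fintype.sum_bijective (fun p => (a + p.1, b + p.2.1, c + p.2.2 + a * p.2.1)) ?_ _ _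
        (fun p => rfl)
      apply Function.Injective.bijective_of_finite
      rintro ⟨a1, b1, c1⟩ ⟨a2, b2, c2⟩ h
      simp only [Prod.mk.injEq, add_right_inj] at h
      obtain ⟨rfl, rfl, h⟩ := h
      simpa using h
    have h1 := Submodule.inner_right_of_mem_orthogonal hΦ hφ'
    rw [inner_eq_sum] at h1
    simp only [Φ, Finset.sum_mul] at h1
    rw [Finset.sum_comm, Fintype.sum_prod_type] at h1
    have h2 : ∀ a, ∑ p : F × F, ∑ x, φ (x * h a p.1 p.2) * φ x = ∑ b, ∑ c, T (h 0 b c) := by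
      intro a
      rw [Fintype.sum_prod_type]
      refine Finset.sum_congr rfl (fun b _ => Finset.sum_congr rfl (fun c _ => ?_))
      rw [← hT1 _ a, hm]
      simp [T]
    simp only [h2, sum_const, card_univ, nsmul_eq_mul] at h1
    exact (mul_eq_zero.mp h1).resolve_left hq.ne'
  have hT5 : 0 ≤ ∑ c, T (h 0 0 c) := by
    have := sum_sq_hom (fun c => h 0 0 c) (fun a b => by simp [hm]) φ
    have h1 : 0 ≤ (Fintype.card F : ℝ) * ∑ c, T (h 0 0 c) := by
      rw [← this]; exact Finset.sum_nonneg (fun x _ => mul_self_nonneg _)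
    exact nonneg_of_mul_nonneg_right h1 hq |> fun h => by
      by_contra h'; push Not at h'; nlinarith
  have hT6 : ∑ b, T (h 0 b 0) ≤ ‖φ‖ ^ 2 := by
    rw [← Finset.add_sum_erase _ _ (mem_univ 0)] at hT4 ⊢
    have h1 : ∑ b ∈ univ.erase 0, ∑ c, T (h 0 b c) =
        Fintype.card F * ∑ b ∈ univ.erase 0, T (h 0 b 0) := by
      rw [Finset.mul_sum]
      refine Finset.sum_congr rfl (fun b hb => ?_)
      simp [hT3 b (ne_of_mem_erase hb)]
    have h2 : T (h 0 0 0) = ‖φ‖ ^ 2 := by simp [T, h0, norm_sq_eq_sum]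
    rw [h1] at hT4
    rw [h2]
    nlinarith
  let Φ : EuclideanSpace ℝ G := WithLp.toLp 2 (fun x => ∑ b, φ (x * h 0 b 0))
  have h1 : ⟪Φ, ψ⟫ = Fintype.card F * ⟪φ, ψ⟫ := by
    simp only [inner_eq_sum, Φ, Finset.sum_mul]
    rw [Finset.sum_comm]
    have : ∀ b, ∑ x, φ (x * h 0 b 0) * ψ x = ∑ x, φ x * ψ x := by
      intro b
      refine Fintype.sum_equiv (Equiv.mulRight (h 0 b 0)) _ _ (fun x => ?_)
      simp [hψ _ _ (hB b)]
    simp [this]
  have h2 : ‖Φ‖ ≤ √(Fintype.card F) * ‖φ‖ := by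
    apply le_of_sq_le_sq _ (by positivity)
    rw [norm_sq_eq_sum, mul_pow, Real.sq_sqrt hq.le]
    simp only [Φ]
    rw [sum_sq_hom (fun b => h 0 b 0) (fun a b => by simp [hm]) φ]
    exact mul_le_mul_of_nonneg_left hT6 hq.le
  have h3 := real_inner_le_norm Φ ψ
  have h4 : 0 < √(Fintype.card F : ℝ) := Real.sqrt_pos.mpr hq
  have h5 := Real.mul_self_sqrt hq.le
  rw [mul_assoc, one_div, ← div_eq_inv_mul, le_div_iff₀ h4]
  have h6 : ‖Φ‖ * ‖ψ‖ ≤ √(Fintype.card F) * ‖φ‖ * ‖ψ‖ := by gcongr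
  apply le_of_mul_le_mul_left _ h4
  calc _ = (√(Fintype.card F : ℝ) * √(Fintype.card F : ℝ)) * ⟪φ, ψ⟫ := by ring
    _ = ⟪Φ, ψ⟫ := by rw [h5, h1]
    _ ≤ _ := by linarith

open scoped Classical in
theorem mixing {A B H : Subgroup G} [Fintype H] (hA : A ≤ H) {l θ : ℝ} (hl : 0 ≤ l) (hθ : 0 ≤ θ)
    (h : Ang (Inv A) (Inv B) (Inv H) l) (P Q Ω : G → Prop)
    (hP : ∀ x, ∀ a ∈ A, P (x * a) ↔ P x) (hQ : ∀ x, ∀ a ∈ B, Q (x * a) ↔ Q x)
    (hΩ : ∀ x, ∀ a ∈ H, Ω (x * a) ↔ Ω x)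
    (hd : ∀ x, Ω x → ((univ.filter (fun κ : H => P (x * κ))).card : ℝ) ≤ θ * Fintype.card H) :
    ((univ.filter (fun x => P x ∧ Q x ∧ Ω x)).card : ℝ) ≤ θ * (univ.filter Q).card +
      l * (((univ.filter P).card + (univ.filter Q).card) / 2) := by
  have hH : (0 : ℝ) < Fintype.card H := by exact_mod_cast Fintype.card_pos
  let φ : EuclideanSpace ℝ G := WithLp.toLp 2 (fun x => if P x ∧ Ω x then 1 else 0)
  let ψ : EuclideanSpace ℝ G := WithLp.toLp 2 (fun x => if Q x then 1 else 0)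
  let av : EuclideanSpace ℝ G := WithLp.toLp 2 (fun x => (∑ κ : H, φ (x * κ)) / Fintype.card H)
  have hφ : φ ∈ Inv A := fun x a ha => by simp [φ, hP x a ha, hΩ x a (hA ha)]
  have hψ : ψ ∈ Inv B := fun x a ha => by simp [ψ, hQ x a ha]
  have hav : av ∈ Inv H := by
    intro x a ha
    simp only [av]
    congr 1
    refine Fintype.sum_equiv (Equiv.mulLeft (⟨a, ha⟩ : H)) _ _ (fun κ => ?_)
    simp [mul_assoc]
  have havA : av ∈ Inv A := fun x a ha => hav x a (hA ha)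
  have hin : ∀ χ ∈ Inv H, ⟪χ, av⟫ = ⟪χ, φ⟫ := by
    intro χ hχ
    simp only [inner_eq_sum, av, ← mul_div_assoc, ← Finset.sum_div, Finset.mul_sum]
    rw [Finset.sum_comm, div_eq_iff hH.ne']
    have : ∀ κ : H, ∑ x, χ x * φ (x * κ) = ∑ x, χ x * φ x := by
      intro κ
      refine Fintype.sum_equiv (Equiv.mulRight (κ : G)) _ _ (fun x => ?_)
      simp [hχ x κ κ.2]
    simp [this, mul_comm]
  have horth : φ - av ∈ (Inv H)ᗮ := by
    intro χ hχ
    rw [inner_sub_right, hin χ hχ, sub_self]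
  have h1 := h (φ - av) (Submodule.sub_mem _ hφ havA) ψ hψ horth
  have h2 : ‖φ - av‖ ^ 2 ≤ ‖φ‖ ^ 2 := by
    have h3 : φ = av + (φ - av) := by abel
    conv_rhs => rw [h3, norm_add_sq_real, Submodule.inner_right_of_mem_orthogonal hav horth]
    nlinarith [sq_nonneg ‖av‖]
  have h3 : ‖φ‖ ^ 2 ≤ (univ.filter P).card := by
    rw [norm_sq_eq_sum, card_filter]
    push_cast
    apply Finset.sum_le_sum
    intro x _
    by_cases h1 : P x <;> by_cases h2 : Ω x <;> simp [φ, h1, h2]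
  have h4 : ‖ψ‖ ^ 2 = (univ.filter Q).card := by
    rw [norm_sq_eq_sum, card_filter]
    push_cast
    apply Finset.sum_congr rfl
    intro x _
    by_cases h1 : Q x <;> simp [ψ, h1]
  have h5 : ⟪φ, ψ⟫ = (univ.filter (fun x => P x ∧ Q x ∧ Ω x)).card := by
    rw [inner_eq_sum, card_filter]
    push_cast
    apply Finset.sum_congr rfl
    intro x _
    by_cases h1 : P x <;> by_cases h2 : Ω x <;> by_cases h3 : Q x <;> simp [φ, ψ, h1, h2, h3]
  have h6 : ⟪av, ψ⟫ ≤ θ * (univ.filter Q).card := by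
    rw [inner_eq_sum, card_filter]
    push_cast
    rw [Finset.mul_sum]
    apply Finset.sum_le_sum
    intro x _
    apply mul_le_mul_of_nonneg_right _ (by simp only [ψ]; split_ifs <;> norm_num)
    simp only [av, φ]
    rw [div_le_iff₀ hH]
    by_cases hx : Ω x
    · refine le_trans (le_of_eq ?_) (hd x hx)
      rw [card_filter]
      push_cast
      refine Finset.sum_congr rfl (fun κ _ => ?_)
      simp [hΩ x κ κ.2, hx]
    · rw [Finset.sum_eq_zero]
      · positivity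
      · intro κ _
        simp [hΩ x κ κ.2, hx]
  rw [inner_sub_left] at h1
  have h7 : ‖φ - av‖ * ‖ψ‖ ≤ ((univ.filter P).card + (univ.filter Q).card) / 2 := by
    nlinarith [sq_nonneg (‖φ - av‖ - ‖ψ‖)]
  have h8 := mul_le_mul_of_nonneg_left h7 hl
  rw [← h5]
  nlinarith

end group

end Vale.Agent.P067
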