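import Vale.Agent.P067.Coset
import Vale.Agent.P067.Spectral

/-! Counting lemmas, link expansion from cones, localisation of minimality. -/

namespace Vale.Agent.P067

open Finset Pointwise

section nc
variable {α β : Type*} [Fintype α] [Fintype β]

open scoped Classical in
noncomputable def nc (P : α → Prop) : ℕ := (univ.filter P).card

lemma nc_eq (P : α → Prop) [DecidablePred P] : nc P = (univ.filter P).card := by
  unfold nc; congr

lemma nc_eq_sum (P : α → Prop) [DecidablePred P] : nc P = ∑ x, if P x then 1 else 0 := by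
  rw [nc_eq, card_filter]

lemma nc_mono {P Q : α → Prop} (h : ∀ x, P x → Q x) : nc P ≤ nc Q := by
  classical
  rw [nc_eq, nc_eq]
  apply card_le_card
  intro x hx
  simp only [mem_filter, mem_univ, true_and] at hx ⊢
  exact h x hx

lemma nc_congr {P Q : α → Prop} (h : ∀ x, P x ↔ Q x) : nc P = nc Q :=
  le_antisymm (nc_mono (fun x => (h x).mp)) (nc_mono (fun x => (h x).mpr))

lemma nc_le_card (P : α → Prop) : nc P ≤ Fintype.card α := by
  classical
  rw [nc_eq]; exact card_le_univ _

lemma nc_true {P : α → Prop} (h : ∀ x, P x) : nc P = Fintype.card α := by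
  classical
  rw [nc_eq, filter_true_of_mem (fun x _ => h x), card_univ]

lemma nc_eq_zero {P : α → Prop} : nc P = 0 ↔ ∀ x, ¬ P x := by
  classical
  rw [nc_eq]; simp [filter_eq_empty_iff]

lemma nc_or (P Q : α → Prop) : nc (fun x => P x ∨ Q x) ≤ nc P + nc Q := by
  classical
  rw [nc_eq, nc_eq, nc_eq, filter_or]; exact card_union_le _ _

lemma nc_exists {γ : Type*} (s : Finset γ) (P : γ → α → Prop) :
    nc (fun x => ∃ i ∈ s, P i x) ≤ ∑ i ∈ s, nc (P i) := by
  classical
  simp only [nc_eq]
  refine le_trans (card_le_card ?_) card_biUnion_le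
  intro x hx
  simpa using hx

lemma nc_equiv (e : α ≃ β) (P : β → Prop) : nc (fun x => P (e x)) = nc P := by
  classical
  rw [nc_eq_sum, nc_eq_sum]
  exact Fintype.sum_equiv e _ _ (fun _ => rfl)

lemma nc_comm (P : α → β → Prop) : ∑ a, nc (P a) = ∑ b, nc (fun a => P a b) := by
  classical
  simp only [nc_eq_sum]
  exact Finset.sum_comm

lemma nc_split (P Q : α → Prop) : nc P = nc (fun x => P x ∧ Q x) + nc (fun x => P x ∧ ¬ Q x) := by
  classical
  simp only [nc_eq_sum, ← Finset.sum_add_distrib]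
  refine Finset.sum_congr rfl (fun x _ => ?_)
  by_cases h1 : P x <;> by_cases h2 : Q x <;> simp [h1, h2]

lemma nc_double {G : Type*} [Group G] [Fintype G] (H : Subgroup G) [Fintype H] (P : G → Prop) :
    ∑ x, nc (fun κ : H => P (x * κ)) = Fintype.card H * nc P := by
  rw [nc_comm (fun (x : G) (κ : H) => P (x * κ))]
  have : ∀ κ : H, nc (fun x => P (x * κ)) = nc P := fun κ => nc_equiv (Equiv.mulRight (κ : G)) P
  simp [this]

lemma nc_coset {G : Type*} [Group G] [Fintype G] (H : Subgroup G) [Fintype H] (x0 : G)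
    (P : G → Prop) : nc (fun x => P x ∧ x0⁻¹ * x ∈ H) = nc (fun κ : H => P (x0 * κ)) := by
  classical
  rw [nc_eq, nc_eq]
  symm
  refine Finset.card_bij (fun κ _ => x0 * κ) ?_ ?_ ?_
  · intro κ h; simpa using h
  · intro a _ b _ h; exact Subtype.ext (mul_left_cancel h)
  · intro x hx
    simp only [mem_filter, mem_univ, true_and] at hx
    exact ⟨⟨x0⁻¹ * x, hx.2⟩, by simpa using hx.1, by simp⟩

end nc

section
variable {ι G : Type} [Fintype ι] [DecidableEq ι] [Group G] [Fintype G] (K : ι → Subgroup G)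
  {k : Type*} [Field k]

def KS (S : Finset ι) : Subgroup G := ⨅ s ∈ S, K s

omit [Fintype ι] [DecidableEq ι] [Fintype G] in
lemma mem_KS {S : Finset ι} {g : G} : g ∈ KS K S ↔ ∀ s ∈ S, g ∈ K s := by
  simp [KS, Subgroup.mem_iInf]

omit [Fintype ι] [DecidableEq ι] [Fintype G] in
lemma KS_anti {S S' : Finset ι} (h : S ⊆ S') : KS K S' ≤ KS K S := fun _ hg =>
  (mem_KS K).mpr (fun s hs => (mem_KS K).mp hg s (h hs))

noncomputable instance (S : Finset ι) : Fintype (KS K S) := Fintype.ofFinite _

noncomputable def cnt (e : ℕ) (f : Finset (Vx ι G) → k) : ℕ :=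
  ∑ S ∈ powersetCard e univ, nc (fun x => f (face K x S) ≠ 0)

noncomputable def cntL (x0 : G) (S : Finset ι) (e : ℕ) (f : Finset (Vx ι G) → k) : ℕ :=
  ∑ S' ∈ powersetCard e Sᶜ, nc (fun κ : KS K S => f (face K (x0 * κ) S') ≠ 0)

omit [DecidableEq ι] in
lemma card_pc_le (e : ℕ) (C : Finset ι) : (powersetCard e C).card ≤ 2 ^ Fintype.card ι := by
  refine (card_le_univ _).trans ?_
  simp

theorem link_exp [CharP k 2] (S : Finset ι) {E R e : ℕ} (hc : Cone k (CC K (KS K S) Sᶜ) E R)
    (he : e < E) (x0 : G) (f : Finset (Vx ι G) → k) :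
    ∃ h, cntL K x0 S e (f + cb h) ≤ 2 ^ Fintype.card ι * R * cntL K x0 S (e + 1) (cb f) := by
  classical
  obtain ⟨c, hc⟩ := hc
  let h : KS K S → Finset (Vx ι G) → k := fun γ ρ =>
    ∑ τ, c ((x0 * γ)⁻¹ • ρ) τ * f ((x0 * γ) • τ)
  set Q := cntL K x0 S (e + 1) (cb f) with hQ
  have key : ∀ S' ∈ powersetCard e Sᶜ, ∀ κ : KS K S,
      nc (fun γ : KS K S => (f + cb (h γ)) (face K (x0 * (γ * κ : KS K S)) S') ≠ 0) ≤ R * Q := by
    intro S' hS' κ
    rw [mem_powersetCard] at hS'
    obtain ⟨h1, h2, h3⟩ := hc (face K κ S') ⟨κ, κ.2, S', hS'.1, rfl⟩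
      (by rw [card_face, hS'.2]; exact he)
    refine le_trans (nc_mono (Q := fun γ : KS K S => ∃ τ ∈ univ.filter
      (fun τ => c (face K κ S') τ ≠ 0), cb f ((x0 * γ) • τ) ≠ 0) ?_) ((nc_exists _ _).trans ?_)
    · intro γ hγ
      have h4 := cone_cochain c _ h3 (fun σ => f ((x0 * γ) • σ))
      have h5 : (f + cb (h γ)) (face K (x0 * (γ * κ : KS K S)) S') =
          ∑ τ, c (face K κ S') τ * cb (fun σ => f ((x0 * γ) • σ)) τ := by
        rw [← h4, Pi.add_apply, cb_face, cb_face, smul_face]
        simp only [h, smul_face, Subgroup.coe_mul, mul_assoc, mul_inv_rev, inv_mul_cancel_left]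
      rw [h5] at hγ
      obtain ⟨τ, -, hτ⟩ := Finset.exists_ne_zero_of_sum_ne_zero hγ
      refine ⟨τ, by simpa using left_ne_zero_of_mul hτ, ?_⟩
      obtain ⟨⟨κ', -, S'', -, rfl⟩, -⟩ := h1 τ (left_ne_zero_of_mul hτ)
      have := right_ne_zero_of_mul hτ
      simpa only [cb_face, smul_face] using this
    · refine (Finset.sum_le_card_nsmul _ _ Q ?_).trans ?_
      · intro τ hτ
        simp only [mem_filter, mem_univ, true_and] at hτ
        obtain ⟨⟨κ', hκ', S'', hS'', rfl⟩, h4⟩ := h1 τ hτ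
        rw [card_face, card_face, hS'.2] at h4
        refine le_trans (le_of_eq ?_) (Finset.single_le_sum
          (f := fun S' => nc (fun κ : KS K S => cb f (face K (x0 * κ) S') ≠ 0))
          (fun _ _ => Nat.zero_le _) (mem_powersetCard.mpr ⟨hS'', h4⟩))
        rw [← nc_equiv (Equiv.mulRight (⟨κ', hκ'⟩ : KS K S))
          (fun κ : KS K S => cb f (face K (x0 * κ) S'') ≠ 0)]
        apply nc_congr
        intro γ
        simp [smul_face, mul_assoc]
      · rw [smul_eq_mul]
        apply Nat.mul_le_mul_right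
        refine le_trans (le_of_eq ?_) h2
        unfold sz; congr
  have hsum : ∑ γ : KS K S, cntL K x0 S e (f + cb (h γ)) ≤
      ∑ _γ : KS K S, 2 ^ Fintype.card ι * R * Q := by
    simp only [cntL]
    rw [Finset.sum_comm]
    refine (Finset.sum_le_card_nsmul _ _ (Fintype.card (KS K S) * (R * Q)) ?_).trans ?_
    · intro S' hS'
      rw [Finset.sum_congr rfl (fun γ _ => (nc_equiv (Equiv.mulLeft γ) _).symm),
        nc_comm (fun γ κ : KS K S =>
          (f + cb (h γ)) (face K (x0 * (Equiv.mulLeft γ κ : KS K S)) S') ≠ 0)]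
      refine (Finset.sum_le_card_nsmul _ _ (R * Q) (fun κ _ => key S' hS' κ)).trans (by simp)
    · simp only [smul_eq_mul, sum_const, card_univ]
      have := card_pc_le e Sᶜ
      calc _ ≤ 2 ^ Fintype.card ι * (Fintype.card (KS K S) * (R * Q)) :=
            Nat.mul_le_mul_right _ this
        _ = _ := by ring
  obtain ⟨γ, -, hγ⟩ := Finset.exists_le_of_sum_le univ_nonempty hsum
  exact ⟨h γ, hγ⟩

/-- extension of a cochain of a link to the star -/
noncomputable def lift (r : Finset (Vx ι G)) (h : Finset (Vx ι G) → k) : Finset (Vx ι G) → k :=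
  fun σ => if r ⊆ σ then h (σ \ r) else 0

omit [Fintype ι] [DecidableEq ι] [Group G] [Fintype G] in
lemma cb_lift (r : Finset (Vx ι G)) (h : Finset (Vx ι G) → k) (τ : Finset (Vx ι G)) :
    cb (lift r h) τ = if r ⊆ τ then cb h (τ \ r) else 0 := by
  simp only [cb, lift]
  split_ifs with h1
  · rw [← Finset.sum_filter]
    have : τ.filter (fun v => r ⊆ τ.erase v) = τ \ r := by
      ext v; simp [subset_erase, h1]
    rw [this]
    refine Finset.sum_congr rfl (fun v _ => ?_)
    rw [erase_sdiff_comm]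
  · refine Finset.sum_eq_zero (fun v _ => if_neg (fun h2 => h1 (h2.trans (erase_subset _ _))))

omit [Fintype ι] [DecidableEq ι] [Fintype G] in
lemma face_subset_face {x0 x : G} {S S' : Finset ι} :
    face K x0 S ⊆ face K x S' ↔ S ⊆ S' ∧ x0⁻¹ * x ∈ KS K S := by
  constructor
  · intro h
    obtain ⟨S1, h1, h2⟩ := subset_face K h
    obtain ⟨rfl, h3⟩ := (face_eq K).mp h2
    exact ⟨h1, (mem_KS K).mpr h3⟩
  · rintro ⟨h1, h2⟩
    rw [(face_eq K).mpr ⟨rfl, (mem_KS K).mp h2⟩]
    exact image_subset_image h1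

omit [Fintype ι] [Fintype G] in
lemma face_union_face (x0 : G) (S S1 : Finset ι) (κ : KS K S) :
    face K (x0 * κ) S1 ∪ face K x0 S = face K (x0 * κ) (S1 ∪ S) := by
  rw [← face_mul K (x := x0) ((mem_KS K).mp κ.2)]
  exact (image_union _ _).symm

omit [Fintype G] in
lemma face_sdiff_face (x0 : G) (S S1 : Finset ι) (h : S1 ⊆ Sᶜ) (κ : KS K S) :
    face K (x0 * κ) (S1 ∪ S) \ face K x0 S = face K (x0 * κ) S1 := by
  rw [← face_mul K (x := x0) ((mem_KS K).mp κ.2), face, face, ← image_sdiff _ _ (vx_inj K _),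
    union_sdiff_cancel_right]
  · rfl
  · exact disjoint_left.mpr (fun a ha hb => by simpa [hb] using h ha)

lemma cnt_split (x0 : G) (S : Finset ι) (e : ℕ) (f : Finset (Vx ι G) → k) :
    cnt K (e + S.card) f = ∑ S1 ∈ powersetCard e Sᶜ,
      nc (fun κ : KS K S => f (face K (x0 * κ) (S1 ∪ S)) ≠ 0) +
      ∑ S' ∈ powersetCard (e + S.card) univ,
        nc (fun x => f (face K x S') ≠ 0 ∧ ¬ face K x0 S ⊆ face K x S') := by
  simp only [cnt]
  rw [Finset.sum_congr rfl (fun S' _ => nc_split _ (fun x => face K x0 S ⊆ face K x S')),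
    Finset.sum_add_distrib]
  congr 1
  rw [← Finset.sum_filter_of_ne (p := fun S' => S ⊆ S')]
  · symm
    refine Finset.sum_bij' (fun S1 _ => S1 ∪ S) (fun S' _ => S' \ S) ?_ ?_ ?_ ?_ ?_
    · intro S1 h
      rw [mem_powersetCard] at h
      simp only [mem_filter, mem_powersetCard, subset_univ, true_and, subset_union_right, and_true]
      rw [card_union_of_disjoint, h.2]
      exact disjoint_left.mpr (fun a ha hb => by simpa [hb] using h.1 ha)
    · intro S' h
      simp only [mem_filter, mem_powersetCard, subset_univ, true_and] at h ⊢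
      refine ⟨fun a ha => by simpa using (mem_sdiff.mp ha).2, ?_⟩
      rw [card_sdiff_of_subset h.2]; omega
    · intro S1 h
      rw [mem_powersetCard] at h
      exact union_sdiff_cancel_right
        (disjoint_left.mpr (fun a ha hb => by simpa [hb] using h.1 ha))
    · intro S' h
      simp only [mem_filter] at h
      exact sdiff_union_of_subset h.2
    · intro S1 _
      rw [← nc_coset (KS K S) x0 (fun x => f (face K x (S1 ∪ S)) ≠ 0)]
      apply nc_congr
      intro x
      simp [face_subset_face]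
  · intro S' _ h
    by_contra h'
    apply h
    rw [nc_eq_zero]
    intro x hx
    exact h' ((face_subset_face K).mp hx.2).1

/-- local minimality localises, also to restrictions of the cochain -/
theorem loc_min [CharP k 2] (x0 : G) (S : Finset ι) (e : ℕ) (g g' h : Finset (Vx ι G) → k)
    (hmin : cnt K (e + S.card) g ≤ cnt K (e + S.card) (g + cb (lift (face K x0 S) h)))
    (hg' : ∀ ρ, g' ρ ≠ 0 → g' ρ = g (ρ ∪ face K x0 S)) :
    cntL K x0 S e g' ≤ cntL K x0 S e (g' + cb h) := by
  classical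
  rw [cnt_split K x0, cnt_split K x0] at hmin
  have h1 : ∑ S' ∈ powersetCard (e + S.card) univ,
      nc (fun x => (g + cb (lift (face K x0 S) h)) (face K x S') ≠ 0 ∧
        ¬ face K x0 S ⊆ face K x S') = ∑ S' ∈ powersetCard (e + S.card) univ,
      nc (fun x => g (face K x S') ≠ 0 ∧ ¬ face K x0 S ⊆ face K x S') := by
    refine Finset.sum_congr rfl (fun S' _ => nc_congr (fun x => ?_))
    by_cases h : face K x0 S ⊆ face K x S' <;> simp [cb_lift, h]
  rw [h1, add_le_add_iff_right] at hmin
  have h2 : ∀ S1 ∈ powersetCard e Sᶜ,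
      nc (fun κ : KS K S => g' (face K (x0 * κ) S1) ≠ 0) +
      nc (fun κ : KS K S => (g + cb (lift (face K x0 S) h)) (face K (x0 * κ) (S1 ∪ S)) ≠ 0) ≤
      nc (fun κ : KS K S => (g' + cb h) (face K (x0 * κ) S1) ≠ 0) +
      nc (fun κ : KS K S => g (face K (x0 * κ) (S1 ∪ S)) ≠ 0) := by
    intro S1 hS1
    rw [mem_powersetCard] at hS1
    simp only [nc_eq_sum, ← Finset.sum_add_distrib]
    refine Finset.sum_le_sum (fun κ _ => ?_)
    have h3 := hg' (face K (x0 * κ) S1)
    rw [face_union_face] at h3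
    simp only [Pi.add_apply, cb_lift]
    rw [if_pos (show face K x0 S ⊆ face K (x0 * κ) (S1 ∪ S) from
      (face_subset_face K).mpr ⟨subset_union_right, by simp⟩), face_sdiff_face K x0 S S1 hS1.1]
    by_cases h4 : g' (face K (x0 * κ) S1) = 0
    · by_cases h5 : g (face K (x0 * κ) (S1 ∪ S)) = 0
      · simp [h4, h5]
      · simp only [h4, h5, ne_eq, not_true_eq_false, not_false_eq_true, if_true, if_false]
        split_ifs <;> omega
    · rw [← h3 h4]
      simp only [h4, ne_eq, not_false_eq_true, if_true]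
      omega
  have h3 := Finset.sum_le_sum h2
  simp only [Finset.sum_add_distrib] at h3
  simp only [cntL]
  omega

end

end Vale.Agent.P067
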