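import Vale.Agent.P067.Angle
import Vale.Agent.P067.Defs

/-! From the counting bound to weighted coboundary expansion. -/

namespace Vale.Agent.P067

open Finset

namespace FinComplex

variable (X : FinComplex)

def res (i : ℕ) (g : Finset X.V → ZMod 2) : X.Cochain i := fun σ => g σ.1

lemma cob_res (i : ℕ) (g : Finset X.V → ZMod 2) : X.cob i (X.res i g) = X.res (i + 1) (cb g) := by
  funext τ
  obtain ⟨τ, hτ⟩ := τ
  simp only [cells, mem_filter] at hτ
  simp only [cob, res, cb]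
  rw [Finset.sum_coe_sort (X.cells i) (fun σ => if σ ⊆ τ then g σ else 0), ← Finset.sum_filter]
  symm
  refine Finset.sum_bij (fun v _ => τ.erase v) ?_ ?_ ?_ (fun _ _ => rfl)
  · intro v hv
    have h1 : (τ.erase v).card = i + 1 := by rw [card_erase_of_mem hv]; omega
    simp only [cells, mem_filter]
    exact ⟨⟨X.down_closed τ hτ.1 _ (erase_subset _ _) (card_pos.mp (by omega)), h1⟩,
      erase_subset _ _⟩
  · intro v hv w _ h
    exact (erase_inj τ hv).mp h
  · intro σ hσ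
    simp only [cells, mem_filter] at hσ
    obtain ⟨v, h1, h2⟩ := exists_eq_insert_iff.mpr ⟨hσ.2, by omega⟩
    exact ⟨v, h2 ▸ mem_insert_self _ _, by rw [← h2, erase_insert h1]⟩

lemma norm_res (d i : ℕ) (g : Finset X.V → ZMod 2) : X.norm d i (X.res i g) =
    ∑ σ ∈ (X.cells i).filter (fun σ => g σ ≠ 0), X.weight d i σ := by
  rw [Finset.sum_filter]
  exact Finset.sum_coe_sort (X.cells i) (fun σ => if g σ ≠ 0 then X.weight d i σ else 0)

lemma norm_nonneg' (d i : ℕ) (f : X.Cochain i) : 0 ≤ X.norm d i f :=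
  Finset.sum_nonneg (fun σ _ => by unfold weight; split_ifs <;> positivity)

theorem expander_of (d M A : ℕ) (hp : X.IsPure d)
    (hM : ∀ σ ∈ X.faces, ((X.cells d).filter (fun τ => σ ⊆ τ)).card ≤ M)
    (h : ∀ i < d, ∀ g : Finset X.V → ZMod 2, ∃ h : Finset X.V → ZMod 2, ((X.cells i).filter
      (fun σ => (g + cb h) σ ≠ 0)).card ≤ A * ((X.cells (i + 1)).filter (fun σ => cb g σ ≠ 0)).card) :
    X.IsCoboundaryExpander d (1 / (M * A * 2 ^ (d + 1) + 1)) := by
  intro i hi f
  obtain ⟨g, rfl⟩ : ∃ g, f = X.res i g :=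
    ⟨fun σ => if h : σ ∈ X.cells i then f ⟨σ, h⟩ else 0, by funext σ; simp [res, σ.2]⟩
  obtain ⟨h, hh⟩ := h i hi g
  have hN : (0 : ℝ) < (X.cells d).card := by exact_mod_cast hp.1.card_pos
  have h1 : X.res i (cb h) ∈ X.coboundaries i := by
    cases i with
    | zero =>
      refine ⟨h ∅, funext (fun σ => ?_)⟩
      obtain ⟨v, hv⟩ := card_eq_one.mp (mem_filter.mp σ.2).2
      simp [res, hv, cb]
    | succ i => exact ⟨_, X.cob_res i h⟩
  have h2 : X.dist d i (X.res i g) (X.coboundaries i) ≤ X.norm d i (X.res i (g + cb h)) := by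
    refine csInf_le ⟨0, ?_⟩ ⟨_, h1, ?_⟩
    · rintro _ ⟨a, -, rfl⟩; exact X.norm_nonneg' _ _ _
    · simp only
      congr 1
      funext σ
      simp [res, CharTwo.sub_eq_add]
  have h3 : X.norm d i (X.res i (g + cb h)) ≤ ((X.cells i).filter
      (fun σ => (g + cb h) σ ≠ 0)).card • ((M : ℝ) / (X.cells d).card) := by
    rw [norm_res]
    refine Finset.sum_le_card_nsmul _ _ _ (fun σ hσ => ?_)
    have h4 : (1 : ℝ) ≤ (d + 1).choose (i + 1) := by
      exact_mod_cast Nat.choose_pos (by omega)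
    have h5 := hM σ (mem_filter.mp (mem_filter.mp hσ).1).1
    unfold weight
    gcongr
    nlinarith
  have h4 : ((X.cells (i + 1)).filter (fun σ => cb g σ ≠ 0)).card •
      ((1 : ℝ) / (2 ^ (d + 1) * (X.cells d).card)) ≤
      X.norm d (i + 1) (X.cob i (X.res i g)) := by
    rw [cob_res, norm_res]
    refine Finset.card_nsmul_le_sum _ _ _ (fun σ hσ => ?_)
    have h4 : (0 : ℝ) < (d + 1).choose (i + 1 + 1) := by
      exact_mod_cast Nat.choose_pos (by omega)
    obtain ⟨τ, h5, h6⟩ := hp.2 σ (mem_filter.mp (mem_filter.mp hσ).1).1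
    unfold weight
    gcongr
    · exact_mod_cast card_pos.mpr ⟨τ, mem_filter.mpr ⟨h5, h6⟩⟩
    · exact_mod_cast Nat.choose_le_two_pow _ _
  rw [nsmul_eq_mul] at h3 h4
  have h5 : (((X.cells i).filter (fun σ => (g + cb h) σ ≠ 0)).card : ℝ) ≤
    A * ((X.cells (i + 1)).filter (fun σ => cb g σ ≠ 0)).card := by exact_mod_cast hh
  have h6 := X.norm_nonneg' d (i + 1) (X.cob i (X.res i g))
  rw [one_div, inv_mul_le_iff₀ (by positivity)]
  calc _ ≤ _ := h2.trans h3
    _ ≤ (A * ((X.cells (i + 1)).filter (fun σ => cb g σ ≠ 0)).card) *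
        ((M : ℝ) / (X.cells d).card) := by gcongr
    _ = M * A * 2 ^ (d + 1) * (((X.cells (i + 1)).filter (fun σ => cb g σ ≠ 0)).card *
        ((1 : ℝ) / (2 ^ (d + 1) * (X.cells d).card))) := by field_simp
    _ ≤ M * A * 2 ^ (d + 1) * X.norm d (i + 1) (X.cob i (X.res i g)) := by gcongr
    _ ≤ _ := by linarith

theorem connected_of (A : ℕ) (h : ∀ g : Finset X.V → ZMod 2, ∃ h : Finset X.V → ZMod 2,
    ((X.cells 0).filter
      (fun σ => (g + cb h) σ ≠ 0)).card ≤ A * ((X.cells 1).filter (fun σ => cb g σ ≠ 0)).card) :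
    X.IsConnected := by
  classical
  intro u v hu hv
  let r := Relation.ReflTransGen (fun a b : X.V => ({a, b} : Finset X.V) ∈ X.faces) u
  let g : Finset X.V → ZMod 2 := fun σ => if ∃ w ∈ σ, r w then 1 else 0
  obtain ⟨h, hh⟩ := h g
  have h1 : (X.cells 1).filter (fun σ => cb g σ ≠ 0) = ∅ := by
    refine filter_false_of_mem (fun σ hσ => not_not.mpr ?_)
    obtain ⟨h1, h2⟩ := mem_filter.mp hσ
    obtain ⟨a, b, hab, rfl⟩ := card_eq_two.mp h2
    have h3 : r a ↔ r b := ⟨fun h => h.tail h1, fun h => h.tail (pair_comm a b ▸ h1)⟩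
    rw [cb, sum_pair hab, erase_insert (by simpa using hab), pair_comm,
      erase_insert (by simpa using hab.symm)]
    simp [g, h3, CharTwo.add_self_eq_zero]
  rw [h1, card_empty, mul_zero, Nat.le_zero, card_eq_zero, filter_eq_empty_iff] at hh
  have h2 := not_not.mp (hh (mem_filter.mpr ⟨hu, card_singleton _⟩))
  have h3 := not_not.mp (hh (mem_filter.mpr ⟨hv, card_singleton _⟩))
  have h4 : r u := Relation.ReflTransGen.refl
  by_contra h5
  simp only [Pi.add_apply, g, cb, mem_singleton, exists_eq_left, h4, if_true, sum_singleton,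
    erase_singleton, r, h5, if_false, zero_add] at h2 h3
  simp [h3] at h2

end FinComplex

section
variable {ι G : Type} [Fintype ι] [DecidableEq ι] [Group G] [Fintype G] (K : ι → Subgroup G)

open scoped Classical in
noncomputable abbrev skel (d : ℕ) : FinComplex where
  V := Vx ι G
  dec := inferInstance
  faces := univ.filter (fun σ => σ ∈ CC K Set.univ univ ∧ σ.Nonempty ∧ σ.card ≤ d + 1)
  nonempty_of_mem := fun _ h => (mem_filter.mp h).2.2.1
  down_closed := fun _ h _ h1 h2 => mem_filter.mpr ⟨mem_univ _,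
    CC_down _ _ _ _ (mem_filter.mp h).2.1 _ h1, h2, (card_le_card h1).trans (mem_filter.mp h).2.2.2⟩

omit [DecidableEq ι] in
lemma mem_cells {d i : ℕ} (hi : i ≤ d) {σ : Finset (Vx ι G)} :
    σ ∈ (skel K d).cells i ↔ ∃ x S, S.card = i + 1 ∧ σ = face K x S := by
  simp only [FinComplex.cells, skel, mem_filter, mem_univ, true_and]
  constructor
  · rintro ⟨⟨⟨x, -, S, -, rfl⟩, -⟩, h⟩
    exact ⟨x, S, by rwa [card_face] at h, rfl⟩
  · rintro ⟨x, S, h, rfl⟩
    have := card_face K x S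
    exact ⟨⟨⟨x, trivial, S, subset_univ _, rfl⟩, card_pos.mp (by omega), by omega⟩, by omega⟩

omit [DecidableEq ι] [Fintype ι] in
lemma fiber_le {D : ℕ} (hD : ∀ s, Nat.card (K s) ≤ D) {S : Finset ι} (v : Vx ι G) :
    nc (fun x => v ∈ face K x S) ≤ D := by
  classical
  by_cases h : ∃ x, v ∈ face K x S
  swap
  · rw [nc_eq_zero.mpr (not_exists.mp h)]; exact Nat.zero_le _
  obtain ⟨x0, h⟩ := h
  obtain ⟨s, -, rfl⟩ := (mem_face K).mp h
  let _ : Fintype (K s) := Fintype.ofFinite _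
  refine (nc_mono (Q := fun x => True ∧ x0⁻¹ * x ∈ K s) (fun x hx => ?_)).trans ?_
  · obtain ⟨s', -, h⟩ := (mem_face K).mp hx
    exact ⟨trivial, ((vx_eq K).mp h.symm).2⟩
  · rw [nc_coset (K s) x0 (fun _ => True)]
    exact (nc_le_card _).trans (Nat.card_eq_fintype_card.symm.le.trans (hD s))

omit [DecidableEq ι] in
lemma card_le_nc (e : ℕ) (T : Finset (Finset (Vx ι G))) (P : G → Finset ι → Prop)
    (h : ∀ σ ∈ T, ∃ x S, S.card = e ∧ P x S ∧ σ = face K x S) :
    T.card ≤ ∑ S ∈ powersetCard e univ, nc (fun x => P x S) := by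
  classical
  have h1 : T ⊆ (powersetCard e univ).biUnion (fun S =>
      (univ.filter (fun x => P x S)).image (fun x => face K x S)) := by
    intro σ hσ
    obtain ⟨x, S, h1, h2, rfl⟩ := h σ hσ
    exact mem_biUnion.mpr ⟨S, by simpa using h1, mem_image_of_mem _ (by simpa using h2)⟩
  refine (card_le_card h1).trans (card_biUnion_le.trans (Finset.sum_le_sum (fun S _ => ?_)))
  rw [nc_eq]; exact card_image_le

omit [DecidableEq ι] in
theorem skel_main {d D A : ℕ} (hd : 1 ≤ d) (hι : Fintype.card ι = d + 2)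
    (hD : ∀ s, Nat.card (K s) ≤ D) (h : ∀ j, j + 1 < d + 2 → ∀ f : Finset (Vx ι G) → ZMod 2,
      ∃ h, cnt K j (f + cb h) ≤ A * cnt K (j + 1) (cb f)) :
    Fintype.card G ≤ ((skel K d).cells 0).card * D ∧ (skel K d).IsPure d ∧
      (skel K d).IsConnected ∧ (skel K d).DegreeLE d (2 ^ (d + 2) * D) ∧
      (skel K d).IsCoboundaryExpander d
        (1 / ((2 ^ (d + 2) * D : ℕ) * (A * (2 ^ (d + 2) * D) : ℕ) * 2 ^ (d + 1) + 1)) := by
  classical
  have hfib : ∀ i ≤ d, ∀ (S : Finset ι) (P : Finset (Vx ι G) → Prop) [DecidablePred P],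
      S.card = i + 1 → nc (fun x => P (face K x S)) ≤ (((skel K d).cells i).filter P).card * D := by
    intro i hi S P _ hS
    refine (nc_mono (Q := fun x => ∃ σ ∈ ((skel K d).cells i).filter P, σ = face K x S)
      (fun x hx => ⟨_, mem_filter.mpr ⟨(mem_cells K hi).mpr ⟨x, S, hS, rfl⟩, hx⟩, rfl⟩)).trans
      ((nc_exists _ _).trans (Finset.sum_le_card_nsmul _ _ _ (fun σ hσ => ?_)))
    obtain ⟨v, hv⟩ := (skel K d).nonempty_of_mem σ (mem_of_mem_filter _ (mem_of_mem_filter _ hσ))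
    exact (nc_mono (fun x hx => by rw [← hx]; exact hv)).trans (fiber_le K hD (S := S) v)
  have hdeg : (skel K d).DegreeLE d (2 ^ (d + 2) * D) := by
    intro v
    refine (card_le_nc K (d + 1) _ (fun x S => v ∈ face K x S) (fun σ hσ => ?_)).trans
      ((Finset.sum_le_card_nsmul _ _ D (fun S _ => fiber_le K hD v)).trans
        (Nat.mul_le_mul_right _ (hι ▸ card_pc_le _ _)))
    obtain ⟨x, S, h1, rfl⟩ := (mem_cells K le_rfl).mp (mem_filter.mp hσ).1
    exact ⟨x, S, h1, (mem_filter.mp hσ).2, rfl⟩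
  have hpure : (skel K d).IsPure d := by
    constructor
    · obtain ⟨S, -, hS⟩ := exists_subset_card_eq (s := (univ : Finset ι)) (n := d + 1)
        (by simp [hι])
      exact ⟨_, (mem_cells K le_rfl).mpr ⟨1, S, hS, rfl⟩⟩
    · intro σ hσ
      obtain ⟨⟨x, -, S, -, rfl⟩, -, h1⟩ := (mem_filter.mp hσ).2
      obtain ⟨S', h2, -, h3⟩ := exists_subsuperset_card_eq (subset_univ S) (n := d + 1)
        (by rwa [card_face] at h1) (by simp [hι])
      exact ⟨_, (mem_cells K le_rfl).mpr ⟨x, S', h3, rfl⟩, image_subset_image h2⟩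
  have hcnt : ∀ i < d, ∀ g : Finset (skel K d).V → ZMod 2, ∃ h : Finset (skel K d).V → ZMod 2,
      (((skel K d).cells i).filter
      (fun σ => (g + cb h) σ ≠ 0)).card ≤ A * (2 ^ (d + 2) * D) *
      (((skel K d).cells (i + 1)).filter (fun σ => cb g σ ≠ 0)).card := by
    intro i hi g
    obtain ⟨h', hh⟩ := h (i + 1) (by omega) g
    refine ⟨h', (card_le_nc K (i + 1) _ (fun x S => (g + cb h') (face K x S) ≠ 0)
      (fun σ hσ => ?_)).trans (hh.trans ?_)⟩
    · obtain ⟨x, S, h1, rfl⟩ := (mem_cells K hi.le).mp (mem_filter.mp hσ).1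
      exact ⟨x, S, h1, (mem_filter.mp hσ).2, rfl⟩
    · rw [mul_assoc, mul_assoc, mul_comm D]
      refine Nat.mul_le_mul_left _ ((Finset.sum_le_card_nsmul _ _ _ (fun S hS => hfib (i + 1) hi S
        (fun σ => cb g σ ≠ 0) (mem_powersetCard.mp hS).2)).trans
        (Nat.mul_le_mul_right _ (hι ▸ card_pc_le _ _)))
  refine ⟨?_, hpure, FinComplex.connected_of _ _ (hcnt 0 hd), hdeg,
    FinComplex.expander_of _ d _ _ hpure (fun σ hσ => ?_) hcnt⟩
  · obtain ⟨s⟩ : Nonempty ι := Fintype.card_pos_iff.mp (by omega)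
    have := hfib 0 (Nat.zero_le _) {s} (fun _ => True) (card_singleton _)
    rwa [nc_true (fun _ => trivial), filter_true] at this
  · obtain ⟨v, hv⟩ := (skel K d).nonempty_of_mem σ hσ
    exact (card_le_card (monotone_filter_right _ (fun τ _ h => h hv))).trans (hdeg v)

end

theorem main (d : ℕ) (hd : 1 ≤ d) : ∃ (D : ℕ) (ε : ℝ), 0 < ε ∧ ∃ X : ℕ → FinComplex,
    Filter.Tendsto (fun m => ((X m).cells 0).card) Filter.atTop Filter.atTop ∧
    ∀ m, (X m).IsPure d ∧ (X m).IsConnected ∧ (X m).DegreeLE d D ∧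
      (X m).IsCoboundaryExpander d ε := by
  obtain ⟨D, A, h⟩ := cnt_main (d + 2) (by omega)
  have key : ∀ m : ℕ, ∃ X : FinComplex, m ≤ (X.cells 0).card ∧ X.IsPure d ∧ X.IsConnected ∧
      X.DegreeLE d (2 ^ (d + 2) * D) ∧ X.IsCoboundaryExpander d
        (1 / ((2 ^ (d + 2) * D : ℕ) * (A * (2 ^ (d + 2) * D) : ℕ) * 2 ^ (d + 1) + 1)) := by
    intro m
    obtain ⟨G, _, _, K, h1, h2, h3⟩ := h (m * D)
    obtain ⟨h4, h5⟩ := skel_main K hd (Fintype.card_fin _) h2 h3
    exact ⟨_, Nat.le_of_mul_le_mul_right (h1.trans h4) (Nat.card_pos.trans_le (h2 0)), h5⟩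
  choose X hX using key
  exact ⟨_, _, by positivity, X, Filter.tendsto_atTop_mono (fun m => (hX m).1) Filter.tendsto_id,
    fun m => (hX m).2⟩

end Vale.Agent.P067
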