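import Vale.Agent.P067.Row

/-! Gaussian elimination in the Iwahori-type groups. -/

namespace Vale.Agent.P067

open Finset Module Matrix

section
variable {F R : Type} [Field F] [Fintype F] [CommRing R] [Algebra F R] [Finite R]
  {ε : R →ₐ[F] F} {t : R} {m c : ℕ}

omit [Fintype F] [Finite R] in
lemma RD.unit {k0 : ℕ} (hR : RD ε t k0) (r : R) (hr : ε r ≠ 0) : IsUnit r := by
  have h1 : ∀ x ∈ Submodule.span F {x | ∃ i < k0, x = t ^ (i + 1)}, ∃ s, x = t * s := by
    intro x hx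
    induction hx using Submodule.span_induction with
    | mem x hx => obtain ⟨i, -, rfl⟩ := hx; exact ⟨t ^ i, pow_succ' _ _⟩
    | zero => exact ⟨0, by simp⟩
    | add x y _ _ hx hy =>
      obtain ⟨a, rfl⟩ := hx; obtain ⟨b, rfl⟩ := hy; exact ⟨a + b, by ring⟩
    | smul a x _ hx => obtain ⟨b, rfl⟩ := hx; exact ⟨a • b, by rw [mul_smul_comm]⟩
  obtain ⟨s, hs⟩ := h1 _ (hR.span (r - algebraMap F R (ε r)) (by simp))
  have h2 : IsNilpotent (t * s) := ⟨k0, by rw [mul_pow, hR.nil, zero_mul]⟩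
  have h3 : r = algebraMap F R (ε r) + t * s := by rw [← hs]; ring
  rw [h3]
  exact h2.isUnit_add_left_of_commute ((IsUnit.mk0 _ hr).map (algebraMap F R)) (Commute.all _ _)

omit [Fintype F] in
lemma nuC_mul_c (κ : Fin m → R) (g : PG ε (m + 1)) (a : Fin m) (j : Fin (m + 1)) :
    mat (nuC ε m κ * g) (Fin.castAdd 1 a) j =
      mat g (Fin.castAdd 1 a) j + κ a * mat g (Fin.natAdd m 0) j := by
  simp [mat_mul, mat_nuC, mul_apply, Fin.sum_univ_add, one_apply]

omit [Fintype F] in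
lemma nuC_mul_n (κ : Fin m → R) (g : PG ε (m + 1)) (j : Fin (m + 1)) :
    mat (nuC ε m κ * g) (Fin.natAdd m 0) j = mat g (Fin.natAdd m 0) j := by
  simp [mat_mul, mat_nuC, mul_apply, Fin.sum_univ_add]

omit [Fintype F] in
lemma nuR_mul_c (ρ : NR ε m 1) (g : PG ε (m + 1)) (a : Fin m) (j : Fin (m + 1)) :
    mat (nuR ρ * g) (Fin.castAdd 1 a) j = mat g (Fin.castAdd 1 a) j := by
  simp [mat_mul, mat_nuR, mul_apply, Fin.sum_univ_add, one_apply]

omit [Fintype F] in
lemma nuR_mul_n (ρ : NR ε m 1) (g : PG ε (m + 1)) (j : Fin (m + 1)) :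
    mat (nuR ρ * g) (Fin.natAdd m 0) j =
      ∑ b, ρ.1 0 b * mat g (Fin.castAdd 1 b) j + mat g (Fin.natAdd m 0) j := by
  simp [mat_mul, mat_nuR, mul_apply, Fin.sum_univ_add]

omit [Fintype F] in
theorem elim_col (hunit : ∀ r, ε r ≠ 0 → IsUnit r) (hm : 0 < m) (Λ : Subgroup (PG ε (m + 1)))
    (hC : ∀ κ, nuC ε m κ ∈ Λ) (hR : ∀ ρ, nuR ρ ∈ Λ) (γ : PG ε (m + 1)) :
    ∃ l ∈ Λ, ∃ g, γ = l * ext ε m 1 g := by
  let a0 : Fin m := ⟨0, hm⟩
  have hu := mat_diag γ (Fin.natAdd m 0)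
  obtain ⟨w, hw⟩ := (hunit _ (by rw [hu]; exact one_ne_zero)).exists_left_inv
  let ρ : NR ε m 1 := ⟨single 0 a0 (1 - mat γ (Fin.natAdd m 0) (Fin.natAdd m 0)), by
    intro i b
    rw [single_apply]
    split_ifs <;> simp [hu]⟩
  let κ : Fin m → R := fun a =>
    w * ((Pi.single a0 1 : Fin m → R) a - mat γ (Fin.castAdd 1 a) (Fin.natAdd m 0))
  have h1 : ∀ a, mat (nuC ε m κ * γ) (Fin.castAdd 1 a) (Fin.natAdd m 0) =
      (Pi.single a0 1 : Fin m → R) a := by
    intro a
    rw [nuC_mul_c]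
    simp only [κ]
    linear_combination ((Pi.single a0 1 : Fin m → R) a -
      mat γ (Fin.castAdd 1 a) (Fin.natAdd m 0)) * hw
  have h2 : mat (nuR ρ * (nuC ε m κ * γ)) (Fin.natAdd m 0) (Fin.natAdd m 0) = 1 := by
    rw [nuR_mul_n, nuC_mul_n]
    simp [h1, ρ, Pi.single_apply]
  obtain ⟨ρ', g, h⟩ := exists_nuR
    (nuC ε m (-Pi.single a0 1) * (nuR ρ * (nuC ε m κ * γ))) (by
      intro j
      obtain rfl : j = 0 := Subsingleton.elim _ _
      funext i
      simp only [lin_apply, mulVec_single_one, col_apply]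
      refine Fin.addCases (fun a => ?_) (fun a => ?_) i
      · rw [nuC_mul_c, h2, nuR_mul_c, h1, Pi.single_eq_of_ne (i' := Fin.castAdd 1 a)
          (by simp [Fin.ext_iff]; omega)]
        simp
      · obtain rfl : a = 0 := Subsingleton.elim _ _
        rw [nuC_mul_n, h2, Pi.single_eq_same])
  refine ⟨(nuC ε m (-Pi.single a0 1) * nuR ρ * nuC ε m κ)⁻¹ * nuR ρ',
    Λ.mul_mem (Λ.inv_mem (Λ.mul_mem (Λ.mul_mem (hC _) (hR _)) (hC _))) (hR _), g, ?_⟩
  rw [mul_assoc, ← h]
  group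

omit [Fintype F] in
theorem elim_row (hunit : ∀ r, ε r ≠ 0 → IsUnit r) (Λ : Subgroup (PG ε (m + 1)))
    (hC : ∀ κ, nuC ε m κ ∈ Λ) (hR : ∀ ρ, nuR ρ ∈ Λ) (g : PG ε (m + 1))
    (hg : ∀ a b, a ≠ b → ε (mat g a b) = 0) : g ∈ Λ := by
  suffices H : ∀ j : ℕ, ∀ g : PG ε (m + 1), (∀ (a b : Fin m), a ≠ b →
      ε (mat g (Fin.castAdd 1 a) (Fin.castAdd 1 b)) = 0) →
      (∀ a : Fin m, j ≤ a → ∀ b, mat g (Fin.castAdd 1 a) b =
        (1 : Matrix (Fin (m + 1)) (Fin (m + 1)) R) (Fin.castAdd 1 a) b) → g ∈ Λ from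
    H m g (fun a b h => hg _ _ (fun h' => h (Fin.castAdd_injective _ _ h')))
      (fun a h => absurd a.2 (by omega))
  intro j
  induction j with
  | zero =>
    intro g _ h
    obtain ⟨A, B, C, D, hx⟩ := exists_blk (mat g)
    have hA : A = 1 := by
      ext a b
      have := h a (Nat.zero_le _) (Fin.castAdd 1 b)
      rwa [hx, ← blk_one, blk_cc, blk_cc] at this
    have hB : B = 0 := by
      ext a b
      have := h a (Nat.zero_le _) (Fin.natAdd m b)
      rwa [hx, ← blk_one, blk_cn, blk_cn] at this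
    subst hA hB
    have h1 := mat_uni g
    have h2 := mat_det g
    rw [hx] at h1 h2
    rw [uni_blk] at h1
    rw [det_blk_lower, det_one, one_mul, det_unique] at h2
    have hD : D = 1 := by
      ext a b
      rw [Subsingleton.elim a default, Subsingleton.elim b default, h2, one_apply_eq]
    subst hD
    have : g = nuR ⟨C, h1.2.1⟩ := mat_ext hx
    rw [this]; exact hR _
  | succ j ih =>
    intro g h1 h2
    by_cases hj : j < m
    swap
    · exact ih g h1 (fun a h => absurd a.2 (by omega))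
    let a0 : Fin m := ⟨j, hj⟩
    have hu := mat_diag g (Fin.castAdd 1 a0)
    obtain ⟨w, hw⟩ := (hunit _ (by rw [hu]; exact one_ne_zero)).exists_left_inv
    let ρ : NR ε m 1 := ⟨of fun _ b => mat g (Fin.castAdd 1 a0) (Fin.castAdd 1 b) -
        (1 : Matrix (Fin m) (Fin m) R) a0 b, by
      intro i b
      by_cases h : a0 = b
      · subst h; simp [hu]
      · simp [h, h1 _ _ h]⟩
    let y : R := w * (mat g (Fin.castAdd 1 a0) (Fin.natAdd m 0) - 1)
    let M := nuC ε m (Pi.single a0 1) * (nuR ρ * nuC ε m (Pi.single a0 y))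
    have hM : M ∈ Λ := Λ.mul_mem (hC _) (Λ.mul_mem (hR _) (hC _))
    have hM1 : ∀ a, a ≠ a0 → ∀ b, mat M (Fin.castAdd 1 a) b =
        (1 : Matrix (Fin (m + 1)) (Fin (m + 1)) R) (Fin.castAdd 1 a) b := by
      intro a ha b
      rw [nuC_mul_c, nuR_mul_c, Pi.single_eq_of_ne ha, zero_mul, add_zero, ← mul_one (nuC ε m _),
        nuC_mul_c, Pi.single_eq_of_ne ha, zero_mul, add_zero, mat_one]
    have hM2 : ∀ b, mat M (Fin.castAdd 1 a0) b = mat g (Fin.castAdd 1 a0) b := by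
      intro b
      rw [nuC_mul_c, nuR_mul_c, nuR_mul_n, mat_nuC]
      refine Fin.addCases (fun b => ?_) (fun b => ?_) b
      · simp [ρ, one_apply]
      · obtain rfl : b = 0 := Subsingleton.elim _ _
        simp only [blk_cn, blk_nn, of_apply, ρ, Pi.single_apply, mul_ite, mul_zero, sum_ite_eq',
          mem_univ, if_true, one_apply_eq, y]
        linear_combination (mat g (Fin.castAdd 1 a0) (Fin.natAdd m 0) - 1) * hw
    have key : ∀ a : Fin m, j ≤ a → ∀ b, mat (g * M⁻¹) (Fin.castAdd 1 a) b =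
        (1 : Matrix (Fin (m + 1)) (Fin (m + 1)) R) (Fin.castAdd 1 a) b := by
      intro a ha b
      rw [← mat_mul_inv M, mat_mul, mul_apply, mul_apply]
      refine Finset.sum_congr rfl (fun x _ => ?_)
      congr 1
      by_cases h : a = a0
      · rw [h, hM2]
      · rw [hM1 a h, h2 a (by have : (a : ℕ) ≠ j := fun h' => h (Fin.ext h'); omega)]
    have := ih (g * M⁻¹) (by
      intro a b hab
      have h3 : ∀ x, ε (mat M x (Fin.castAdd 1 b)) = if x = Fin.castAdd 1 b then 1 else 0 := by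
        intro x
        by_cases h4 : x = Fin.castAdd 1 b
        · rw [if_pos h4, h4, mat_diag]
        rw [if_neg h4]
        revert h4
        refine Fin.addCases (fun x => ?_) (fun x => ?_) x
        · intro h4
          by_cases h : x = a0
          · rw [h, hM2]; exact h1 _ _ (fun h' => h4 (by rw [h, h']))
          · rw [hM1 x h, one_apply_ne h4, map_zero]
        · intro _
          exact mat_lt M (by simp [Fin.lt_def])
      have h4 := h1 a b hab
      rw [← inv_mul_cancel_right g M, mat_mul, mul_apply, map_sum] at h4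
      simpa [h3] using h4) key
    simpa using Λ.mul_mem this hM

omit [Fintype F] in
theorem elim_gamma (hunit : ∀ r, ε r ≠ 0 → IsUnit r) (Λ : Subgroup (PG ε (m + 1)))
    (hC : ∀ κ, nuC ε m κ ∈ Λ) (hR : ∀ ρ, nuR ρ ∈ Λ) (g : PG ε (m + 1)) :
    ∃ κ ∈ KK ε (m + 1) t 0, g * κ⁻¹ ∈ Λ ∧ ∀ s, g ∈ KK ε (m + 1) t s → ε t = 0 →
      κ ∈ KK ε (m + 1) t s := by
  have hu : IsUni (((mat g).map ε).map (algebraMap F R)) :=
    ⟨fun a b h => by simp [mat_lt g h], fun a => by simp [mat_diag g a]⟩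
  let κ : PG ε (m + 1) := mkP _ hu.det
    ⟨fun a b h => by simp [mat_lt g h], fun a => by simp [mat_diag g a]⟩
  have hκ : ∀ a b, mat κ a b = ε (mat g a b) • 1 := fun a b => Algebra.algebraMap_eq_smul_one _
  refine ⟨κ, fun a b => ⟨ε (mat g a b), by simp [hκ, tau]⟩, elim_row hunit Λ hC hR _ ?_, ?_⟩
  · intro a b hab
    have h1 : ε (mat (g * κ⁻¹) a b) = ε (mat (κ * κ⁻¹) a b) := by
      simp [-mul_inv_cancel, mat_mul, mul_apply, hκ]
    rw [h1, mul_inv_cancel, mat_one, one_apply_ne hab, map_zero]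
  · intro s hs hε a b
    obtain ⟨x, hx⟩ := hs a b
    rw [hκ, hx]
    unfold tau
    split_ifs
    · exact ⟨x, by simp⟩
    · exact ⟨x, by simp⟩
    · exact ⟨0, by simp [hε]⟩
    · exact ⟨x, by simp⟩

omit [Fintype F] in
theorem card_odd {k : Type} [Field k] [CharP k 2] (hunit : ∀ r, ε r ≠ 0 → IsUnit r)
    (h2 : (2 : F) ≠ 0) (Λ : Subgroup (PG ε m)) : (Nat.card Λ : k) ≠ 0 := by
  intro h
  rw [CharP.cast_eq_zero_iff k 2] at h
  obtain ⟨x, hx⟩ := exists_prime_orderOf_dvd_card' 2 h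
  have h1 : (x : PG ε m) * x = 1 := by
    have := pow_orderOf_eq_one x
    rw [hx, pow_two] at this
    exact congrArg Subtype.val this
  have h3 : IsUnit (mat (x : PG ε m) + 1).det := by
    apply hunit
    have h4 : ε (mat (x : PG ε m) + 1).det = ((mat (x : PG ε m) + 1).map ε).det :=
      ε.toRingHom.map_det _
    rw [h4, det_of_isUpperTriangular (fun a b h => by
      have h' : b < a := h
      simp [mat_lt (x : PG ε m) h', one_apply_ne h'.ne'])]
    refine Finset.prod_ne_zero_iff.mpr (fun a _ => ?_)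
    simp only [map_apply, Matrix.add_apply, map_add, mat_diag, one_apply_eq, map_one]
    rwa [one_add_one_eq_two]
  have h4 : (mat (x : PG ε m) - 1) * (mat (x : PG ε m) + 1) = 0 := by
    rw [sub_mul, mul_add, ← mat_mul, h1, mat_one]; simp [add_comm]
  have h5 : mat (x : PG ε m) - 1 = 0 :=
    ((Matrix.isUnit_iff_isUnit_det _).mpr h3).mul_left_eq_zero.mp h4
  have h6 : x = 1 := Subtype.ext (mat_ext (sub_eq_zero.mp h5))
  rw [h6, orderOf_one] at hx
  omega

end

end Vale.Agent.P067
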