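import Vale.Agent.P067.Chain2

/-! Uniformly bounded fillings in complexes of flags of subspaces in general position. -/

namespace Vale.Agent.P067

open Finset Module

universe u v

theorem loop (k : Type v) [Field k] [CharP k 2] (m : ℕ) : ∀ s : ℕ, ∃ R : ℕ,
    ∀ (V : Type u) [Fintype V] [DecidableEq V] [PartialOrder V] (col : V → ℕ) (vert : V → Prop)
    (a e : ℕ) (L : V) (f : V → V) (𝒮 : Set V),
    (∀ W W', (W ≤ W' ∨ W' ≤ W) → col W ≤ col W' → W ≤ W') →
    vert L → col L = a + 1 → (∀ W, vert W → col W ≤ a → W ≤ L) →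
    (∀ v ∈ 𝒮, vert v → a < col v → col v ≤ a + m → vert (f v) ∧ col (f v) = col v + 1 ∧ v ≤ f v ∧
      L ≤ f v ∧ ∀ W, v ≤ W → L ≤ W → f v ≤ W) →
    ∀ z : Finset V → k,
      Supp {ρ | (∀ W ∈ ρ, vert W) ∧ ∀ W ∈ ρ, ∀ W' ∈ ρ, W ≤ W' ∨ W' ≤ W} e z → bd z = 0 →
      sz z ≤ s → (∀ σ, z σ ≠ 0 → ∀ W ∈ σ, (col W ≤ a + m → col W ≤ a ∨ W ∈ 𝒮) ∧
        col W ≠ a + m + 1 ∧ (a + m + 1 < col W → L ≤ W)) →
      ∃ y, Supp {ρ | (∀ W ∈ ρ, vert W) ∧ ∀ W ∈ ρ, ∀ W' ∈ ρ, W ≤ W' ∨ W' ≤ W} (e + 1) y ∧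
        bd y = z ∧ sz y ≤ R := by
  induction m with
  | zero =>
    intro s
    refine ⟨s, ?_⟩
    intro V _ _ _ col vert a e L f 𝒮 _ hL1 hL2 hL3 _ z hz1 hz2 hz3 hJ
    obtain ⟨y, h1, h2, h3⟩ := cone_fill (e := e) L hz2
      (A := {ρ | (∀ W ∈ ρ, vert W) ∧ ∀ W ∈ ρ, ∀ W' ∈ ρ, W ≤ W' ∨ W' ≤ W}) (by
      intro σ hσ
      obtain ⟨⟨h1, h2⟩, h3⟩ := hz1 σ hσ
      have h4 : ∀ W ∈ σ, L ≤ W ∨ W ≤ L := by
        intro W hW
        obtain ⟨-, h5, h6⟩ := hJ σ hσ W hW
        by_cases h7 : col W ≤ a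
        · exact Or.inr (hL3 W (h1 W hW) h7)
        · exact Or.inl (h6 (by omega))
      refine ⟨fun h => (hJ σ hσ L h).2.1 hL2, ⟨?_, ?_⟩, h3⟩
      · simpa [hL1] using h1
      · simp only [mem_insert, forall_eq_or_imp, or_self, le_refl, true_and]
        exact ⟨h4, fun W hW => ⟨(h4 W hW).symm, h2 W hW⟩⟩)
    exact ⟨y, h1, h2, h3.trans hz3⟩
  | succ m ih =>
    intro s
    obtain ⟨R, hR⟩ := ih (s + s * s)
    refine ⟨R + s * s, ?_⟩
    intro V _ _ _ col vert a e L f 𝒮 hc hL1 hL2 hL3 hf z hz1 hz2 hz3 hJ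
    have hf' : ∀ v ∈ 𝒮, vert v → a < col v → col v ≤ a + m → vert (f v) ∧
        col (f v) = col v + 1 ∧ v ≤ f v ∧ L ≤ f v ∧ ∀ W, v ≤ W → L ≤ W → f v ≤ W :=
      fun v h1 h2 h3 h4 => hf v h1 h2 h3 (by omega)
    rcases e with _ | e
    · obtain ⟨y, h1, h2, h3⟩ := hR V col vert a 0 L f 𝒮 hc hL1 hL2 hL3 hf' z hz1 hz2 (by omega) (by
        intro σ hσ W hW
        have := (hz1 σ hσ).2
        rw [card_eq_zero] at this
        simp [this] at hW)
      exact ⟨y, h1, h2, by omega⟩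
    let A : Set (Finset V) := {ρ | ((∀ W ∈ ρ, vert W) ∧ ∀ W ∈ ρ, ∀ W' ∈ ρ, W ≤ W' ∨ W' ≤ W) ∧
      ∀ W ∈ ρ, (col W ≤ a + m + 1 → col W ≤ a ∨ W ∈ 𝒮) ∧ (a + m + 1 < col W → L ≤ W)}
    have hA : Down A := fun σ h ρ hρ => ⟨⟨fun W hW => h.1.1 W (hρ hW),
      fun W hW W' hW' => h.1.2 W (hρ hW) W' (hρ hW')⟩, fun W hW => h.2 W (hρ hW)⟩
    have hzA : Supp A (e + 1) z := by
      intro σ hσ
      refine ⟨⟨(hz1 σ hσ).1, fun W hW => ?_⟩, (hz1 σ hσ).2⟩
      obtain ⟨h1, h2, h3⟩ := hJ σ hσ W hW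
      exact ⟨h1, fun h => h3 (by omega)⟩
    obtain ⟨u, hu1, hu2, hu3, hu4⟩ := push_core (A := A) (fun v => col v = a + m + 1) (R := s) hzA
      (by
        intro σ hσ v hv w hw h1 h2
        have := (hz1 σ hσ).1.2 v hv w hw
        exact le_antisymm (hc _ _ this (by omega)) (hc _ _ this.symm (by omega)))
      (by simp [hz2]) (by
        intro v hv z' hz1' hz2' hz3' hz4' hz5'
        obtain ⟨ρ0, hρ0⟩ := Function.ne_iff.mp hz4'
        have hv1 : vert v := (hz1 _ (hz5' ρ0 hρ0)).1.1 v (mem_insert_self _ _)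
        have hv2 : v ∈ 𝒮 := by
          rcases (hJ _ (hz5' ρ0 hρ0) v (mem_insert_self _ _)).1 (by omega) with h | h
          · omega
          · exact h
        obtain ⟨g1, g2, g3, g4, g5⟩ := hf v hv2 hv1 (by omega) (by omega)
        obtain ⟨y, h1, h2, h3⟩ := cone_fill (e := e) (f v) hz2'
          (A := lk A (fun v => col v = a + m + 1) v) (by
          intro ρ hρ
          obtain ⟨⟨h1, ⟨h2, h3⟩, h4⟩, h5⟩ := hz1' ρ hρ
          have h6 := hJ _ (hz5' ρ hρ)
          have h7 : ∀ W ∈ ρ, f v ≤ W ∨ W ≤ f v := by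
            intro W hW
            have h8 := h3 W (mem_insert_of_mem hW) v (mem_insert_self _ _)
            by_cases h9 : col W ≤ col v
            · exact Or.inr ((hc _ _ h8 h9).trans g3)
            · exact Or.inl (g5 W (hc _ _ h8.symm (by omega))
                ((h4 W (mem_insert_of_mem hW)).2 (by omega)))
          refine ⟨fun h => (h6 _ (mem_insert_of_mem h)).2.1 (by omega), ⟨?_, ⟨?_, ?_⟩, ?_⟩, h5⟩
          · simp only [mem_insert, forall_eq_or_imp]
            exact ⟨by omega, h1⟩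
          · simp only [mem_insert, forall_eq_or_imp] at h2 ⊢
            exact ⟨h2.1, g1, h2.2⟩
          · simp only [mem_insert, forall_eq_or_imp] at h3 ⊢
            refine ⟨⟨h3.1.1, Or.inl g3, h3.1.2⟩, ⟨Or.inr g3, Or.inl le_rfl, h7⟩, fun W hW =>
              ⟨(h3.2 W hW).1, (h7 W hW).symm, (h3.2 W hW).2⟩⟩
          · simp only [mem_insert, forall_eq_or_imp] at h4 ⊢
            exact ⟨h4.1, ⟨by omega, fun _ => g4⟩, h4.2⟩)
        exact ⟨y, h1, h2, h3.trans (hz3'.trans hz3)⟩)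
    have hs : Supp A (e + 1) (z + bd u) := hzA.add (hu1.bd hA)
    have hss : sz z * s ≤ s * s := Nat.mul_le_mul_right s hz3
    obtain ⟨y, h1, h2, h3⟩ := hR V col vert a (e + 1) L f 𝒮 hc hL1 hL2 hL3 hf' (z + bd u)
      (hs.mono (fun _ h => h.1)) (by rw [map_add, bd_bd, hz2, add_zero]) (by omega) (by
        intro σ hσ W hW
        have h1 := (hs σ hσ).1.2 W hW
        have h2 := hu2 σ hσ W hW
        exact ⟨fun h => h1.1 (by omega), h2, h1.2⟩)
    refine ⟨y + u, h1.add (hu1.mono (fun _ h => h.1)), ?_, (sz_add _ _).trans (by omega)⟩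
    rw [map_add, h2, add_assoc]
    funext σ
    simp [CharTwo.add_self_eq_zero]

structure GD (F E : Type) [Field F] [AddCommGroup E] [Module F E] (r : ℕ) where
  Fl : ℕ → Submodule F E
  top : Submodule F E
  H : Submodule F E
  H' : Submodule F E
  anti : Antitone Fl
  rk : ∀ c ≤ r + 1, finrank F (Fl c) + c = finrank F E
  htop : top ⊔ Fl (r + 1) = ⊤
  hH : ¬ top ≤ H
  hH' : H' ≠ ⊥

section
variable {F E : Type} [Field F] [AddCommGroup E] [Module F E] {r : ℕ}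

def GD.good (D : GD F E r) (W : Submodule F E) : Prop :=
  W ≤ D.top ∧ 1 ≤ finrank F W ∧ finrank F W ≤ r ∧ W ⊓ D.Fl (finrank F W) = ⊥ ∧ ¬ W ≤ D.H ∧
    ¬ D.H' ≤ W

def GD.vert (D : GD F E r) (τ : Finset (Submodule F E)) (C : Finset ℕ) (W : Submodule F E) :
    Prop := D.good W ∧ finrank F W ∈ C ∧ ∀ U ∈ τ, W ≤ U ∨ U ≤ W

def GD.Y (D : GD F E r) (τ : Finset (Submodule F E)) (C : Finset ℕ) :
    Set (Finset (Submodule F E)) :=
  {ρ | (∀ W ∈ ρ, D.vert τ C W) ∧ ∀ W ∈ ρ, ∀ W' ∈ ρ, W ≤ W' ∨ W' ≤ W}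

def GD.ok (D : GD F E r) (τ : Finset (Submodule F E)) : Prop :=
  (∀ W ∈ τ, D.good W) ∧ ∀ W ∈ τ, ∀ W' ∈ τ, W ≤ W' ∨ W' ≤ W

noncomputable def Free (r : ℕ) (τ : Finset (Submodule F E)) : Finset ℕ :=
  (Icc 1 r).filter (fun c => ∀ W ∈ τ, finrank F W ≠ c)

lemma card_free_le (τ : Finset (Submodule F E)) : (Free r τ).card ≤ r := by
  unfold Free
  exact (card_filter_le _ _).trans (by simp)

lemma GD.down (D : GD F E r) (τ : Finset (Submodule F E)) (C : Finset ℕ) : Down (D.Y τ C) :=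
  fun _ h _ hρ => ⟨fun W hW => h.1 W (hρ hW), fun W hW W' hW' => h.2 W (hρ hW) W' (hρ hW')⟩

lemma free_insert (τ : Finset (Submodule F E)) (v : Submodule F E) :
    Free r (insert v τ) = (Free r τ).erase (finrank F v) := by
  ext c
  simp only [Free, mem_filter, mem_insert, forall_eq_or_imp, mem_erase]
  tauto

variable [Fintype E]

lemma le_of_comp {W W' : Submodule F E} (h : W ≤ W' ∨ W' ≤ W)
    (h' : finrank F W ≤ finrank F W') : W ≤ W' := by
  rcases h with h | h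
  · exact h
  · exact (Submodule.eq_of_le_of_finrank_le h h').ge

lemma GD.sup_eq_top (D : GD F E r) {W : Submodule F E} (h1 : finrank F W ≤ r + 1)
    (h2 : W ⊓ D.Fl (finrank F W) = ⊥) : W ⊔ D.Fl (finrank F W) = ⊤ := by
  apply Submodule.eq_top_of_finrank_eq
  have := Submodule.finrank_sup_add_finrank_inf_eq W (D.Fl (finrank F W))
  rw [h2, finrank_bot] at this
  have := D.rk _ h1
  omega

omit [Fintype E] in
lemma exists_avoid [Fintype F] (B : Submodule F E) (Bad : Finset (Submodule F E))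
    (h : ∀ P ∈ Bad, ¬ B ≤ P) (hq : Bad.card < Fintype.card F) : ∃ w ∈ B, ∀ P ∈ Bad, w ∉ P := by
  have := Submodule.iUnion_ssubset_of_forall_ne_top_of_card_lt (univ : Finset Bad)
    (fun P => P.1.comap B.subtype) (fun P hP => h P.1 P.2 (by
      intro x hx
      have : (⟨x, hx⟩ : B) ∈ P.1.comap B.subtype := hP ▸ Submodule.mem_top
      exact this)) (by
      rw [ENat.card_eq_coe_fintype_card]
      simpa using hq)
  obtain ⟨w, -, hw⟩ := Set.exists_of_ssubset this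
  refine ⟨w.1, w.2, fun P hP h' => hw ?_⟩
  simp only [mem_univ, Set.iUnion_true, Set.mem_iUnion]
  exact ⟨⟨P, hP⟩, h'⟩

lemma GD.exists_generic [Fintype F] (D : GD F E r) (B : Submodule F E) (b : ℕ)
    (𝒮 : Finset (Submodule F E)) (hB1 : ¬ B ≤ D.H) (hB2 : B ⊔ D.Fl b = ⊤) (hb : b ≤ r + 1)
    (h𝒮 : ∀ W ∈ 𝒮, W ⊓ D.Fl (finrank F W) = ⊥ ∧ finrank F W + 2 ≤ b ∧ ¬ D.H' ≤ W)
    (hq : 2 * 𝒮.card + 1 < Fintype.card F) :
    ∃ w ∈ B, w ∉ D.H ∧ ∀ W ∈ 𝒮, finrank F ↥(W ⊔ F ∙ w) = finrank F W + 1 ∧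
      (W ⊔ F ∙ w) ⊓ D.Fl (finrank F W + 1) = ⊥ ∧ ¬ D.H' ≤ W ⊔ F ∙ w := by
  have : ∀ W : Submodule F E, ∃ x, ¬ D.H' ≤ W → x ∈ D.H' ∧ x ∉ W := by
    intro W
    by_cases h : D.H' ≤ W
    · exact ⟨0, fun h' => absurd h h'⟩
    · obtain ⟨x, hx⟩ := SetLike.not_le_iff_exists.mp h
      exact ⟨x, fun _ => hx⟩
  choose x hx using this
  obtain ⟨w, hw1, hw2⟩ := exists_avoid B (insert D.H (𝒮.image (fun W => W ⊔ D.Fl (finrank F W + 1))
    ∪ 𝒮.image (fun W => W ⊔ F ∙ x W))) (by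
      intro P hP
      simp only [mem_insert, mem_union, mem_image] at hP
      rcases hP with rfl | ⟨W, hW, rfl⟩ | ⟨W, hW, rfl⟩
      · exact hB1
      · intro h
        have h1 := (h𝒮 W hW).2.1
        have h2 : W ⊔ D.Fl (finrank F W + 1) = ⊤ := by
          rw [eq_top_iff, ← hB2]
          exact sup_le h (le_sup_of_le_right (D.anti (by omega)))
        have h3 := Submodule.finrank_add_le_finrank_add_finrank W (D.Fl (finrank F W + 1))
        rw [h2, finrank_top] at h3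
        have := D.rk (finrank F W + 1) (by omega)
        omega
      · intro h
        have h1 := (h𝒮 W hW).2.1
        have h2 : (W ⊔ F ∙ x W) ⊔ D.Fl (finrank F W + 2) = ⊤ := by
          rw [eq_top_iff, ← hB2]
          exact sup_le_sup h (D.anti h1)
        have h3 := Submodule.finrank_add_le_finrank_add_finrank (W ⊔ F ∙ x W)
          (D.Fl (finrank F W + 2))
        rw [h2, finrank_top, Submodule.finrank_sup_span_singleton (hx W (h𝒮 W hW).2.2).2] at h3
        have := D.rk (finrank F W + 2) (by omega)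
        omega) (by
      refine lt_of_le_of_lt ((card_insert_le _ _).trans ?_) hq
      have h1 := card_union_le (𝒮.image (fun W => W ⊔ D.Fl (finrank F W + 1)))
        (𝒮.image (fun W => W ⊔ F ∙ x W))
      have h2 := card_image_le (s := 𝒮) (f := fun W => W ⊔ D.Fl (finrank F W + 1))
      have h3 := card_image_le (s := 𝒮) (f := fun W => W ⊔ F ∙ x W)
      omega)
  refine ⟨w, hw1, hw2 _ (mem_insert_self _ _), fun W hW => ?_⟩
  have h1 : w ∉ W ⊔ D.Fl (finrank F W + 1) := hw2 _ (mem_insert_of_mem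
    (mem_union_left _ (mem_image_of_mem _ hW)))
  have h2 : w ∉ W ⊔ F ∙ x W := hw2 _ (mem_insert_of_mem
    (mem_union_right _ (mem_image_of_mem (fun W => W ⊔ F ∙ x W) hW)))
  have key : ∀ (P : Submodule F E) (y : E), w ∉ W ⊔ P → y ∈ W ⊔ F ∙ w → y ∈ P → y ∈ W := by
    intro P y h3 h4 h5
    obtain ⟨y1, hy1, y2, hy2, rfl⟩ := Submodule.mem_sup.mp h4
    obtain ⟨c, rfl⟩ := Submodule.mem_span_singleton.mp hy2
    by_cases hc : c = 0
    · simpa [hc] using hy1
    · exfalso; apply h3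
      have : w = c⁻¹ • ((y1 + c • w) - y1) := by simp [smul_smul, hc]
      rw [this]
      exact Submodule.smul_mem _ _ (Submodule.sub_mem _ (Submodule.mem_sup_right h5)
        (Submodule.mem_sup_left hy1))
  refine ⟨Submodule.finrank_sup_span_singleton (fun h => h1 (Submodule.mem_sup_left h)), ?_, ?_⟩
  · rw [eq_bot_iff, ← (h𝒮 W hW).1]
    intro y hy
    exact ⟨key _ y h1 hy.1 hy.2, D.anti (Nat.le_succ _) hy.2⟩
  · intro h
    have h3 := hx W (h𝒮 W hW).2.2
    exact h3.2 (key _ _ h2 (h h3.1) (Submodule.mem_span_singleton_self _))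

lemma GD.push_col {k : Type v} [Field k] [CharP k 2] (D : GD F E r)
    (τ : Finset (Submodule F E)) (C : Finset ℕ) (l e s R : ℕ)
    (y : Finset (Submodule F E) → k) (hy : Supp (D.Y τ C) e y) (hs : sz y ≤ s)
    (hb : ∀ ρ, bd y ρ ≠ 0 → ∀ v ∈ ρ, finrank F v ≠ l)
    (h : ∀ v, D.vert τ C v → finrank F v = l → ∀ e', e = e' + 1 →
      BE k (D.Y (insert v τ) (C.erase l)) e' s R) :
    ∃ u : Finset (Submodule F E) → k, Supp (D.Y τ C) (e + 1) u ∧
      Supp (D.Y τ (C.erase l)) e (y + bd u) ∧ sz (y + bd u) ≤ s + s * R ∧ sz u ≤ s * R := by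
  have hfin : ∀ u : Finset (Submodule F E) → k, Supp (D.Y τ C) (e + 1) u →
      (∀ σ, (y + bd u) σ ≠ 0 → ∀ v ∈ σ, finrank F v ≠ l) →
      Supp (D.Y τ (C.erase l)) e (y + bd u) := by
    intro u hu1 hu2 σ hσ
    obtain ⟨⟨h1, h2⟩, h3⟩ := (hy.add (hu1.bd (D.down _ _))) σ hσ
    exact ⟨⟨fun W hW => ⟨(h1 W hW).1, mem_erase.mpr ⟨hu2 σ hσ W hW, (h1 W hW).2.1⟩,
      (h1 W hW).2.2⟩, h2⟩, h3⟩
  rcases e with _ | e
  · refine ⟨0, Supp.zero _ _, hfin 0 (Supp.zero _ _) ?_, by simp; omega, by simp [sz_zero]⟩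
    intro σ hσ v hv
    simp only [map_zero, add_zero] at hσ
    have := (hy σ hσ).2
    rw [card_eq_zero] at this
    simp [this] at hv
  obtain ⟨u, hu1, hu2, hu3, hu4⟩ := push_core (A := D.Y τ C) (fun v => finrank F v = l)
    (R := R) hy (by
      intro σ hσ v hv w hw h1 h2
      have := (hy σ hσ).1.2 v hv w hw
      exact le_antisymm (le_of_comp this (by omega)) (le_of_comp this.symm (by omega))) hb (by
      intro v hv z hz1 hz2 hz3 hz4 hz5
      obtain ⟨ρ0, hρ0⟩ := Function.ne_iff.mp hz4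
      have hv1 : D.vert τ C v := (hy _ (hz5 ρ0 hρ0)).1.1 v (mem_insert_self _ _)
      have heq : lk (D.Y τ C) (fun v => finrank F v = l) v = D.Y (insert v τ) (C.erase l) := by
        ext ρ
        simp only [lk, GD.Y, GD.vert, Set.mem_ofPred_eq, mem_insert, forall_eq_or_imp, mem_erase]
        constructor
        · rintro ⟨h1, ⟨-, h2⟩, -, h3⟩
          exact ⟨fun W hW => ⟨(h2 W hW).1, ⟨h1 W hW, (h2 W hW).2.1⟩, (h3 W hW).1, (h2 W hW).2.2⟩,
            fun W hW => (h3 W hW).2⟩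
        · rintro ⟨h1, h2⟩
          exact ⟨fun W hW => (h1 W hW).2.1.1, ⟨hv1, fun W hW => ⟨(h1 W hW).1, (h1 W hW).2.1.2,
            (h1 W hW).2.2.2⟩⟩, ⟨Or.inl le_rfl, fun W hW => (h1 W hW).2.2.1.symm⟩,
            fun W hW => ⟨(h1 W hW).2.2.1, h2 W hW⟩⟩
      rw [heq] at hz1 ⊢
      exact h v hv1 hv e rfl z hz1 hz2 (hz3.trans hs))
  have := Nat.mul_le_mul_right R hs
  exact ⟨u, hu1, hfin u hu1 hu2, by omega, by omega⟩

omit [Fintype E] in
lemma GD.ok_insert (D : GD F E r) {τ : Finset (Submodule F E)} {C : Finset ℕ} (h : D.ok τ)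
    {v : Submodule F E} (hv : D.vert τ C v) : D.ok (insert v τ) := by
  refine ⟨by simpa [hv.1] using h.1, ?_⟩
  simp only [mem_insert, forall_eq_or_imp]
  exact ⟨⟨Or.inl le_rfl, hv.2.2⟩, fun W hW => ⟨(hv.2.2 W hW).symm, h.2 W hW⟩⟩

end

/-- the statement proved by induction on the number of free colours -/
def G1 (k : Type v) [Field k] (r φ s q R : ℕ) : Prop :=
  ∀ (F E : Type) [Field F] [Fintype F] [AddCommGroup E] [Module F E] [Fintype E] (D : GD F E r)
    (τ : Finset (Submodule F E)) (C : Finset ℕ) (e : ℕ), q < Fintype.card F → D.ok τ →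
    (Free r τ).card ≤ φ → C ⊆ Free r τ → e < C.card → BE k (D.Y τ C) e s R

theorem g1_full (k : Type v) [Field k] [CharP k 2] (r φ : ℕ) (ih : ∀ s, ∃ q R, G1 k r φ s q R)
    (s : ℕ) : ∃ q R, ∀ (F E : Type) [Field F] [Fintype F] [AddCommGroup E] [Module F E]
    [Fintype E] (D : GD F E r) (τ : Finset (Submodule F E)) (e : ℕ), q < Fintype.card F →
    D.ok τ → (Free r τ).card ≤ φ + 1 → e < (Free r τ).card → BE k (D.Y τ (Free r τ)) e s R := by
  obtain ⟨q1, R1, h1⟩ := ih s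
  choose Rl hRl using loop.{0, v} k
  refine ⟨max q1 (2 * ((s + s * R1) * r + 1) + 1),
    (range (r + 1)).sup (fun m => Rl m (s + s * R1)) + s * R1, ?_⟩
  intro F E _ _ _ _ _ D τ e hq hτ hφ he z hz1 hz2 hz3
  have hne : (Free r τ).Nonempty := card_pos.mp (by omega)
  obtain ⟨l, hl, hlmax⟩ := exists_max_image (Free r τ) id hne
  have hl' := hl
  simp only [Free, mem_filter, mem_Icc] at hl'
  have hfr : (Free r τ).card ≤ r := card_free_le τ
  obtain ⟨u, hu1, hu2, hu3, hu4⟩ := D.push_col τ (Free r τ) l e s R1 z hz1 hz3 (by simp [hz2]) (by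
    intro v hv hvl e' he'
    have := card_erase_add_one hl
    exact h1 F E D _ _ e' (lt_of_le_of_lt (le_max_left _ _) hq) (D.ok_insert hτ hv)
      (by rw [free_insert, hvl]; omega) (by rw [free_insert, hvl]) (by omega))
  -- the upper end of the interval
  obtain ⟨B, hB1, hB2, hB3, hB4, hB5⟩ : ∃ B : Submodule F E, B ≤ D.top ∧ ¬ B ≤ D.H ∧
      B ⊔ D.Fl (l + 1) = ⊤ ∧
      (∀ W, D.good W → (∀ U ∈ τ, W ≤ U ∨ U ≤ W) → l < finrank F W → B ≤ W) ∧
      (∀ W, D.good W → (∀ U ∈ τ, W ≤ U ∨ U ≤ W) → finrank F W ≤ l → W ≤ B) := by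
    by_cases hlr : l = r
    · refine ⟨D.top, le_rfl, D.hH, hlr ▸ D.htop, ?_, fun W h _ _ => h.1⟩
      intro W h _ h'
      have := h.2.2.1
      omega
    · have : l + 1 ∉ Free r τ := fun h => by have := hlmax _ h; simp at this
      simp only [Free, mem_filter, mem_Icc, not_and] at this
      have := this ⟨by omega, by omega⟩
      push Not at this
      obtain ⟨U, hU, hUl⟩ := this
      have hg := hτ.1 U hU
      refine ⟨U, hg.1, hg.2.2.2.2.1, hUl ▸ D.sup_eq_top (by omega) hg.2.2.2.1, ?_, ?_⟩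
      · intro W _ h h'
        exact le_of_comp (h U hU).symm (by omega)
      · intro W _ h h'
        exact le_of_comp (h U hU) (by omega)
  -- the lower end
  obtain ⟨A, hA1, hA2, hA3, hA4, hA5, hA6⟩ : ∃ A : Submodule F E, finrank F A < l ∧
      A ⊓ D.Fl (finrank F A) = ⊥ ∧ ¬ D.H' ≤ A ∧ (∀ U ∈ τ, finrank F U ≤ l → U ≤ A) ∧
      (∀ W, D.good W → (∀ U ∈ τ, W ≤ U ∨ U ≤ W) → W ≤ A ∨ A ≤ W) ∧ A ≤ B := by
    by_cases hem : (τ.filter (fun U : Submodule F E => finrank F U < l)).Nonempty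
    · obtain ⟨A, hA, hmax⟩ := exists_max_image _ (fun U : Submodule F E => finrank F U) hem
      simp only [mem_filter] at hA
      have hg := hτ.1 A hA.1
      refine ⟨A, hA.2, hg.2.2.2.1, hg.2.2.2.2.2, ?_, fun W _ h => h A hA.1,
        hB5 A hg (hτ.2 A hA.1) hA.2.le⟩
      intro U hU h
      have := hl'.2 U hU
      exact le_of_comp (hτ.2 U hU A hA.1) (hmax U (mem_filter.mpr ⟨hU, by omega⟩))
    · refine ⟨⊥, by simp; omega, by simp, by simpa using D.hH', ?_, fun W _ _ => Or.inr bot_le,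
        bot_le⟩
      intro U hU h
      exfalso; apply hem
      have := hl'.2 U hU
      exact ⟨U, mem_filter.mpr ⟨hU, by omega⟩⟩
  classical
  let 𝒮 : Finset (Submodule F E) := insert A
    (((univ.filter (fun σ => (z + bd u) σ ≠ 0)).biUnion id).filter (fun W => finrank F W < l))
  have h𝒮 : ∀ W ∈ 𝒮, W = A ∨ (D.vert τ (Free r τ) W ∧ finrank F W < l) := by
    intro W hW
    simp only [𝒮, mem_insert, mem_filter, mem_biUnion, mem_univ, true_and, id] at hW
    rcases hW with h | ⟨⟨σ, h1, h2⟩, h3⟩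
    · exact Or.inl h
    · have := (hu2 σ h1).1.1 W h2
      exact Or.inr ⟨⟨this.1, mem_of_mem_erase this.2.1, this.2.2⟩, h3⟩
  obtain ⟨w, hw1, hw2, hw3⟩ := D.exists_generic B (l + 1) 𝒮 hB2 hB3 (by omega) (by
    intro W hW
    rcases h𝒮 W hW with rfl | ⟨h1, h2⟩
    · exact ⟨hA2, by omega, hA3⟩
    · exact ⟨h1.1.2.2.2.1, by omega, h1.1.2.2.2.2.2⟩) (by
    refine lt_of_le_of_lt ?_ (lt_of_le_of_lt (le_max_right _ _) hq)
    have h2 : 𝒮.card ≤ (s + s * R1) * r + 1 := by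
      refine (card_insert_le _ _).trans (Nat.succ_le_succ ((card_filter_le _ _).trans
        (card_biUnion_le.trans ?_)))
      refine (Finset.sum_le_card_nsmul _ _ r ?_).trans ?_
      · intro σ hσ
        simp only [mem_filter, mem_univ, true_and] at hσ
        have := (hu2 σ hσ).2
        simp only [id]; omega
      · simp only [smul_eq_mul]
        apply Nat.mul_le_mul_right
        refine le_trans (le_of_eq ?_) hu3
        unfold sz
        congr
    omega)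
  have hvert : ∀ W ∈ 𝒮, A ≤ W → D.vert τ (Free r τ) (W ⊔ F ∙ w) := by
    intro W hW hAW
    obtain ⟨g1, g2, g3⟩ := hw3 W hW
    have hWl : finrank F W < l ∧ W ≤ B := by
      rcases h𝒮 W hW with rfl | ⟨h1, h2⟩
      · exact ⟨hA1, hA6⟩
      · exact ⟨h2, hB5 W h1.1 h1.2.2 h2.le⟩
    have hle : W ⊔ F ∙ w ≤ B := sup_le hWl.2 ((Submodule.span_singleton_le_iff_mem _ _).mpr hw1)
    refine ⟨⟨hle.trans hB1, by omega, by omega, g1 ▸ g2, fun h => hw2 (h (Submodule.mem_sup_right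
      (Submodule.mem_span_singleton_self _))), g3⟩, ?_, ?_⟩
    · simp only [Free, mem_filter, mem_Icc]
      refine ⟨by omega, fun U hU h => ?_⟩
      have h1 := Submodule.finrank_mono ((hA4 U hU (by omega)).trans hAW)
      omega
    · intro U hU
      by_cases h : finrank F U ≤ l
      · exact Or.inr ((hA4 U hU h).trans (hAW.trans le_sup_left))
      · exact Or.inl (hle.trans (hB4 U (hτ.1 U hU) (hτ.2 U hU) (by omega)))
  have hAS : A ∈ 𝒮 := mem_insert_self _ _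
  have hsub : D.Y τ ((Free r τ).erase l) ⊆ D.Y τ (Free r τ) := fun σ h =>
    ⟨fun W hW => ⟨(h.1 W hW).1, mem_of_mem_erase (h.1 W hW).2.1, (h.1 W hW).2.2⟩, h.2⟩
  obtain ⟨y, hy1, hy2, hy3⟩ := hRl (l - 1 - finrank F A) (s + s * R1) (Submodule F E)
    (fun W => finrank F W) (D.vert τ (Free r τ)) (finrank F A) e (A ⊔ F ∙ w) (fun W => W ⊔ F ∙ w)
    𝒮 (fun W W' h h' => le_of_comp h h') (hvert A hAS le_rfl) (hw3 A hAS).1
    (fun W h h' => (le_of_comp (hA5 W h.1 h.2.2) h').trans le_sup_left) (by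
      intro v hv h1 h2 _
      have hAv : A ≤ v := le_of_comp (hA5 v h1.1 h1.2.2).symm h2.le
      exact ⟨hvert v hv hAv, (hw3 v hv).1, le_sup_left, sup_le_sup_right hAv _,
        fun W h3 h4 => sup_le h3 (le_sup_right.trans h4)⟩)
    (z + bd u) (hu2.mono hsub) (by rw [map_add, bd_bd, hz2, add_zero]) hu3 (by
      intro σ hσ W hW
      have h1 := (hu2 σ hσ).1.1 W hW
      have h2 := ne_of_mem_erase h1.2.1
      refine ⟨fun h => Or.inr ?_, by omega, fun h => ?_⟩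
      · simp only [𝒮, coe_insert, Set.mem_insert_iff, mem_coe, mem_filter, mem_biUnion, mem_univ,
          true_and, id]
        exact Or.inr ⟨⟨σ, hσ, hW⟩, by omega⟩
      · exact (sup_le hA6 ((Submodule.span_singleton_le_iff_mem _ _).mpr hw1)).trans
          (hB4 W h1.1 h1.2.2 (by omega)))
  refine ⟨y + u, Supp.add hy1 hu1, ?_, (sz_add _ _).trans (add_le_add (hy3.trans ?_) hu4)⟩
  · rw [map_add, hy2, add_assoc]
    funext σ
    simp [CharTwo.add_self_eq_zero]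
  · exact Finset.le_sup (f := fun m => Rl m (s + s * R1)) (mem_range.mpr (by omega))

theorem g1 (k : Type v) [Field k] [CharP k 2] (r φ : ℕ) : ∀ s, ∃ q R, G1 k r φ s q R := by
  induction φ with
  | zero =>
    intro s
    refine ⟨0, 0, ?_⟩
    intro F E _ _ _ _ _ D τ C e _ _ h1 h2 h3
    have := card_le_card h2
    omega
  | succ φ ih =>
    suffices H : ∀ j s, ∃ q R, ∀ (F E : Type) [Field F] [Fintype F] [AddCommGroup E] [Module F E]
        [Fintype E] (D : GD F E r) (τ : Finset (Submodule F E)) (C : Finset ℕ) (e : ℕ),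
        q < Fintype.card F → D.ok τ → (Free r τ).card ≤ φ + 1 → C ⊆ Free r τ → e < C.card →
        (Free r τ \ C).card ≤ j → BE k (D.Y τ C) e s R by
      intro s
      obtain ⟨q, R, h⟩ := H (φ + 1) s
      exact ⟨q, R, fun F E _ _ _ _ _ D τ C e h1 h2 h3 h4 h5 => h F E D τ C e h1 h2 h3 h4 h5
        ((card_le_card sdiff_subset).trans h3)⟩
    intro j
    induction j with
    | zero =>
      intro s
      obtain ⟨q, R, h⟩ := g1_full k r φ ih s
      refine ⟨q, R, ?_⟩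
      intro F E _ _ _ _ _ D τ C e h1 h2 h3 h4 h5 h6
      have : C = Free r τ := Subset.antisymm h4 (by simpa [sdiff_eq_empty_iff_subset] using h6)
      subst this
      exact h F E D τ e h1 h2 h3 h5
    | succ j ihj =>
      intro s
      obtain ⟨q1, R1, h1⟩ := ihj s
      obtain ⟨q2, R2, h2⟩ := ih R1
      refine ⟨max q1 q2, R1 + R1 * R2, ?_⟩
      intro F E _ _ _ _ _ D τ C e hq hτ hφ hC he hj
      have hq1 : q1 < Fintype.card F := lt_of_le_of_lt (le_max_left _ _) hq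
      by_cases hj' : (Free r τ \ C).card ≤ j
      · exact (h1 F E D τ C e hq1 hτ hφ hC he hj').mono le_rfl (by omega)
      obtain ⟨l, hl⟩ : (Free r τ \ C).Nonempty := card_pos.mp (by omega)
      rw [mem_sdiff] at hl
      intro z hz1 hz2 hz3
      have hsub : D.Y τ C ⊆ D.Y τ (insert l C) := fun σ h =>
        ⟨fun W hW => ⟨(h.1 W hW).1, mem_insert_of_mem (h.1 W hW).2.1, (h.1 W hW).2.2⟩, h.2⟩
      obtain ⟨y, hy1, hy2, hy3⟩ := h1 F E D τ (insert l C) e hq1 hτ hφ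
        (insert_subset hl.1 hC) (by rw [card_insert_of_notMem hl.2]; omega) (by
          rw [sdiff_insert]
          have := card_erase_add_one (mem_sdiff.mpr hl)
          omega) z (hz1.mono hsub) hz2 hz3
      obtain ⟨u, -, hu2, hu3, -⟩ := D.push_col τ (insert l C) l (e + 1) R1 R2 y hy1 hy3 (by
        rw [hy2]
        intro ρ hρ v hv h
        exact hl.2 (h ▸ ((hz1 ρ hρ).1.1 v hv).2.1)) (by
        intro v hv hvl e' he'
        have := card_erase_add_one hl.1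
        rw [erase_insert hl.2]
        refine h2 F E D _ _ e' (lt_of_le_of_lt (le_max_right _ _) hq) (D.ok_insert hτ hv)
          (by rw [free_insert, hvl]; omega) ?_ (by omega)
        rw [free_insert, hvl]
        intro c hc
        exact mem_erase.mpr ⟨fun h => hl.2 (h ▸ hc), hC hc⟩)
      rw [erase_insert hl.2] at hu2
      exact ⟨y + bd u, hu2, by rw [map_add, bd_bd, add_zero, hy2], hu3⟩

/-- final form: bounds as functions of the size of the cycle -/
theorem g1_fun (k : Type v) [Field k] [CharP k 2] (r : ℕ) : ∃ qf Rf : ℕ → ℕ,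
    ∀ (F E : Type) [Field F] [Fintype F] [AddCommGroup E] [Module F E] [Fintype E] (D : GD F E r)
    (τ : Finset (Submodule F E)) (C : Finset ℕ) (e s : ℕ), qf s < Fintype.card F → D.ok τ →
    C ⊆ Free r τ → e < C.card → BE k (D.Y τ C) e s (Rf s) := by
  choose qf Rf h using g1 k r r
  exact ⟨qf, Rf, fun F E _ _ _ _ _ D τ C e s h1 h2 h3 h4 => h s F E D τ C e h1 h2
    (card_free_le τ) h3 h4⟩

end Vale.Agent.P067
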