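import Vale.Agent.P067.Blk

/-! The semidirect product with rows. -/

namespace Vale.Agent.P067

open Finset Module Matrix

section
variable {F R : Type} [Field F] [Fintype F] [CommRing R] [Algebra F R] [Finite R]
  {ε : R →ₐ[F] F} {t : R} {m c : ℕ}

variable (ε m c) in
def NR : Submodule F (Matrix (Fin c) (Fin m) R) where
  carrier := {ρ | ∀ i b, ε (ρ i b) = 0}
  add_mem' := by intro a b ha hb i j; simp [ha i j, hb i j]
  zero_mem' := by intro i j; simp
  smul_mem' := by intro x a ha i j; simp [ha i j]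

def nuR (ρ : NR ε m c) : PG ε (m + c) :=
  mkP (blk 1 0 ρ.1 1) (by simp [det_blk_lower])
    ((uni_blk _ _ _ _ _).mpr ⟨uni_one, ρ.2, uni_one⟩)

omit [Fintype F] in
lemma mat_nuR (ρ : NR ε m c) : mat (nuR ρ) = blk 1 0 ρ.1 1 := rfl

omit [Fintype F] in
lemma nuR_add (a b : NR ε m c) : nuR (a + b) = nuR a * nuR b := by
  apply mat_ext
  simp [mat_mul, mat_nuR, blk_mul]

omit [Fintype F] [Finite R] in
lemma NR_mul (ρ : NR ε m c) (M : Matrix (Fin m) (Fin m) R) : ρ.1 * M ∈ NR ε m c := by
  intro i b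
  simp [mul_apply, ρ.2 i]

def omR (g : PG ε m) : NR ε m c →ₗ[F] NR ε m c where
  toFun ρ := ⟨ρ.1 * mat g⁻¹, NR_mul ρ _⟩
  map_add' a b := Subtype.ext (Matrix.add_mul _ _ _)
  map_smul' x a := Subtype.ext (Matrix.smul_mul _ _ _)

omit [Fintype F] in
lemma omR_val (g : PG ε m) (ρ : NR ε m c) : (omR g ρ).1 = ρ.1 * mat g⁻¹ := rfl

omit [Fintype F] in
lemma exists_nuR (x : PG ε (m + c))
    (h : ∀ j : Fin c, lin x (Pi.single (Fin.natAdd m j) 1) = Pi.single (Fin.natAdd m j) 1) :
    ∃ ρ g, x = nuR ρ * ext ε m c g := by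
  obtain ⟨A, B, C, D, hx⟩ := exists_blk (mat x)
  have hB : B = 0 := by
    ext a j
    have := congrFun (h j) (Fin.castAdd c a)
    rw [Pi.single_eq_of_ne (by simp [Fin.ext_iff]; omega)] at this
    simpa [lin_apply, hx] using this
  have hD : D = 1 := by
    ext a j
    have := congrFun (h j) (Fin.natAdd m a)
    simpa [lin_apply, hx, Pi.single_apply, one_apply] using this
  subst hB hD
  have h1 := mat_uni x
  have h2 := mat_det x
  rw [hx] at h1 h2
  rw [uni_blk] at h1
  rw [det_blk_lower, det_one, mul_one] at h2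
  refine ⟨omR (mkP A h2 h1.1) ⟨C, h1.2.1⟩, mkP A h2 h1.1, mat_ext ?_⟩
  rw [mat_mul, mat_nuR, mat_ext', blk_mul, omR_val, Matrix.mul_assoc, mat_inv_mul, hx]
  simp

variable (F t m c) in
def PhiR (γ : ℕ) : Submodule F (Matrix (Fin c) (Fin m) R) :=
  Submodule.span F {v | ∃ (l : Fin c) (i : ℕ) (b : Fin m), i * m + b < γ ∧
    v = single l b (t ^ (i + 1))}

omit [Finite R] in
lemma single_mul' (l : Fin c) (b : Fin m) (x : R) (M : Matrix (Fin m) (Fin m) R) :
    single l b x * M = ∑ b', single l b' (x * M b b') := by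
  ext i j
  by_cases h : i = l
  · subst h
    simp [Matrix.sum_apply, single_apply]
  · simp [Matrix.sum_apply, single_apply, h, Ne.symm h]

variable (F c) in
def mrL (M : Matrix (Fin m) (Fin m) R) :
    Matrix (Fin c) (Fin m) R →ₗ[F] Matrix (Fin c) (Fin m) R where
  toFun := fun ρ => ρ * M
  map_add' := fun _ _ => Matrix.add_mul _ _ _
  map_smul' := fun _ _ => Matrix.smul_mul _ _ _

omit [Fintype F] [Finite R] in
lemma mrL_apply (M : Matrix (Fin m) (Fin m) R) (ρ : Matrix (Fin c) (Fin m) R) :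
    mrL F c M ρ = ρ * M := rfl

omit [Fintype F] [Finite R] in
lemma genR (γ : ℕ) (l : Fin c) (i : ℕ) (b : Fin m) (h : i * m + b < γ) :
    single l b (t ^ (i + 1)) ∈ PhiR F t m c γ := Submodule.subset_span ⟨l, i, b, h, rfl⟩

omit [Fintype F] [Finite R] in
lemma PhiR_le (hε : ε t = 0) (γ : ℕ) : PhiR F t m c γ ≤ NR ε m c := by
  rw [PhiR, Submodule.span_le]
  rintro _ ⟨l, i, b, -, rfl⟩ i' b'
  simp only [single_apply]
  split_ifs <;> simp [hε]

omit [Fintype F] in
lemma invR {s0 : ℕ} (hs0 : s0 < m) {κ : PG ε m} (hκ : κ ∈ KK ε m t s0) (mm : ℕ)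
    (a : Matrix (Fin c) (Fin m) R) (ha : a ∈ PhiR F t m c (s0 + mm * m)) :
    a * mat κ ∈ PhiR F t m c (s0 + mm * m) := by
  refine (Submodule.span_le (p := (PhiR F t m c _).comap (mrL F c (mat κ)))).mpr ?_ ha
  rintro _ ⟨l, i, b, h, rfl⟩
  rw [SetLike.mem_coe, Submodule.mem_comap, mrL_apply, single_mul']
  refine Submodule.sum_mem _ (fun a _ => ?_)
  obtain ⟨x, hx⟩ := hκ b a
  have hb := b.2
  have ha := a.2
  have hi : ((b : ℕ) < s0 → i ≤ mm) ∧ (s0 ≤ (b : ℕ) → i + 1 ≤ mm) := by
    constructor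
    · intro h1
      by_contra h2
      have := Nat.mul_le_mul_right m (Nat.succ_le_of_lt (not_le.mp h2))
      rw [Nat.succ_mul] at this
      omega
    · intro h1
      by_contra h2
      have := Nat.mul_le_mul_right m (show mm ≤ i by omega)
      omega
  rw [hx, mul_smul_comm, ← smul_single]
  apply Submodule.smul_mem
  unfold tau
  split_ifs with h1 h2 h3
  · rw [mul_one]; apply genR
    have := Nat.mul_le_mul_right m (hi.1 h1)
    omega
  · simp
  · rw [← pow_succ]; apply genR
    have := Nat.mul_le_mul_right m (hi.2 (by omega))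
    rw [Nat.succ_mul] at this ⊢
    omega
  · rw [mul_one]; apply genR
    have := Nat.mul_le_mul_right m (hi.2 (by omega))
    rw [Nat.succ_mul] at this
    omega

omit [Fintype F] [Finite R] in
lemma topR {k0 : ℕ} (hR : RD ε t k0) (v : NR ε m c) : v.1 ∈ PhiR F t m c (k0 * m) := by
  rw [matrix_eq_sum_single v.1]
  refine Submodule.sum_mem _ (fun l _ => Submodule.sum_mem _ (fun b _ => ?_))
  refine (Submodule.span_le (p := (PhiR F t m c _).comap
    (singleLinearMap F l b))).mpr ?_ (hR.span _ (v.2 l b))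
  rintro _ ⟨i, hi, rfl⟩
  apply genR
  have := Nat.mul_le_mul_right m (Nat.succ_le_of_lt hi)
  have := b.2
  simp only [Nat.succ_mul] at *
  omega

omit [Fintype F] in
lemma nsR {s : ℕ} (hs : s < m) (a : NR ε m c) :
    nuR a ∈ KK ε (m + c) t s ↔ a.1 ∈ PhiR F t m c s := by
  rw [KK_blk hs.le (mat_nuR a)]
  constructor
  · rintro ⟨-, -, h, -⟩
    rw [matrix_eq_sum_single a.1]
    refine Submodule.sum_mem _ (fun l _ => Submodule.sum_mem _ (fun b _ => ?_))
    obtain ⟨x, hx⟩ := h l b
    by_cases h1 : (b : ℕ) < s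
    · rw [if_pos h1] at hx
      have h3 := genR (F := F) (t := t) s l 0 b (by omega)
      rw [zero_add, pow_one] at h3
      rw [hx, ← smul_single]
      exact Submodule.smul_mem _ _ h3
    · rw [if_neg h1] at hx
      have h2 := a.2 l b
      rw [hx] at h2 ⊢
      simp only [map_smul, map_one, smul_eq_mul, mul_one] at h2
      simp [h2]
  · intro h
    refine ⟨one_shape _, fun _ _ => ⟨0, by simp⟩, fun l b => ?_, one_shape'⟩
    have : a.1 l b ∈ F ∙ (if (b : ℕ) < s then t else 1) := by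
      refine (Submodule.span_le (p := Submodule.comap (Matrix.entryLinearMap F R l b)
        (F ∙ (if (b : ℕ) < s then t else 1)))).mpr ?_ h
      rintro _ ⟨l', i, b', h1, rfl⟩
      have hi : i = 0 := by
        by_contra h2
        have := Nat.mul_le_mul_right m (Nat.one_le_iff_ne_zero.mpr h2)
        omega
      subst hi
      rw [SetLike.mem_coe, Submodule.mem_comap, Matrix.entryLinearMap_apply, single_apply]
      by_cases h2 : l' = l ∧ b' = b
      · obtain ⟨-, rfl⟩ := h2
        rw [if_pos (show (b' : ℕ) < s by omega)]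
        split_ifs
        · simp
        · simp
      · rw [if_neg h2]; simp
    obtain ⟨x, hx⟩ := Submodule.mem_span_singleton.mp this
    exact ⟨x, hx.symm⟩

lemma GCR (hε : ε t = 0) {s : ℕ} (hs : s < m) (l : Matrix (Fin c) (Fin m) R →ₗ[F] F)
    (g : PG ε m) (mm : ℕ) (h1 : ¬ ∃ a ∈ PhiR F t m c (s + mm * m), l (a * mat g⁻¹) ≠ 0) :
    ∃ H' : Submodule F (Fin m → F), ∀ (u : UG F m) c', c' ≤ m →
      ((∃ a ∈ PhiR F t m c (s + mm * m + c'), l (a * mat (g * Theta hε _ hs.le u)⁻¹) ≠ 0) ↔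
        ¬ H' ≤ actS u (Dst F F m c')) := by
  let τr : Fin m → R := fun b => if (b : ℕ) < s then t else 1
  let w : Fin c → Fin m → F := fun i j => l (single i ((rot m _ hs.le).symm j)
    (t ^ (mm + 1) * τr ((rot m _ hs.le).symm j)) * mat g⁻¹)
  have KF : ∀ (u : UG F m) i b, l (single i b (t ^ (mm + 1) * τr b) *
      mat (Theta hε _ hs.le u) * mat g⁻¹) = lin u (w i) (rot m _ hs.le b) := by
    intro u i b
    rw [single_mul', Matrix.sum_mul, map_sum]
    simp only [lin_apply, mulVec, dotProduct]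
    refine Fintype.sum_equiv (rot m _ hs.le) _ _ (fun a => ?_)
    simp only [w, Equiv.symm_apply_apply, mat_Theta]
    by_cases h : rot m _ hs.le a < rot m _ hs.le b
    · simp [(matU_uni u).1 _ _ h]
    rw [mul_smul_comm, ← smul_single, Matrix.smul_mul, map_smul, smul_eq_mul]
    congr 4
    have h' : ¬ rk m s a < rk m s b := h
    have := a.2
    have := b.2
    unfold rk at h'
    simp only [τr, tau]
    split_ifs at h' ⊢ <;> first | omega | ring
  refine ⟨Submodule.span F (Set.range w), fun u c' hc' => ?_⟩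
  rw [Submodule.span_le, Set.range_subset_iff, _root_.mul_inv_rev, ← map_inv, mat_mul]
  simp only [SetLike.mem_coe, mem_actS, mem_DstF]
  constructor
  · rintro ⟨a, h3, h4⟩ h5
    apply h4
    refine (Submodule.span_le (p := LinearMap.ker
      (l ∘ₗ mrL F c (mat (Theta hε _ hs.le u⁻¹) * mat g⁻¹)))).mpr ?_ h3
    rintro _ ⟨i', i, b, h6, rfl⟩
    have hb := b.2
    rw [SetLike.mem_coe, LinearMap.mem_ker, LinearMap.comp_apply, mrL_apply, ← Matrix.mul_assoc]
    by_cases h7 : i * m + b < s + mm * m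
    · by_contra h8
      exact h1 ⟨_, invR hs (Theta_mem hε _ u⁻¹) mm _ (genR _ _ _ _ h7), h8⟩
    · have h8 := window (m := m) (s := s) (mm := mm) (i := i) (b := b)
        hb (by omega) (by rw [Nat.succ_mul]; omega) (by omega)
      have h9 : t ^ (i + 1) = t ^ (mm + 1) * τr b ∧ rk m s b < c' := by
        unfold rk
        rcases h8 with ⟨h8, rfl⟩ | ⟨h8, rfl⟩
        · simp only [τr]; rw [if_neg (by omega), if_pos (by omega)]
          exact ⟨by ring, by omega⟩
        · simp only [τr]; rw [if_pos (by omega), if_neg (by omega)]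
          rw [Nat.succ_mul] at h6
          exact ⟨by ring, by omega⟩
      rw [h9.1, KF]
      exact h5 _ _ h9.2
  · intro h3
    push Not at h3
    obtain ⟨i, b', h4, h5⟩ := h3
    obtain ⟨b, rfl⟩ := (rot m _ hs.le).surjective b'
    refine ⟨single i b (t ^ (mm + 1) * τr b), ?_, by rwa [← Matrix.mul_assoc, KF]⟩
    have hb := b.2
    rw [rot_val] at h4
    unfold rk at h4
    simp only [τr]
    by_cases h6 : (b : ℕ) < s
    · rw [if_neg (by omega)] at h4
      rw [if_pos h6, ← pow_succ]; apply genR; rw [Nat.succ_mul]; omega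
    · rw [if_pos (by omega)] at h4
      rw [if_neg h6, mul_one]; apply genR; omega

theorem semi_row {k : Type} [Field k] [CharP k 2] {n0 k0 : ℕ} (hg : GoodF k F n0) (hm : m ≤ n0)
    (hR : RD ε t k0) {ι : Type} [Fintype ι] [DecidableEq ι] (col : ι → ℕ)
    (hcol : Function.Injective col) (hlt : ∀ s, col s < m) (ψ : AddChar F k) (hψ : ψ ≠ 1)
    (hF : (Fintype.card F : k) ≠ 0) (e : ℕ) (he : e < Fintype.card ι)
    (z : Finset (Vx ι (PG ε (m + c))) → k)
    (hz : Supp (CC (fun s => KK ε (m + c) t (col s)) {x | ∃ a g, x = nuR a * ext ε m c g} univ) e z)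
    (hz0 : bd z = 0) :
    (∀ a : NR ε m c, Hom (CC (fun s => KK ε (m + c) t (col s))
      {x | ∃ a g, x = nuR a * ext ε m c g} univ) e z (act (nuR a) z)) ∧
    ∃ z', Supp (CC (fun s => KK ε (m + c) t (col s)) (Set.range (ext ε m c)) univ) e z' ∧
      bd z' = 0 ∧ Hom (CC (fun s => KK ε (m + c) t (col s))
        {x | ∃ a g, x = nuR a * ext ε m c g} univ) e z z' := by
  classical
  let _ : Fintype (NR ε m c) := Fintype.ofFinite _
  refine semidirect (fun s => KK ε (m + c) t (col s)) (fun s => KK ε m t (col s))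
    (ext ε m c) nuR omR nuR_add (by
      intro g a
      apply mat_ext
      simp [mat_mul, mat_nuR, mat_ext', blk_mul, omR_val, Matrix.mul_assoc, mat_inv_mul])
    (fun g h a => Subtype.ext (by simp [omR_val, mat_mul, Matrix.mul_assoc]))
    (fun a => Subtype.ext (by simp [omR_val, mat_one])) (by
      intro a g s h
      exact ((KK_blk (hlt s).le (A := mat g) (by
        simp only [mat_mul, mat_nuR, mat_ext', blk_mul, Matrix.one_mul, Matrix.mul_one,
          Matrix.mul_zero, Matrix.zero_mul, add_zero, zero_add]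
        rfl)).mp h).1) (fun g s h => (ext_mem (hlt s).le).mpr h) m 0 col hcol
    (fun s => by have := hlt s; omega) (fun γ => (PhiR F t m c γ).comap (NR ε m c).subtype)
    (fun γ γ' h => Submodule.comap_mono (Submodule.span_mono (by
      rintro _ ⟨l, i, a, h1, rfl⟩; exact ⟨l, i, a, by omega, rfl⟩)))
    ⟨k0 * m, eq_top_iff.mpr (fun v _ => topR hR v)⟩
    (fun s κ hκ mm a ha => invR (hlt s) (inv_mem hκ) mm _ ha) (fun s a => nsR (hlt s) a)
    ψ hψ ?_ e ?_ z hz hz0
  · rw [Module.card_eq_pow_finrank (K := F)]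
    push_cast
    exact pow_ne_zero _ hF
  · intro l0 g s mm h1 h2 e' he'
    have hs := hlt s
    obtain ⟨l, hl⟩ := LinearMap.exists_extend l0
    have hl' : ∀ a : NR ε m c, l0 a = l a.1 := fun a => by rw [← hl]; rfl
    have hiff : ∀ γ (g : PG ε m), (∃ a ∈ (PhiR F t m c γ).comap (NR ε m c).subtype,
        l0 (omR g a) ≠ 0) ↔ ∃ a ∈ PhiR F t m c γ, l (a * mat g⁻¹) ≠ 0 := by
      intro γ g
      constructor
      · rintro ⟨a, h3, h4⟩
        exact ⟨a.1, h3, by rwa [hl'] at h4⟩
      · rintro ⟨a, h3, h4⟩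
        exact ⟨⟨a, PhiR_le hR.hε _ h3⟩, h3, by rwa [hl']⟩
    simp only [hiff] at h1 h2 ⊢
    obtain ⟨H', GC⟩ := GCR hR.hε hs l g mm h1
    have : Nonempty (Fin m) := ⟨⟨0, by omega⟩⟩
    refine desc_link hg hm hR.hε hR.ht col hcol hlt g s ⊥ H' bot_ne_top ?_ _ ?_ e' (by omega)
    · intro h
      have := (GC 1 m le_rfl).mp (by
        rw [map_one, mul_one, add_assoc, ← Nat.succ_mul]; exact h2)
      exact this (h ▸ bot_le)
    · intro u s' hs'
      have h3 := rk_bounds hs (hlt s') (fun h => hs' (hcol h))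
      have h4 : gp m (col s) (col s') mm = col s + mm * m + rk m (col s) (col s') := by
        have := hlt s'
        have : col s' ≠ col s := fun h => hs' (hcol h)
        unfold gp rk
        split_ifs <;> first | omega | (rw [Nat.succ_mul]; omega)
      rw [h4, GC u _ h3.2.le]
      exact ⟨fun h => ⟨(Dst_triv h3.1 h3.2 u).1, h⟩, fun h => h.2⟩

end

end Vale.Agent.P067
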