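import Vale.Agent.P067.Uni

/-! Vertex groups are unitriangular groups; links; generation; angles. -/

namespace Vale.Agent.P067

open Finset Module Matrix

def rk (n s a : ℕ) : ℕ := if s ≤ a then a - s else a + n - s

def rot (n s : ℕ) (hs : s ≤ n) : Fin n ≃ Fin n where
  toFun a := ⟨rk n s a, by unfold rk; split_ifs <;> omega⟩
  invFun c := ⟨if c + s < n then c + s else c + s - n, by split_ifs <;> omega⟩
  left_inv a := by
    ext; simp only [rk]; split_ifs <;> omega
  right_inv c := by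
    ext; simp only [rk]; split_ifs <;> omega

lemma rot_val {n s : ℕ} (hs : s ≤ n) (a : Fin n) : (rot n s hs a : ℕ) = rk n s a := rfl

section
variable {F R : Type} [Field F] [Fintype F] [CommRing R] [Algebra F R] [Finite R]
  {ε : R →ₐ[F] F} {n : ℕ} {t : R}

omit [Finite R] in
lemma tau_mul {s a b c : ℕ} (hb : b < n) (hc : c < n) (h1 : rk n s a ≤ rk n s b)
    (h2 : rk n s b ≤ rk n s c) : tau t s a b * tau t s b c = tau t s a c := by
  unfold rk at h1 h2
  unfold tau
  split_ifs at h1 h2 ⊢ <;> first | omega | simp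

def thM (t : R) (s : ℕ) (hs : s ≤ n) (u : Matrix (Fin n) (Fin n) F) : Matrix (Fin n) (Fin n) R :=
  Matrix.of fun a b => u (rot n s hs a) (rot n s hs b) • tau t s a b

omit [Fintype F] [Finite R] in
lemma thM_mul {s : ℕ} (hs : s ≤ n) {u v : Matrix (Fin n) (Fin n) F} (hu : IsUni u) (hv : IsUni v) :
    thM t s hs (u * v) = thM t s hs u * thM t s hs v := by
  ext a c
  simp only [thM, of_apply, mul_apply, Finset.sum_smul]
  symm
  refine Fintype.sum_equiv (rot n s hs) _ _ (fun b => ?_)
  by_cases h1 : rot n s hs b < rot n s hs a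
  · simp [hu.1 _ _ h1]
  by_cases h2 : rot n s hs c < rot n s hs b
  · simp [hv.1 _ _ h2]
  rw [smul_mul_smul_comm, tau_mul b.2 c.2 (not_lt.mp h1) (not_lt.mp h2)]

omit [Finite R] in
lemma tau_self (s a : ℕ) : tau t s a a = 1 := by unfold tau; split_ifs <;> rfl

def Theta (hε : ε t = 0) (s : ℕ) (hs : s ≤ n) : UG F n →* PG ε n where
  toFun u := mkP (thM t s hs (mat u)) (by
      rw [← det_submatrix_equiv_self (rot n s hs).symm]
      apply IsUni.det
      constructor
      · intro a b h
        simp [thM, (matU_uni u).1 a b h]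
      · intro a
        simp [thM, (matU_uni u).2 a, tau_self]) (by
      constructor
      · intro a b h
        have h' : (b : ℕ) < a := h
        by_cases h1 : s ≤ (a : ℕ) ∧ (b : ℕ) < s
        · simp [thM, tau, h1.2, not_lt.mpr h1.1, hε]
        · have : rot n s hs b < rot n s hs a := by
            change rk n s b < rk n s a
            unfold rk; split_ifs <;> omega
          simp [thM, (matU_uni u).1 _ _ this]
      · intro a
        simp [thM, (matU_uni u).2, tau_self])
  map_one' := by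
    apply mat_ext
    ext a b
    by_cases h : a = b
    · subst h; simp [thM, mat_one, tau_self]
    · simp [thM, mat_one, h]
  map_mul' u v := mat_ext (thM_mul hs (matU_uni u) (matU_uni v))

lemma mat_Theta (hε : ε t = 0) {s : ℕ} (hs : s ≤ n) (u : UG F n) (a b : Fin n) :
    mat (Theta hε s hs u) a b = mat u (rot n s hs a) (rot n s hs b) • tau t s a b := rfl

lemma Theta_mem (hε : ε t = 0) {s : ℕ} (hs : s ≤ n) (u : UG F n) : Theta hε s hs u ∈ KK ε n t s :=
  fun _ _ => ⟨_, rfl⟩

lemma exists_Theta (hε : ε t = 0) {s : ℕ} (hs : s ≤ n) {g : PG ε n} (hg : g ∈ KK ε n t s) :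
    ∃ u, Theta hε s hs u = g := by
  choose c hc using hg
  refine ⟨mkU (Matrix.of fun i j => if j < i then 0 else if i = j then 1 else
    c ((rot n s hs).symm i) ((rot n s hs).symm j)) ⟨fun a b h => by simp [h], fun a => by simp⟩, ?_⟩
  apply mat_ext
  ext a b
  change (if rot n s hs b < rot n s hs a then 0 else if rot n s hs a = rot n s hs b then 1 else
    c ((rot n s hs).symm (rot n s hs a)) ((rot n s hs).symm (rot n s hs b))) • tau t s a b = _
  simp only [Equiv.symm_apply_apply, EmbeddingLike.apply_eq_iff_eq]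
  split_ifs with h1 h2
  · rw [zero_smul, hc]
    have h1' : rk n s b < rk n s a := h1
    by_cases h3 : (a : ℕ) < s ∧ s ≤ (b : ℕ)
    · simp [tau, h3.1, not_lt.mpr h3.2]
    · have h4 : b < a ∧ tau t s a b = 1 := by
        unfold rk at h1'; unfold tau
        constructor
        · change (b : ℕ) < a
          split_ifs at h1' <;> omega
        · split_ifs at h1' ⊢ <;> first | rfl | omega
      have h5 := mat_lt g h4.1
      rw [hc, h4.2] at h5
      simp only [map_smul, map_one, smul_eq_mul, mul_one] at h5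
      simp [h5]
  · subst h2
    have h5 := mat_diag g a
    rw [hc, tau_self] at h5
    simp only [map_smul, map_one, smul_eq_mul, mul_one] at h5
    rw [hc, h5]
  · rw [hc]

lemma Theta_mem_iff (hε : ε t = 0) (ht : t ≠ 0) {s s' : ℕ} (hs : s ≤ n) (hs' : s' < n)
    (_hne : s' ≠ s) (u : UG F n) : Theta hε s hs u ∈ KK ε n t s' ↔ u ∈ Uc F n (rk n s s') := by
  rw [mem_Uc]
  constructor
  · intro h i j h1 h2
    obtain ⟨a, rfl⟩ := (rot n s hs).surjective i
    obtain ⟨b, rfl⟩ := (rot n s hs).surjective j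
    obtain ⟨c, hc⟩ := h a b
    rw [mat_Theta] at hc
    rw [rot_val] at h1 h2
    have h3 : (tau t s a b = 1 ∧ tau t s' a b = 0) ∨ (tau t s a b = t ∧ tau t s' a b = 1) := by
      have := a.2
      have := b.2
      unfold rk at h1 h2; unfold tau
      split_ifs at h1 h2 ⊢ <;> first | omega | simp
    have : Nontrivial R := ⟨⟨t, 0, ht⟩⟩
    rcases h3 with h3 | h3
    · simpa [h3.1, h3.2] using hc
    · rw [h3.1, h3.2] at hc
      have h4 := congrArg ε hc
      simp only [map_smul, hε, map_one, smul_eq_mul, mul_one] at h4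
      simpa [← h4, ht] using hc
  · intro h a b
    rw [mat_Theta]
    by_cases h1 : rot n s hs b < rot n s hs a
    · exact ⟨0, by simp [(matU_uni u).1 _ _ h1]⟩
    by_cases h2 : rk n s a < rk n s s' ∧ rk n s s' ≤ rk n s b
    · exact ⟨0, by simp [h (rot n s hs a) (rot n s hs b) h2.1 h2.2]⟩
    refine ⟨mat u (rot n s hs a) (rot n s hs b), ?_⟩
    congr 1
    have h1' : ¬ rk n s b < rk n s a := h1
    have := a.2
    have := b.2
    unfold rk at h1' h2; unfold tau
    split_ifs at h1' h2 ⊢ <;> first | omega | rfl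

lemma card_KK (hε : ε t = 0) {s : ℕ} (hs : s ≤ n) :
    Nat.card (KK ε n t s) ≤ Fintype.card F ^ (n * n) := by
  have h1 : Nat.card (KK ε n t s) ≤ Nat.card (UG F n) :=
    Nat.card_le_card_of_surjective (fun u => ⟨Theta hε s hs u, Theta_mem hε hs u⟩) (by
      rintro ⟨g, hg⟩
      obtain ⟨u, rfl⟩ := exists_Theta hε hs hg
      exact ⟨u, rfl⟩)
  have h2 : Nat.card (UG F n) ≤ Nat.card (Matrix (Fin n) (Fin n) F) :=
    Nat.card_le_card_of_injective mat (fun _ _ h => mat_ext h)
  refine h1.trans (h2.trans (le_of_eq ?_))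
  simp only [Matrix, Nat.card_eq_fintype_card, Fintype.card_fun, Fintype.card_fin, ← pow_mul]

lemma rk_bounds {s s' : ℕ} (hs : s < n) (hs' : s' < n) (h : s' ≠ s) :
    1 ≤ rk n s s' ∧ rk n s s' < n := by
  unfold rk; split_ifs <;> omega

lemma rk_inj {s a b : ℕ} (hs : s ≤ n) (ha : a < n) (hb : b < n) (h : rk n s a = rk n s b) :
    a = b := by
  unfold rk at h; split_ifs at h <;> omega

lemma Dst_triv {c : ℕ} (h1 : 1 ≤ c) (h2 : c < n) (u : UG F n) :
    ¬ actS u (Dst F F n c) ≤ ⊥ ∧ ¬ ⊤ ≤ actS u (Dst F F n c) := by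
  have h3 : finrank F (actS u (Dst F F n c)) = n - c := by
    rw [finrank_actS, finrank_Dst (AlgHom.id F F) h2.le]
  constructor
  · intro h
    rw [le_bot_iff.mp h, finrank_bot] at h3; omega
  · intro h
    rw [top_le_iff.mp h, finrank_top, Module.finrank_fin_fun] at h3; omega

universe v

/-- links of nonempty faces are complexes of flags in general position -/
theorem link_Y (hε : ε t = 0) (ht : t ≠ 0) {ι : Type} [Finite ι] [DecidableEq ι] (col : ι → ℕ)
    (hcol : Function.Injective col) (hlt : ∀ s, col s < n) (S C : Finset ι) (hS : S.Nonempty)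
    (hC : C.Nonempty) (hd : Disjoint S C) :
    ∃ (D : GD F (Fin n → F) (n - 1)) (τ : Finset (Submodule F (Fin n → F))) (Cc : Finset ℕ),
      D.ok τ ∧ Cc ⊆ Free (n - 1) τ ∧ Cc.card = C.card ∧
      ∀ (k : Type v) [Field k] (e s R' : ℕ), BE k (D.Y τ Cc) e s R' →
        BE k (CC (fun s => KK ε n t (col s)) (KS (fun s => KK ε n t (col s)) S) C) e s R' := by
  obtain ⟨s0, hs0⟩ := hS
  have hne : ∀ s ∈ S.erase s0 ∪ C, col s ≠ col s0 := by
    intro s hs h
    rw [hcol h] at hs
    rcases mem_union.mp hs with h | h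
    · exact notMem_erase _ _ h
    · exact disjoint_left.mp hd hs0 h
  have hn : 0 < n := lt_of_le_of_lt (Nat.zero_le _) (hlt s0)
  have : Nonempty (Fin n) := ⟨⟨0, hn⟩⟩
  obtain ⟨D, τ, Cc, h1, h2, h3, h4⟩ := link_transfer.{v} (fun s => KK ε n t (col s))
    (Theta hε (col s0) (hlt s0).le) (fun s => rk n (col s0) (col s)) 1 (S.erase s0) C ⊥ ⊤
    (fun s hs => rk_bounds (hlt s0) (hlt s) (hne s hs))
    (fun s _ s' _ h => hcol (rk_inj (hlt s0).le (hlt s) (hlt s') h))
    (hd.mono_left (erase_subset _ _)) hC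
    (fun s hs u => Theta_mem_iff hε ht _ (hlt s) (hne s (mem_union_right _ hs)) u)
    bot_ne_top top_ne_bot (fun s hs => by
      have := rk_bounds (hlt s0) (hlt s) (hne s (mem_union_left _ hs))
      simpa only [actS_one] using Dst_triv this.1 this.2 (1 : UG F n))
  refine ⟨D, τ, Cc, h1, h2, h3, fun k _ e s R' h => ?_⟩
  convert h4 k e s R' h
  ext σ
  constructor
  · rintro ⟨x, hx, S', h5, rfl⟩
    have hx' := (mem_KS _).mp hx
    obtain ⟨u, rfl⟩ := exists_Theta hε (hlt s0).le (hx' s0 hs0)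
    refine ⟨u, fun s hs => (Theta_mem_iff hε ht _ (hlt s) (hne s (mem_union_left _ hs)) u).mp
      (hx' s (mem_of_mem_erase hs)), S', h5, fun s hs => ?_, by rw [one_mul]⟩
    have := rk_bounds (hlt s0) (hlt s) (hne s (mem_union_right _ (h5 hs)))
    exact Dst_triv this.1 this.2 u
  · rintro ⟨u, h5, S', h6, -, rfl⟩
    refine ⟨_, (mem_KS _).mpr (fun s hs => ?_), S', h6, by rw [one_mul]⟩
    by_cases h : s = s0
    · rw [h]; exact Theta_mem hε _ u
    · exact (Theta_mem_iff hε ht _ (hlt s) (fun h' => h (hcol h')) u).mpr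
        (h5 s (mem_erase.mpr ⟨h, hs⟩))

/-! ### the Heisenberg base case -/

lemma heis_U (i0 i1 j0 j1 : Fin n) (hi : (i1 : ℕ) = i0 + 1) (hj : (j1 : ℕ) = j0 + 1)
    (hij : i1 < j1) : ∃ h : F → F → F → UG F n,
    (∀ a b c a' b' c', h a b c * h a' b' c' = h (a + a') (b + b') (c + c' + a * b')) ∧
    (∀ a (c : ℕ), c ≠ i1 → h a 0 0 ∈ Uc F n c) ∧ (∀ b (c : ℕ), c ≠ j1 → h 0 b 0 ∈ Uc F n c) ∧
    ∀ u : UG F n, (∀ c : ℕ, 1 ≤ c → c < n → c ≠ i1 → c ≠ j1 → u ∈ Uc F n c) →
      ∃ a b c, u = h a b c := by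
  have hij' : (i1 : ℕ) < j1 := hij
  let E1 : Matrix (Fin n) (Fin n) F := single i0 i1 1
  let E2 : Matrix (Fin n) (Fin n) F := single j0 j1 1
  let M : F → F → F → Matrix (Fin n) (Fin n) F := fun a b c => 1 + a • E1 + b • E2 + c • (E1 * E2)
  have hM : ∀ a b c x y, M a b c x y = (if x = y then 1 else 0) + (if i0 = x ∧ i1 = y then a else 0)
      + (if j0 = x ∧ j1 = y then b else 0) + (if i1 = j0 ∧ i0 = x ∧ j1 = y then c else 0) := by
    intro a b c x y
    by_cases h : i1 = j0
    · subst h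
      simp [M, E1, E2, one_apply, single_apply]
    · simp [M, E1, E2, one_apply, single_apply, single_mul_single_of_ne _ _ _ _ h, h]
  have huni : ∀ a b c, IsUni (M a b c) := by
    intro a b c
    constructor
    · intro x y h
      have h' : (y : ℕ) < x := h
      rw [hM, if_neg h.ne', if_neg, if_neg, if_neg]
      · simp
      · rintro ⟨-, rfl, rfl⟩; omega
      · rintro ⟨rfl, rfl⟩; omega
      · rintro ⟨rfl, rfl⟩; omega
    · intro x
      rw [hM, if_pos rfl, if_neg, if_neg, if_neg]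
      · simp
      · rintro ⟨-, rfl, rfl⟩; omega
      · rintro ⟨rfl, rfl⟩; omega
      · rintro ⟨rfl, rfl⟩; omega
  have h11 : E1 * E1 = 0 := single_mul_single_of_ne _ _ _ _ (by rintro rfl; omega) _
  have h22 : E2 * E2 = 0 := single_mul_single_of_ne _ _ _ _ (by rintro rfl; omega) _
  have h21 : E2 * E1 = 0 := single_mul_single_of_ne _ _ _ _ (by rintro rfl; omega) _
  have h112 : E1 * (E1 * E2) = 0 := by rw [← mul_assoc, h11, zero_mul]
  have h212 : E2 * (E1 * E2) = 0 := by rw [← mul_assoc, h21, zero_mul]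
  refine ⟨fun a b c => mkU (M a b c) (huni a b c), ?_, ?_, ?_, ?_⟩
  · intro a b c a' b' c'
    apply mat_ext
    change M a b c * M a' b' c' = M _ _ _
    simp only [M, mul_add, add_mul, mul_one, one_mul, smul_mul_assoc, mul_smul_comm, mul_assoc,
      h11, h22, h21, h112, h212, mul_zero, smul_zero, add_zero]
    module
  · intro a c hc
    refine mem_Uc.mpr (fun x y h1 h2 => ?_)
    change M a 0 0 x y = 0
    rw [hM, if_neg (by rintro rfl; omega), if_neg (by rintro ⟨rfl, rfl⟩; omega)]
    simp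
  · intro b c hc
    refine mem_Uc.mpr (fun x y h1 h2 => ?_)
    change M 0 b 0 x y = 0
    rw [hM, if_neg (by rintro rfl; omega), if_neg (show ¬ (j0 = x ∧ j1 = y) by
      rintro ⟨rfl, rfl⟩; omega)]
    simp
  · intro u hu
    refine ⟨mat u i0 i1, mat u j0 j1, mat u i0 j1, mat_ext ?_⟩
    ext x y
    change _ = M _ _ _ x y
    rcases lt_trichotomy x y with h | h | h
    · have h' : (x : ℕ) < y := h
      have hz : ∀ c : ℕ, (x : ℕ) < c → c ≤ y → c ≠ i1 → c ≠ j1 → mat u x y = 0 :=
        fun c h1 h2 h3 h4 => mem_Uc.mp (hu c (by omega) (by omega) h3 h4) x y h1 h2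
      rw [hM, if_neg h.ne]
      by_cases h1 : i0 = x ∧ i1 = y
      · obtain ⟨rfl, rfl⟩ := h1
        rw [if_pos ⟨rfl, rfl⟩, if_neg (by rintro ⟨-, rfl⟩; omega),
          if_neg (by rintro ⟨-, -, rfl⟩; omega)]
        simp
      by_cases h2 : j0 = x ∧ j1 = y
      · obtain ⟨rfl, rfl⟩ := h2
        rw [if_neg h1, if_pos ⟨rfl, rfl⟩, if_neg (by rintro ⟨rfl, rfl, -⟩; omega)]
        simp
      by_cases h3 : i1 = j0 ∧ i0 = x ∧ j1 = y
      · rw [if_neg h1, if_neg h2, if_pos h3, h3.2.1, h3.2.2]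
        simp
      rw [if_neg h1, if_neg h2, if_neg h3]
      simp only [Fin.ext_iff] at h1 h2 h3
      simp only [add_zero]
      by_cases h4 : (x : ℕ) + 1 ≠ i1 ∧ (x : ℕ) + 1 ≠ j1
      · exact hz (x + 1) (by omega) (by omega) h4.1 h4.2
      by_cases h5 : (x : ℕ) + 2 ≠ j1
      · exact hz (x + 2) (by omega) (by omega) (by omega) h5
      · exact hz (x + 3) (by omega) (by omega) (by omega) (by omega)
    · subst h
      rw [(huni _ _ _).2, (matU_uni u).2]
    · rw [(huni _ _ _).1 _ _ h, (matU_uni u).1 _ _ h]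

theorem base_ang (hε : ε t = 0) (ht : t ≠ 0) (hn : 3 ≤ n) (S : Finset (Fin n)) (a b : Fin n)
    (ha : a ∉ S) (hb : b ∉ S) (hab : a ≠ b) (hS : S.card + 2 = n) :
    Ang (Inv (KS (fun s : Fin n => KK ε n t s) (insert a S)))
      (Inv (KS (fun s : Fin n => KK ε n t s) (insert b S)))
      (Inv (KS (fun s : Fin n => KK ε n t s) S)) (1 / √(Fintype.card F)) := by
  obtain ⟨s, hs⟩ : S.Nonempty := card_pos.mp (by omega)
  have hsym : ∀ a b : Fin n, Ang (Inv (KS (fun s : Fin n => KK ε n t s) (insert a S)))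
      (Inv (KS (fun s : Fin n => KK ε n t s) (insert b S)))
      (Inv (KS (fun s : Fin n => KK ε n t s) S)) (1 / √(Fintype.card F)) →
      Ang (Inv (KS (fun s : Fin n => KK ε n t s) (insert b S)))
      (Inv (KS (fun s : Fin n => KK ε n t s) (insert a S)))
      (Inv (KS (fun s : Fin n => KK ε n t s) S)) (1 / √(Fintype.card F)) := fun a b h =>
    h.symm (by positivity) (fun φ hφ x g hg => hφ x g (KS_anti _ (subset_insert _ _) hg))
  wlog hlt : rk n s a < rk n s b generalizing a b
  · apply hsym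
    refine this b a hb ha hab.symm (lt_of_le_of_ne (not_lt.mp hlt) (fun h => hab ?_))
    exact Fin.ext (rk_inj s.2.le a.2 b.2 h.symm)
  apply hsym
  have h1 := rk_bounds s.2 a.2 (fun h => ha (Fin.ext h ▸ hs))
  have h2 := rk_bounds s.2 b.2 (fun h => hb (Fin.ext h ▸ hs))
  obtain ⟨h, hm, hA, hB, hH⟩ := heis_U (F := F) ⟨rk n s a - 1, by omega⟩ ⟨rk n s a, h1.2⟩
    ⟨rk n s b - 1, by omega⟩ ⟨rk n s b, h2.2⟩ (by simp only; omega) (by simp only; omega) hlt
  have key : ∀ u : UG F n, ∀ s' : Fin n, (s' ≠ s → u ∈ Uc F n (rk n s s')) →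
      Theta hε s s.2.le u ∈ KK ε n t s' := by
    intro u s' h
    by_cases h' : s' = s
    · rw [h']; exact Theta_mem hε _ u
    · exact (Theta_mem_iff hε ht _ s'.2 (fun h => h' (Fin.ext h)) u).mpr (h h')
  refine heis (fun x y z => Theta hε s s.2.le (h x y z)) (fun _ _ _ _ _ _ => by
    rw [← map_mul, hm]) _ _ _ ?_ ?_ ?_
  · intro x
    refine (mem_KS _).mpr (fun s' hs' => key _ s' (fun _ => hA x _ (fun h => ?_)))
    have := Fin.ext (rk_inj s.2.le s'.2 a.2 h)
    subst this
    rcases mem_insert.mp hs' with h | h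
    · exact hab h
    · exact ha h
  · intro x
    refine (mem_KS _).mpr (fun s' hs' => key _ s' (fun _ => hB x _ (fun h => ?_)))
    have := Fin.ext (rk_inj s.2.le s'.2 b.2 h)
    subst this
    rcases mem_insert.mp hs' with h | h
    · exact hab h.symm
    · exact hb h
  · intro g hg
    have hg' := (mem_KS _).mp hg
    obtain ⟨u, rfl⟩ := exists_Theta hε s.2.le (hg' s hs)
    obtain ⟨x, y, z, rfl⟩ := hH u (by
      intro c h3 h4 h5 h6
      obtain ⟨s', hs'⟩ := (rot n s s.2.le).surjective ⟨c, h4⟩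
      have h7 : rk n s s' = c := congrArg Fin.val hs'
      have h8 : s' ∈ S := by
        have h9 : insert a (insert b S) = univ := by
          apply eq_univ_of_card
          rw [card_insert_of_notMem (by simp [hab, ha]), card_insert_of_notMem hb]
          simpa using hS
        have := h9 ▸ mem_univ s'
        simp only [mem_insert] at this
        rcases this with rfl | rfl | h
        · exact absurd h7.symm h5
        · exact absurd h7.symm h6
        · exact h
      rw [← h7]
      refine (Theta_mem_iff hε ht _ s'.2 (fun h => ?_) u).mp (hg' s' h8)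
      rw [h] at h7
      simp [rk] at h7
      omega)
    exact ⟨x, y, z, rfl⟩

end

end Vale.Agent.P067
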