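import Vale.Agent.P067.Opp
import Vale.Agent.P067.EK1

/-! The Iwahori-type groups, their action on subspaces, and the link lemma. -/

namespace Vale.Agent.P067

open Finset Module Matrix

def subOf {G : Type*} [Group G] [Finite G] (S : Submonoid G) : Subgroup G :=
  { S with
    inv_mem' := fun {x} hx => (Submonoid.powers_le.mpr hx : Submonoid.powers x ≤ S)
      (mem_powers_iff_mem_zpowers.mpr (Subgroup.inv_mem _ (Subgroup.mem_zpowers x))) }

def IsUni {R : Type*} [CommRing R] {n : ℕ} (u : Matrix (Fin n) (Fin n) R) : Prop :=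
  (∀ a b, b < a → u a b = 0) ∧ ∀ a, u a a = 1

section
variable {R : Type*} [CommRing R] {n : ℕ}

lemma IsUni.one : IsUni (1 : Matrix (Fin n) (Fin n) R) :=
  ⟨fun _ _ h => one_apply_ne h.ne', fun _ => one_apply_eq _⟩

lemma IsUni.mul {u v : Matrix (Fin n) (Fin n) R} (hu : IsUni u) (hv : IsUni v) :
    IsUni (u * v) := by
  constructor
  · intro a b h
    rw [mul_apply]
    refine Finset.sum_eq_zero (fun c _ => ?_)
    by_cases h1 : c < a
    · rw [hu.1 a c h1, zero_mul]
    · rw [hv.1 c b (lt_of_lt_of_le h (not_lt.mp h1)), mul_zero]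
  · intro a
    rw [mul_apply, Finset.sum_eq_single a, hu.2, hv.2, mul_one]
    · intro c _ hc
      rcases lt_or_gt_of_ne hc with h | h
      · rw [hu.1 a c h, zero_mul]
      · rw [hv.1 c a h, mul_zero]
    · simp

lemma IsUni.det {u : Matrix (Fin n) (Fin n) R} (hu : IsUni u) : u.det = 1 := by
  rw [det_of_isUpperTriangular (fun a b h => hu.1 a b h)]
  simp [hu.2]

end

section
variable {F R : Type} [Field F] [CommRing R] [Algebra F R] [Finite R] (ε : R →ₐ[F] F) (n : ℕ)

def PS : Subgroup (SpecialLinearGroup (Fin n) R) := subOf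
  { carrier := {g | IsUni (g.1.map ε)}
    mul_mem' := by
      intro a b ha hb
      change IsUni ((a.1 * b.1).map ε)
      rw [Matrix.map_mul]
      exact IsUni.mul ha hb
    one_mem' := by
      change IsUni ((1 : Matrix (Fin n) (Fin n) R).map ε)
      rw [Matrix.map_one _ (map_zero ε) (map_one ε)]
      exact IsUni.one }

def PG : Type := PS ε n

instance : Group (PG ε n) := inferInstanceAs (Group (PS ε n))
instance : Finite (PG ε n) := inferInstanceAs (Finite (PS ε n))
noncomputable instance : Fintype (PG ε n) := Fintype.ofFinite _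

variable {ε n}

def mat (g : PG ε n) : Matrix (Fin n) (Fin n) R := g.1.1

lemma mat_mul (g h : PG ε n) : mat (g * h) = mat g * mat h := rfl
lemma mat_one : mat (1 : PG ε n) = 1 := rfl
lemma mat_det (g : PG ε n) : (mat g).det = 1 := g.1.2
lemma mat_uni (g : PG ε n) : IsUni ((mat g).map ε) := g.2
lemma mat_lt (g : PG ε n) {a b : Fin n} (h : b < a) : ε (mat g a b) = 0 := (mat_uni g).1 a b h
lemma mat_diag (g : PG ε n) (a : Fin n) : ε (mat g a a) = 1 := (mat_uni g).2 a
lemma mat_ext {g h : PG ε n} (H : mat g = mat h) : g = h := Subtype.ext (Subtype.ext H)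
lemma mat_mul_inv (g : PG ε n) : mat g * mat g⁻¹ = 1 := by rw [← mat_mul, mul_inv_cancel, mat_one]
lemma mat_inv_mul (g : PG ε n) : mat g⁻¹ * mat g = 1 := by rw [← mat_mul, inv_mul_cancel, mat_one]

def mkP (M : Matrix (Fin n) (Fin n) R) (h1 : M.det = 1) (h2 : IsUni (M.map ε)) : PG ε n :=
  ⟨⟨M, h1⟩, h2⟩

@[simp] lemma mat_mkP (M : Matrix (Fin n) (Fin n) R) (h1 : M.det = 1) (h2 : IsUni (M.map ε)) :
    mat (mkP M h1 h2) = M := rfl

def lin (g : PG ε n) : (Fin n → R) →ₗ[F] (Fin n → R) := (mat g).mulVecLin.restrictScalars F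

lemma lin_apply (g : PG ε n) (v : Fin n → R) : lin g v = mat g *ᵥ v := rfl
lemma lin_mul (g h : PG ε n) (v : Fin n → R) : lin (g * h) v = lin g (lin h v) := by
  simp [lin_apply, mat_mul]
lemma lin_one (v : Fin n → R) : lin (1 : PG ε n) v = v := by simp [lin_apply, mat_one]
lemma lin_inj (g : PG ε n) : Function.Injective (lin g) := by
  intro v w h
  rw [← lin_one (ε := ε) v, ← lin_one (ε := ε) w, ← inv_mul_cancel g, lin_mul, lin_mul, h]

def actS (g : PG ε n) (W : Submodule F (Fin n → R)) : Submodule F (Fin n → R) := W.map (lin g)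

lemma actS_mul (g h : PG ε n) (W : Submodule F (Fin n → R)) :
    actS (g * h) W = actS g (actS h W) := by
  simp only [actS, ← Submodule.map_comp]
  congr 1
  exact LinearMap.ext (lin_mul g h)

lemma actS_one (W : Submodule F (Fin n → R)) : actS (1 : PG ε n) W = W := by
  rw [actS, show lin (1 : PG ε n) = LinearMap.id from LinearMap.ext lin_one, Submodule.map_id]

lemma actS_mono (g : PG ε n) {W W' : Submodule F (Fin n → R)} (h : W ≤ W') :
    actS g W ≤ actS g W' := Submodule.map_mono h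

lemma finrank_actS (g : PG ε n) (W : Submodule F (Fin n → R)) :
    finrank F (actS g W) = finrank F W :=
  (Submodule.equivMapOfInjective _ (lin_inj g) W).finrank_eq.symm

lemma mem_actS {g : PG ε n} {W : Submodule F (Fin n → R)} {v : Fin n → R} :
    v ∈ actS g W ↔ lin g⁻¹ v ∈ W := by
  constructor
  · rintro ⟨w, hw, rfl⟩
    rwa [← lin_mul, inv_mul_cancel, lin_one]
  · intro h
    exact ⟨_, h, by rw [← lin_mul, mul_inv_cancel, lin_one]⟩

variable (ε n) in
def Fl (c : ℕ) : Submodule F (Fin n → R) where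
  carrier := {v | ∀ a : Fin n, n ≤ a + c → ε (v a) = 0}
  add_mem' := by intro v w hv hw a ha; simp [hv a ha, hw a ha]
  zero_mem' := by intro a _; simp
  smul_mem' := by intro r v hv a ha; simp [hv a ha]

omit [Finite R] in
lemma Fl_anti : Antitone (Fl ε n) := fun _ _ h _ hv a ha => hv a (by omega)

lemma finrank_ker_coord (S : Finset (Fin n)) (W : Submodule F (Fin n → R))
    (hW : ∀ v, v ∈ W ↔ ∀ a ∈ S, ε (v a) = 0) : finrank F W + S.card = finrank F (Fin n → R) := by
  let φ : (Fin n → R) →ₗ[F] (S → F) :=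
    LinearMap.pi (fun a => ε.toLinearMap ∘ₗ LinearMap.proj a.1)
  have h1 : LinearMap.ker φ = W := by
    ext v
    simp [φ, hW, funext_iff]
  have h2 : LinearMap.range φ = ⊤ := by
    rw [LinearMap.range_eq_top]
    intro w
    refine ⟨fun a => if h : a ∈ S then algebraMap F R (w ⟨a, h⟩) else 0, ?_⟩
    funext a
    simp [φ, a.2]
  have := φ.finrank_range_add_finrank_ker
  rw [h1, h2, finrank_top, Module.finrank_fintype_fun_eq_card, Fintype.card_coe] at this
  omega

lemma finrank_Fl (c : ℕ) (hc : c ≤ n) : finrank F (Fl ε n c) + c = finrank F (Fin n → R) := by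
  have := finrank_ker_coord (ε := ε) (univ.filter (fun a : Fin n => n ≤ a + c)) (Fl ε n c)
    (fun v => by simp [Fl])
  rw [← this]
  congr 1
  have h1 : (univ.filter (fun a : Fin n => n ≤ a + c)).map Fin.valEmbedding = Ico (n - c) n := by
    ext x
    simp only [mem_map, mem_filter, mem_univ, true_and, Fin.valEmbedding_apply, mem_Ico]
    constructor
    · rintro ⟨a, h, rfl⟩; omega
    · intro h; exact ⟨⟨x, h.2⟩, by simp; omega, rfl⟩
  have := congrArg card h1
  simp only [card_map, Nat.card_Ico] at this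
  omega

lemma lin_mem_Fl (g : PG ε n) {c : ℕ} {v : Fin n → R} (hv : v ∈ Fl ε n c) : lin g v ∈ Fl ε n c := by
  intro a ha
  simp only [lin_apply, mulVec, dotProduct, map_sum, map_mul]
  refine Finset.sum_eq_zero (fun b _ => ?_)
  by_cases h : b < a
  · rw [mat_lt g h, zero_mul]
  · rw [hv b (by omega), mul_zero]

variable (F R n) in
def Dst (s : ℕ) : Submodule F (Fin n → R) where
  carrier := {v | ∀ a : Fin n, ∃ c : F, v a = algebraMap F R c ∧ (a < s → c = 0)}
  add_mem' := by
    intro v w hv hw a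
    obtain ⟨c, h1, h2⟩ := hv a
    obtain ⟨c', h1', h2'⟩ := hw a
    exact ⟨c + c', by simp [h1, h1'], fun h => by simp [h2 h, h2' h]⟩
  zero_mem' := fun _ => ⟨0, by simp, fun _ => rfl⟩
  smul_mem' := by
    intro r v hv a
    obtain ⟨c, h1, h2⟩ := hv a
    exact ⟨r * c, by simp [h1, Algebra.smul_def], fun h => by simp [h2 h]⟩

omit [Finite R] in
lemma Dst_anti : Antitone (Dst F R n) := by
  intro s s' h v hv a
  obtain ⟨c, h1, h2⟩ := hv a
  exact ⟨c, h1, fun h' => h2 (by omega)⟩

omit [Finite R] in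
lemma single_mem_Dst {s : ℕ} {b : Fin n} (h : s ≤ b) :
    (Pi.single b 1 : Fin n → R) ∈ Dst F R n s := by
  intro a
  by_cases h1 : a = b
  · subst h1; exact ⟨1, by simp, fun h' => by omega⟩
  · exact ⟨0, by simp [h1], fun _ => rfl⟩

omit [Finite R] in
lemma map_Dst_le {M : Type*} [AddCommGroup M] [Module F M] (φ : (Fin n → R) →ₗ[F] M) (s : ℕ)
    (H : Submodule F M) :
    (Dst F R n s).map φ ≤ H ↔ ∀ b : Fin n, s ≤ b → φ (Pi.single b 1) ∈ H := by
  constructor
  · intro h b hb
    exact h ⟨_, single_mem_Dst hb, rfl⟩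
  · rintro h _ ⟨v, hv, rfl⟩
    choose c hc using hv
    have : v = ∑ b, c b • (Pi.single b 1 : Fin n → R) := by
      funext a
      simp [Finset.sum_apply, Pi.single_apply, (hc a).1, Algebra.algebraMap_eq_smul_one]
    rw [this, map_sum]
    refine H.sum_mem (fun b _ => ?_)
    by_cases hb : s ≤ b
    · rw [map_smul]; exact H.smul_mem _ (h b hb)
    · simp [(hc b).2 (by omega)]

omit [Finite R] in
lemma Dst_inf_Fl {s : ℕ} (hs : s ≤ n) : Dst F R n s ⊓ Fl ε n (n - s) = ⊥ := by
  rw [eq_bot_iff]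
  rintro v ⟨h1, h2⟩
  funext a
  obtain ⟨c, h3, h4⟩ := h1 a
  by_cases h : (a : ℕ) < s
  · simp [h3, h4 h]
  · have := h2 a (by omega)
    rw [h3] at this
    simp only [AlgHom.commutes, Algebra.algebraMap_self, RingHom.id_apply] at this
    simp [h3, this]

omit [Finite R] in
lemma Dst_sup_Fl {s c : ℕ} (hs : s + c ≤ n) : Dst F R n s ⊔ Fl ε n c = ⊤ := by
  rw [eq_top_iff]
  intro v _
  let w : Fin n → R := fun a => if n ≤ a + c then algebraMap F R (ε (v a)) else 0
  have : v = w + (v - w) := by abel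
  rw [this]
  refine Submodule.add_mem_sup (fun a => ?_) (fun a ha => by simp [w, ha])
  by_cases h : n ≤ a + c
  · exact ⟨ε (v a), by simp [w, h], fun h' => by omega⟩
  · exact ⟨0, by simp [w, h], fun _ => rfl⟩

variable (ε) in
include ε in
lemma finrank_Dst {s : ℕ} (hs : s ≤ n) : finrank F (Dst F R n s) = n - s := by
  have h1 := Submodule.finrank_sup_add_finrank_inf_eq (Dst F R n s) (Fl ε n (n - s))
  rw [Dst_inf_Fl hs, Dst_sup_Fl (by omega), finrank_bot, finrank_top] at h1
  have := finrank_Fl (ε := ε) (n := n) (n - s) (by omega)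
  omega

lemma actS_inf_Fl (g : PG ε n) {W : Submodule F (Fin n → R)} {c : ℕ} (h : W ⊓ Fl ε n c = ⊥) :
    actS g W ⊓ Fl ε n c = ⊥ := by
  rw [eq_bot_iff]
  rintro v ⟨h1, h2⟩
  have h3 : lin g⁻¹ v ∈ W ⊓ Fl ε n c := ⟨mem_actS.mp h1, lin_mem_Fl _ h2⟩
  rw [h, Submodule.mem_bot] at h3
  exact lin_inj g⁻¹ (by rw [h3, map_zero])

lemma actS_sup_Fl (g : PG ε n) {W : Submodule F (Fin n → R)} {c : ℕ} (h : W ⊔ Fl ε n c = ⊤) :
    actS g W ⊔ Fl ε n c = ⊤ := by
  rw [eq_top_iff]
  intro v _
  obtain ⟨y, hy, z, hz, h1⟩ := Submodule.mem_sup.mp (h ▸ Submodule.mem_top (x := lin g⁻¹ v))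
  have : v = lin g y + lin g z := by rw [← map_add, h1, ← lin_mul, mul_inv_cancel, lin_one]
  rw [this]
  exact Submodule.add_mem_sup ⟨y, hy, rfl⟩ (lin_mem_Fl g hz)

theorem transitive (hunit : ∀ r, ε r = 1 → IsUnit r) (ω : Finset (Submodule F (Fin n → R)))
    (h1 : ∀ W ∈ ω, finrank F W < n ∧ W ⊓ Fl ε n (finrank F W) = ⊥)
    (h2 : ∀ W ∈ ω, ∀ W' ∈ ω, W ≤ W' ∨ W' ≤ W) :
    ∃ g : PG ε n, ∀ W ∈ ω, W = actS g (Dst F R n (n - finrank F W)) := by
  classical
  let _ : Fintype R := Fintype.ofFinite _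
  have key : ∀ b : Fin n, ∃ x : Fin n → R, (∀ a, b < a → ε (x a) = 0) ∧ ε (x b) = 1 ∧
      ∀ W ∈ ω, n - finrank F W ≤ b → x ∈ W := by
    intro b
    by_cases h : (ω.filter (fun W : Submodule F (Fin n → R) => n - finrank F W ≤ b)).Nonempty
    · obtain ⟨W, hW, hmin⟩ := exists_min_image _
        (fun W : Submodule F (Fin n → R) => finrank F W) h
      rw [mem_filter] at hW
      have h3 : W ⊔ Fl ε n (finrank F W) = ⊤ := by
        apply Submodule.eq_top_of_finrank_eq
        have h4 := Submodule.finrank_sup_add_finrank_inf_eq W (Fl ε n (finrank F W))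
        rw [(h1 W hW.1).2, finrank_bot] at h4
        have := finrank_Fl (ε := ε) (n := n) _ (h1 W hW.1).1.le
        omega
      obtain ⟨y, hy, z, hz, h4⟩ := Submodule.mem_sup.mp
        (h3 ▸ Submodule.mem_top (x := (Pi.single b 1 : Fin n → R)))
      have h5 : ∀ a, b ≤ a → ε (y a) = ε ((Pi.single b 1 : Fin n → R) a) := by
        intro a ha
        have := hW.2
        rw [← h4, Pi.add_apply, map_add, hz a (by have : (b : ℕ) ≤ a := ha; omega), add_zero]
      refine ⟨y, fun a ha => by rw [h5 a ha.le]; simp [ha.ne'], by rw [h5 b le_rfl]; simp, ?_⟩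
      intro W' hW' h6
      exact le_of_comp (h2 W hW.1 W' hW') (hmin W' (mem_filter.mpr ⟨hW', h6⟩)) hy
    · refine ⟨Pi.single b 1, fun a ha => by simp [ha.ne'], by simp, fun W hW h3 => ?_⟩
      exact absurd ⟨W, mem_filter.mpr ⟨hW, h3⟩⟩ h
  choose x hx using key
  let M : Matrix (Fin n) (Fin n) R := Matrix.of (fun a b => x b a)
  have hM : IsUni (M.map ε) := ⟨fun a b h => (hx b).1 a h, fun a => (hx a).2.1⟩
  have hdet : ε M.det = 1 := by
    rw [← hM.det]
    exact ε.toRingHom.map_det M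
  obtain ⟨d, hd⟩ := (hunit _ hdet).exists_right_inv
  have hd1 : ε d = 1 := by
    have := congrArg ε hd
    rwa [map_mul, hdet, one_mul, map_one] at this
  let δ : Fin n → R := fun b => if (b : ℕ) = 0 then d else 1
  rcases Nat.eq_zero_or_pos n with rfl | hn
  · exact ⟨1, fun W hW => absurd (h1 W hW).1 (Nat.not_lt_zero _)⟩
  refine ⟨mkP (M * diagonal δ) ?_ ?_, ?_⟩
  · rw [det_mul, det_diagonal, Finset.prod_eq_single ⟨0, hn⟩]
    · simpa [δ] using hd
    · intro b _ hb
      simp only [δ]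
      rw [if_neg (fun h => hb (Fin.ext h))]
    · simp
  · rw [Matrix.map_mul]
    refine hM.mul ⟨fun a b h => by simp [diagonal_apply_ne _ h.ne'], fun a => ?_⟩
    simp only [map_apply, diagonal_apply_eq, δ]
    split_ifs <;> simp [hd1]
  · intro W hW
    symm
    apply Submodule.eq_of_le_of_finrank_eq
    · rw [actS, map_Dst_le]
      intro b hb
      have := (h1 W hW).1
      have h3 : δ b = 1 := by simp only [δ]; rw [if_neg (by omega)]
      convert (hx b).2.2 W hW hb
      funext a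
      simp [lin_apply, h3, M]
    · rw [finrank_actS, finrank_Dst ε (by omega)]
      have := (h1 W hW).1
      omega

/-- shape of the entries of the vertex groups -/
def tau (t : R) (s a b : ℕ) : R := if a < s then (if b < s then 1 else 0) else
  (if b < s then t else 1)

variable (ε n) in
def KK (t : R) (s : ℕ) : Subgroup (PG ε n) := subOf
  { carrier := {g | ∀ a b : Fin n, ∃ c : F, mat g a b = c • tau t s a b}
    mul_mem' := by
      intro g h hg hh a b
      choose c hc using hg
      choose c' hc' using hh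
      refine ⟨∑ x : Fin n, if (s ≤ (a : ℕ) ↔ s ≤ (b : ℕ)) ∧ ¬ (s ≤ (a : ℕ) ↔ s ≤ (x : ℕ)) then 0 else
        c a x * c' x b, ?_⟩
      rw [mat_mul, mul_apply, Finset.sum_smul]
      refine Finset.sum_congr rfl (fun x _ => ?_)
      rw [hc, hc']
      by_cases h1 : (a : ℕ) < s <;> by_cases h2 : (b : ℕ) < s <;> by_cases h3 : (x : ℕ) < s <;>
        simp [tau, h1, h2, h3, ← not_lt, smul_smul, mul_comm]
    one_mem' := by
      intro a b
      by_cases h : a = b
      · subst h
        exact ⟨1, by by_cases h1 : (a : ℕ) < s <;> simp [mat_one, tau, h1]⟩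
      · exact ⟨0, by simp [mat_one, h]⟩ }

lemma mem_KK {t : R} {s : ℕ} {g : PG ε n} :
    g ∈ KK ε n t s ↔ ∀ a b : Fin n, ∃ c : F, mat g a b = c • tau t s a b := Iff.rfl

lemma actS_Dst_le {t : R} {s : ℕ} {g : PG ε n} (hg : g ∈ KK ε n t s) :
    actS g (Dst F R n s) ≤ Dst F R n s := by
  rw [actS, map_Dst_le]
  intro b hb a
  obtain ⟨c, hc⟩ := hg a b
  by_cases h : (a : ℕ) < s
  · exact ⟨0, by simp [lin_apply, hc, tau, h, not_lt.mpr hb], fun _ => rfl⟩
  · exact ⟨c, by simp [lin_apply, hc, tau, h, not_lt.mpr hb, Algebra.algebraMap_eq_smul_one],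
      fun h' => absurd h' h⟩

lemma actS_Dst {t : R} {s : ℕ} {g : PG ε n} (hg : g ∈ KK ε n t s) :
    actS g (Dst F R n s) = Dst F R n s :=
  Submodule.eq_of_le_of_finrank_eq (actS_Dst_le hg) (finrank_actS _ _)

end

section U
variable {F : Type} [Field F] [Fintype F] {n : ℕ}

variable (F n) in
abbrev UG := PG (AlgHom.id F F) n

variable (F n) in
abbrev Uc (c : ℕ) : Subgroup (UG F n) := KK (AlgHom.id F F) n 0 c

lemma matU_uni (u : UG F n) : IsUni (mat u) := mat_uni u

def mkU (M : Matrix (Fin n) (Fin n) F) (h : IsUni M) : UG F n := mkP M h.det h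

lemma mat_mkU (M : Matrix (Fin n) (Fin n) F) (h : IsUni M) : mat (mkU M h) = M := rfl

lemma mem_Uc {c : ℕ} {u : UG F n} :
    u ∈ Uc F n c ↔ ∀ a b : Fin n, (a : ℕ) < c → c ≤ b → mat u a b = 0 := by
  constructor
  · intro h a b h1 h2
    obtain ⟨x, hx⟩ := h a b
    simpa [tau, h1, not_lt.mpr h2] using hx
  · intro h a b
    refine ⟨mat u a b, ?_⟩
    by_cases h1 : (a : ℕ) < c <;> by_cases h2 : (b : ℕ) < c
    · simp [tau, h1, h2]
    · simp [tau, h1, h2, h a b h1 (not_lt.mp h2)]
    · simp [tau, h1, h2, (matU_uni u).1 a b (show (b : ℕ) < a by omega)]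
    · simp [tau, h1, h2]

omit [Fintype F] in
lemma mem_DstF {c : ℕ} {v : Fin n → F} : v ∈ Dst F F n c ↔ ∀ a : Fin n, (a : ℕ) < c → v a = 0 := by
  constructor
  · intro h a ha
    obtain ⟨x, h1, h2⟩ := h a
    simp [h1, h2 ha]
  · intro h a
    exact ⟨v a, rfl, h a⟩

lemma actS_Dst_iff {c : ℕ} {u : UG F n} : actS u (Dst F F n c) = Dst F F n c ↔ u ∈ Uc F n c := by
  refine ⟨fun h => mem_Uc.mpr (fun a b h1 h2 => ?_), actS_Dst⟩
  have := mem_DstF.mp ((map_Dst_le _ _ _).mp h.le b h2) a h1
  simpa [lin_apply] using this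

universe v

theorem link_transfer {ι G : Type} [Finite ι] [DecidableEq ι] [Group G] [Finite G]
    (K : ι → Subgroup G) (Θ : UG F n →* G) (cut : ι → ℕ) (x : G) (S0 C : Finset ι)
    (H H' : Submodule F (Fin n → F)) (hcut : ∀ s ∈ S0 ∪ C, 1 ≤ cut s ∧ cut s < n)
    (hinj : Set.InjOn cut (S0 ∪ C : Finset ι)) (hdisj : Disjoint S0 C) (hC : C.Nonempty)
    (hΘ : ∀ s ∈ C, ∀ u, Θ u ∈ K s ↔ u ∈ Uc F n (cut s)) (hH : H ≠ ⊤) (hH' : H' ≠ ⊥)
    (hS0 : ∀ s ∈ S0, ¬ Dst F F n (cut s) ≤ H ∧ ¬ H' ≤ Dst F F n (cut s)) :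
    ∃ (D : GD F (Fin n → F) (n - 1)) (τ : Finset (Submodule F (Fin n → F))) (Cc : Finset ℕ),
      D.ok τ ∧ Cc ⊆ Free (n - 1) τ ∧ Cc.card = C.card ∧
      ∀ (k : Type v) [Field k] (e s R : ℕ), BE k (D.Y τ Cc) e s R →
        BE k {σ | ∃ u : UG F n, (∀ s ∈ S0, u ∈ Uc F n (cut s)) ∧ ∃ S' ⊆ C,
          (∀ s ∈ S', ¬ actS u (Dst F F n (cut s)) ≤ H ∧ ¬ H' ≤ actS u (Dst F F n (cut s))) ∧
          σ = face K (x * Θ u) S'} e s R := by
  classical
  obtain ⟨c0, hc0⟩ := hC
  have hn : 1 ≤ n := by have := hcut c0 (mem_union_right _ hc0); omega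
  let D : GD F (Fin n → F) (n - 1) :=
    { Fl := Fl (AlgHom.id F F) n, top := ⊤, H := H, H' := H', anti := Fl_anti
      rk := fun c hc => finrank_Fl c (by omega), htop := top_sup_eq _
      hH := fun h => hH (top_le_iff.mp h), hH' := hH' }
  have hfr : ∀ (u : UG F n), ∀ s ∈ S0 ∪ C, finrank F (actS u (Dst F F n (cut s))) = n - cut s :=
    fun u s hs => by rw [finrank_actS, finrank_Dst (AlgHom.id F F) (hcut s hs).2.le]
  have hgood : ∀ (u : UG F n), ∀ s ∈ S0 ∪ C, ¬ actS u (Dst F F n (cut s)) ≤ H →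
      ¬ H' ≤ actS u (Dst F F n (cut s)) → D.good (actS u (Dst F F n (cut s))) := by
    intro u s hs h1 h2
    have := hcut s hs
    refine ⟨le_top, by rw [hfr u s hs]; omega, by rw [hfr u s hs]; omega, ?_, h1, h2⟩
    rw [hfr u s hs]
    exact actS_inf_Fl u (Dst_inf_Fl this.2.le)
  have hcomp : ∀ (u : UG F n) (c c' : ℕ), actS u (Dst F F n c) ≤ actS u (Dst F F n c') ∨
      actS u (Dst F F n c') ≤ actS u (Dst F F n c) := fun u c c' =>
    (le_total c' c).imp (fun h => actS_mono u (Dst_anti h)) (fun h => actS_mono u (Dst_anti h))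
  have hτ : D.ok (S0.image (fun s => Dst F F n (cut s))) := by
    constructor
    · intro W hW
      obtain ⟨s, hs, rfl⟩ := mem_image.mp hW
      have := hgood 1 s (mem_union_left _ hs)
      rw [actS_one] at this
      exact this (hS0 s hs).1 (hS0 s hs).2
    · intro W hW W' hW'
      obtain ⟨s, -, rfl⟩ := mem_image.mp hW
      obtain ⟨s', -, rfl⟩ := mem_image.mp hW'
      simpa only [actS_one] using hcomp 1 (cut s) (cut s')
  refine ⟨D, S0.image (fun s => Dst F F n (cut s)), C.image (fun s => n - cut s), hτ, ?_, ?_, ?_⟩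
  · intro c hc
    obtain ⟨s, hs, rfl⟩ := mem_image.mp hc
    have h1 := hcut s (mem_union_right _ hs)
    simp only [Free, mem_filter, mem_Icc, mem_image, forall_exists_index, and_imp,
      forall_apply_eq_imp_iff₂]
    refine ⟨by omega, fun s' hs' h => ?_⟩
    have h2 := hcut s' (mem_union_left _ hs')
    rw [finrank_Dst (AlgHom.id F F) h2.2.le] at h
    have h3 : s' = s := hinj (mem_coe.mpr (mem_union_left _ hs'))
      (mem_coe.mpr (mem_union_right _ hs)) (by omega)
    exact disjoint_left.mp hdisj hs' (h3 ▸ hs)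
  · apply card_image_of_injOn
    intro s hs s' hs' h
    have h1 := hcut s (mem_union_right _ hs)
    have h2 := hcut s' (mem_union_right _ hs')
    exact hinj (mem_coe.mpr (mem_union_right _ hs)) (mem_coe.mpr (mem_union_right _ hs'))
      (by simp only at h; omega)
  intro k _ e s R hbe
  have : Nonempty (UG F n × ι) := ⟨(1, c0)⟩
  let 𝒮 : Set (Finset (UG F n × ι)) := {T | ∃ u : UG F n, (∀ s ∈ S0, u ∈ Uc F n (cut s)) ∧ ∃ S' ⊆ C,
    (∀ s ∈ S', ¬ actS u (Dst F F n (cut s)) ≤ H ∧ ¬ H' ≤ actS u (Dst F F n (cut s))) ∧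
    T = S'.image (fun s => (u, s))}
  have key := BE.transport_param (k := k) (e := e) (s := s) (R := R)
    (fun p : UG F n × ι => actS p.1 (Dst F F n (cut p.2)))
    (fun p => vx K (x * Θ p.1) p.2) {p | p.2 ∈ C} (by
      rintro ⟨u, s⟩ hs ⟨u', s'⟩ hs'
      simp only [Set.mem_ofPred_eq] at hs hs'
      simp only [vx_eq, _root_.mul_inv_rev, mul_assoc, inv_mul_cancel_left, ← map_inv, ← map_mul,
        hΘ s hs, ← actS_Dst_iff]
      constructor
      · intro h
        have h1 := hfr u s (mem_union_right _ hs)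
        have h2 := hcut s (mem_union_right _ hs)
        have h3 := hcut s' (mem_union_right _ hs')
        rw [h, hfr u' s' (mem_union_right _ hs')] at h1
        have h4 : s = s' := hinj (mem_coe.mpr (mem_union_right _ hs))
          (mem_coe.mpr (mem_union_right _ hs')) (by omega)
        subst h4
        exact ⟨rfl, by rw [actS_mul, ← h, ← actS_mul, inv_mul_cancel, actS_one]⟩
      · rintro ⟨rfl, h⟩
        rw [← h, ← actS_mul, mul_inv_cancel_left, h]) 𝒮 (by
      rintro _ ⟨u, -, S', h1, -, rfl⟩ p hp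
      simp only [coe_image, Set.mem_image, mem_coe] at hp
      obtain ⟨s, hs, rfl⟩ := hp
      exact h1 hs) (by
      convert hbe
      ext ρ
      constructor
      · rintro ⟨_, ⟨u, h1, S', h2, h3, rfl⟩, rfl⟩
        simp only [image_image]
        constructor
        · intro W hW
          obtain ⟨s, hs, rfl⟩ := mem_image.mp hW
          refine ⟨hgood u s (mem_union_right _ (h2 hs)) (h3 s hs).1 (h3 s hs).2, ?_, ?_⟩
          · exact mem_image.mpr ⟨s, h2 hs, (hfr u s (mem_union_right _ (h2 hs))).symm⟩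
          · intro U hU
            obtain ⟨s', hs', rfl⟩ := mem_image.mp hU
            rw [← actS_Dst (h1 s' hs')]
            exact hcomp _ _ _
        · intro W hW W' hW'
          obtain ⟨s, -, rfl⟩ := mem_image.mp hW
          obtain ⟨s', -, rfl⟩ := mem_image.mp hW'
          exact hcomp _ _ _
      · rintro ⟨h1, h2⟩
        obtain ⟨u, hu⟩ := transitive (ε := AlgHom.id F F) (n := n)
          (fun r hr => by simp only [AlgHom.coe_id, id_eq] at hr; rw [hr]; exact isUnit_one)
          (ρ ∪ S0.image (fun s => Dst F F n (cut s))) (by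
            intro W hW
            have hg : D.good W := by
              rcases mem_union.mp hW with h | h
              · exact (h1 W h).1
              · exact hτ.1 W h
            exact ⟨by have := hg.2.2.1; omega, hg.2.2.2.1⟩) (by
            intro W hW W' hW'
            rcases mem_union.mp hW with h | h <;> rcases mem_union.mp hW' with h' | h'
            · exact h2 W h W' h'
            · exact (h1 W h).2.2 W' h'
            · exact ((h1 W' h').2.2 W h).symm
            · exact hτ.2 W h W' h')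
        refine ⟨_, ⟨u, ?_, C.filter (fun s => actS u (Dst F F n (cut s)) ∈ ρ), filter_subset _ _,
          ?_, rfl⟩, ?_⟩
        · intro s hs
          have h3 := hu _ (mem_union_right _ (mem_image_of_mem _ hs))
          have h4 := hcut s (mem_union_left _ hs)
          rw [finrank_Dst (AlgHom.id F F) h4.2.le, Nat.sub_sub_self h4.2.le] at h3
          exact actS_Dst_iff.mp h3.symm
        · intro s hs
          exact (h1 _ (mem_filter.mp hs).2).1.2.2.2.2
        · simp only [image_image]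
          ext W
          simp only [mem_image, mem_filter, Function.comp]
          constructor
          · rintro ⟨s, hs, rfl⟩; exact hs.2
          · intro hW
            obtain ⟨s, hs, h3⟩ := mem_image.mp (h1 W hW).2.1
            have h4 := hu W (mem_union_left _ hW)
            rw [← h3, Nat.sub_sub_self (hcut s (mem_union_right _ hs)).2.le] at h4
            exact ⟨s, ⟨hs, h4 ▸ hW⟩, h4.symm⟩)
  convert key
  ext σ
  constructor
  · rintro ⟨u, h1, S', h2, h3, rfl⟩
    exact ⟨_, ⟨u, h1, S', h2, h3, rfl⟩, by simp only [image_image]; rfl⟩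
  · rintro ⟨_, ⟨u, h1, S', h2, h3, rfl⟩, rfl⟩
    exact ⟨u, h1, S', h2, h3, by simp only [image_image]; rfl⟩

end U

end Vale.Agent.P067
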